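import Vale.Agent.P147.Levy

/-!
# Levels, records, trials in fresh half-spaces
-/

open MeasureTheory ProbabilityTheory Filter Finset
open scoped ENNReal Topology

namespace Vale.P147

variable {d : ℕ}

/-! ### Levels -/

lemma level_zero (ℓ : Fin d → ℝ) : level ℓ 0 = 0 := by simp [level]

lemma level_sub (ℓ : Fin d → ℝ) (x y : Site d) : level ℓ (x - y) = level ℓ x - level ℓ y := by
  simp [level, sub_mul, Finset.sum_sub_distrib]

lemma level_add (ℓ : Fin d → ℝ) (x y : Site d) : level ℓ (x + y) = level ℓ x + level ℓ y := by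
  simp [level, add_mul, Finset.sum_add_distrib]

lemma level_neg (ℓ : Fin d → ℝ) (x : Site d) : level (-ℓ) x = - level ℓ x := by
  simp [level, Finset.sum_neg_distrib]

lemma level_sub_smul (u ℓ : Fin d → ℝ) (a : ℝ) (x : Site d) :
    level (u - a • ℓ) x = level u x - a * level ℓ x := by
  simp only [level, Pi.sub_apply, Pi.smul_apply, smul_eq_mul, mul_sub, Finset.sum_sub_distrib,
    Finset.mul_sum]
  congr 1
  exact Finset.sum_congr rfl fun i _ => by ring

lemma measurable_level (ℓ : Fin d → ℝ) (n : ℕ) :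
    Measurable (fun X : ℕ → Site d => level ℓ (X n)) :=
  (measurable_of_countable (level ℓ)).comp (measurable_pi_apply n)

/-- Bound for the change of level in one step. -/
def stepBd (ℓ : Fin d → ℝ) : ℝ := ∑ i, |ℓ i|

lemma level_unit_le (ℓ : Fin d → ℝ) (e : Dir d) : level ℓ (unit e) ≤ stepBd ℓ := by
  unfold level stepBd unit
  refine Finset.sum_le_sum fun i _ => ?_
  by_cases h : i = e.1
  · subst h
    rw [Pi.single_eq_same]
    split_ifs
    · simpa using le_abs_self _
    · simpa using neg_le_abs _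
  · rw [Pi.single_eq_of_ne h]
    simp

/-! ### Basic almost sure properties -/

variable (μ : Measure (Row d)) [IsProbabilityMeasure μ]

lemma ae_start : ∀ᵐ X ∂annM μ 0, X 0 = 0 := by
  have h : annM μ 0 ((cyl 0 (fun _ => (0 : Site d)))ᶜ) = 0 := by
    rw [prob_compl_eq_zero_iff (measurableSet_cyl _ _), annM_cyl]
    simp [wt]
  filter_upwards [measure_eq_zero_iff_ae_notMem.1 h] with X hX
  simp only [Set.mem_compl_iff, not_not] at hX
  exact hX 0 le_rfl

lemma ae_step : ∀ᵐ X ∂annM μ 0, ∀ n, ∃ e : Dir d, X (n + 1) - X n = unit e := by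
  rw [ae_all_iff]
  intro n
  have hT : Dep (n + 1) {X : ℕ → Site d | ¬ ∃ e : Dir d, X (n + 1) - X n = unit e} := by
    intro X Y h
    simp only [Set.mem_ofPred_eq, h n (by omega), h (n + 1) le_rfl]
  change annM μ 0 {X | ¬ ∃ e : Dir d, X (n + 1) - X n = unit e} = 0
  classical
  rw [measure_eq_tsum _ hT, ENNReal.tsum_eq_zero]
  intro k
  split_ifs with hk
  · rw [annM_cyl]
    have : wt μ (n + 1) (ext (n + 1) k) = 0 := by
      unfold wt
      have h0 : ∀ ω : Env d, ∏ i ∈ range (n + 1), rowProb (ω (ext (n + 1) k i))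
          (ext (n + 1) k (i + 1) - ext (n + 1) k i) = 0 := by
        intro ω
        refine Finset.prod_eq_zero (Finset.mem_range.2 (Nat.lt_succ_self n)) ?_
        unfold rowProb
        refine Finset.sum_eq_zero fun e _ => ?_
        rw [if_neg, mul_zero]
        intro he
        exact hk ⟨e, he.symm⟩
      simp [h0]
    rw [this, mul_zero]
  · rfl

/-! ### Records and trials -/

/-- `n` is a strict record of the trajectory in direction `v`. -/
def Rec (v : Fin d → ℝ) (n : ℕ) (X : ℕ → Site d) : Prop :=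
  ∀ i < n, level v (X i) < level v (X n)

/-- The trajectory is unbounded in direction `v`. -/
def Unb (v : Fin d → ℝ) (X : ℕ → Site d) : Prop := ∀ K : ℝ, ∃ n, K < level v (X n)

lemma dep_rec (v : Fin d → ℝ) (n : ℕ) : Dep n {X : ℕ → Site d | Rec v n X} := by
  intro X Y h
  simp only [Rec, Set.mem_ofPred_eq]
  exact forall_congr' fun i => forall_congr' fun hi => by rw [h i hi.le, h n le_rfl]

lemma exists_rec_gt {v : Fin d → ℝ} {X : ℕ → Site d} (h : Unb v X) (N : ℕ) :
    ∃ n > N, Rec v n X := by
  classical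
  set M := (Finset.range (N + 1)).sup' ⟨0, by simp⟩ (fun i => level v (X i))
  have hM : ∀ i ≤ N, level v (X i) ≤ M := fun i hi =>
    Finset.le_sup' (fun i => level v (X i)) (Finset.mem_range.2 (by omega))
  have hex := h M
  refine ⟨Nat.find hex, ?_, ?_⟩
  · by_contra hcon
    exact absurd (Nat.find_spec hex) (not_lt.2 (hM _ (not_lt.1 hcon)))
  · intro i hi
    have := Nat.find_min hex hi
    exact lt_of_le_of_lt (not_lt.1 this) (Nat.find_spec hex)

lemma frequently_rec {v : Fin d → ℝ} {X : ℕ → Site d} (h : Unb v X) :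
    ∃ᶠ n in atTop, Rec v n X := by
  rw [Filter.frequently_atTop]
  intro N
  obtain ⟨n, hn, hr⟩ := exists_rec_gt h N
  exact ⟨n, hn.le, hr⟩

lemma rec_fresh {v : Fin d → ℝ} {n : ℕ} {γ : ℕ → Site d} (h : Rec v n γ) :
    ∀ i < n, γ i - γ n ∉ {z : Site d | 0 ≤ level v z} := by
  intro i hi
  simp only [Set.mem_ofPred_eq, level_sub, not_le]
  linarith [h i hi]

/-- Infinitely many records in direction `v` give infinitely many independent trials in fresh
half-spaces, so one of them succeeds. -/
lemma trial {v : Fin d → ℝ} {B : Set (ℕ → Site d)} (hB : MeasurableSet B)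
    (hBv : ∀ X ∈ B, ∀ j, 0 ≤ level v (X j)) (hP : annM μ 0 B ≠ 0) :
    ∀ᵐ X ∂annM μ 0, (∃ᶠ n in atTop, Rec v n X) → ∃ n, Rec v n X ∧ fut n X ∈ B := by
  set Q : Set (ℕ → Site d) := ⋃ n, ({X | Rec v n X} ∩ fut n ⁻¹' B)
  have hQ : MeasurableSet Q := MeasurableSet.iUnion fun n =>
    (dep_rec v n).measurableSet.inter (measurable_fut n hB)
  have key := levy' (annM μ 0) hQ (E := fun n => {X | Rec v n X}) hP (by
    intro n γ hγ
    have hf := fresh_inf μ (rec_fresh hγ) hB hBv
    rw [mul_comm, ← hf]
    refine measure_mono ?_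
    rintro X ⟨h1, h2⟩
    refine ⟨h1, Set.mem_iUnion.2 ⟨n, ?_, h2⟩⟩
    have hd := dep_rec v n X γ (fun i hi => h1 i hi)
    exact hd.2 hγ)
  filter_upwards [key] with X hX hfreq
  have := hX hfreq
  simp only [Q, Set.mem_iUnion] at this
  obtain ⟨n, h1, h2⟩ := this
  exact ⟨n, h1, h2⟩

/-! ### Escape -/

lemma measurableSet_escape (v : Fin d → ℝ) : MeasurableSet (escape v : Set (ℕ → Site d)) := by
  have : (escape v : Set (ℕ → Site d)) =
      ⋂ K : ℕ, ⋃ N : ℕ, ⋂ n : ℕ, {X | N ≤ n → (K : ℝ) ≤ level v (X n)} := by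
    ext X
    simp only [escape, Set.mem_ofPred_eq, Set.mem_iInter, Set.mem_iUnion]
    rw [tendsto_atTop_atTop]
    constructor
    · intro h K
      obtain ⟨N, hN⟩ := h K
      exact ⟨N, fun n hn => hN n hn⟩
    · intro h b
      obtain ⟨K, hK⟩ := exists_nat_ge b
      obtain ⟨N, hN⟩ := h K
      exact ⟨N, fun n hn => hK.trans (hN n hn)⟩
  rw [this]
  refine MeasurableSet.iInter fun K => MeasurableSet.iUnion fun N => MeasurableSet.iInter fun n => ?_
  by_cases hN : N ≤ n
  · simp only [hN, true_imp_iff]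
    exact measurableSet_le measurable_const (measurable_level v n)
  · simp [hN]

/-- The walk escapes in direction `v` and stays strictly above its starting level. -/
def Up (v : Fin d → ℝ) : Set (ℕ → Site d) :=
  {X | ∀ n, 1 ≤ n → 0 < level v (X n)} ∩ {X | X 0 = 0} ∩ escape v

lemma measurableSet_Up (v : Fin d → ℝ) : MeasurableSet (Up v : Set (ℕ → Site d)) := by
  refine MeasurableSet.inter (MeasurableSet.inter ?_ ?_) (measurableSet_escape v)
  · have : {X : ℕ → Site d | ∀ n, 1 ≤ n → 0 < level v (X n)} =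
        ⋂ n : ℕ, {X | 1 ≤ n → 0 < level v (X n)} := by
      ext X; simp
    rw [this]
    refine MeasurableSet.iInter fun n => ?_
    by_cases hn : 1 ≤ n
    · simp only [hn, true_imp_iff]
      exact measurableSet_lt measurable_const (measurable_level v n)
    · simp [hn]
  · exact (measurable_pi_apply 0) (measurableSet_singleton _)

lemma fut_escape_iff {v : Fin d → ℝ} {n : ℕ} {X : ℕ → Site d} :
    fut n X ∈ escape v ↔ X ∈ escape v := by
  simp only [escape, Set.mem_ofPred_eq, fut, level_sub]
  constructor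
  · intro h
    have h1 : Tendsto (fun m => level v (X (n + m)) - level v (X n) + level v (X n)) atTop atTop :=
      tendsto_atTop_add_const_right _ _ h
    have h2 : Tendsto (fun m => level v (X (m + n))) atTop atTop := by
      refine h1.congr fun m => ?_
      rw [sub_add_cancel, add_comm]
    exact (tendsto_add_atTop_iff_nat n).1 h2
  · intro h
    have h2 : Tendsto (fun m => level v (X (m + n))) atTop atTop :=
      (tendsto_add_atTop_iff_nat n).2 h
    have h3 := tendsto_atTop_add_const_right _ (-level v (X n)) h2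
    refine h3.congr fun m => ?_
    rw [add_comm m n, sub_eq_add_neg]

lemma escape_subset (v : Fin d → ℝ) : (escape v : Set (ℕ → Site d)) ⊆ ⋃ n, fut n ⁻¹' (Up v) := by
  classical
  intro X hX
  have hX' : Tendsto (fun n => level v (X n)) atTop atTop := hX
  obtain ⟨N, hN⟩ := (hX'.eventually_gt_atTop (level v (X 0))).exists_forall_of_atTop
  -- minimum over `range (N+1)`
  obtain ⟨m, hm, hmin⟩ := Finset.exists_min_image (range (N + 1)) (fun i => level v (X i))
    ⟨0, by simp⟩
  have hglob : ∀ i, level v (X m) ≤ level v (X i) := by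
    intro i
    rcases Nat.lt_or_ge i (N + 1) with h | h
    · exact hmin i (Finset.mem_range.2 h)
    · exact (hmin 0 (by simp)).trans (hN i (by omega)).le
  -- last time of the minimum
  set S := (range (N + 1)).filter (fun i => level v (X i) = level v (X m))
  have hSne : S.Nonempty := ⟨m, by simp only [S, Finset.mem_filter]; exact ⟨hm, trivial⟩⟩
  set n := S.max' hSne
  have hnS : n ∈ S := S.max'_mem hSne
  have hnlev : level v (X n) = level v (X m) := (Finset.mem_filter.1 hnS).2
  refine Set.mem_iUnion.2 ⟨n, ⟨⟨?_, ?_⟩, fut_escape_iff.2 hX⟩⟩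
  · intro j hj
    simp only [fut, level_sub, sub_pos]
    rw [hnlev]
    refine lt_of_le_of_ne (hglob _) fun heq => ?_
    by_cases hr : n + j < N + 1
    · have : n + j ∈ S := Finset.mem_filter.2 ⟨Finset.mem_range.2 hr, heq.symm⟩
      have := S.le_max' _ this
      omega
    · have h1 := hN (n + j) (by omega)
      have h2 := hmin 0 (by simp)
      linarith
  · simp [fut]

/-- If escape has positive probability, so has escape staying above the starting level. -/
lemma up_pos {v : Fin d → ℝ} (h : annM μ 0 (escape v) ≠ 0) : annM μ 0 (Up v) ≠ 0 := by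
  intro h0
  refine h (measure_mono_null (escape_subset v) ?_)
  rw [measure_iUnion_null_iff]
  exact fun n => annM_fut_null μ n (measurableSet_Up v) h0

lemma up_level_nonneg {v : Fin d → ℝ} : ∀ X ∈ Up v, ∀ j, 0 ≤ level v (X j) := by
  rintro X ⟨⟨h1, h2⟩, _⟩ j
  rcases Nat.eq_zero_or_pos j with rfl | hj
  · rw [Set.mem_ofPred_eq] at h2
    rw [h2, level_zero]
  · exact (h1 j hj).le

/-- Almost surely, a trajectory which is unbounded in direction `v` escapes in direction `v`. -/
lemma unb_escape {v : Fin d → ℝ} (h : annM μ 0 (escape v) ≠ 0) :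
    ∀ᵐ X ∂annM μ 0, Unb v X → X ∈ escape v := by
  filter_upwards [trial μ (measurableSet_Up v) up_level_nonneg (up_pos μ h)] with X hX hU
  obtain ⟨n, _, hn⟩ := hX (frequently_rec hU)
  exact fut_escape_iff.1 hn.2

/-! ### Returns -/

/-- The walk reaches level `J` and later is at a level `≤ c`. -/
def Ret (v : Fin d → ℝ) (J c : ℝ) : Set (ℕ → Site d) :=
  {X | ∃ n m, n ≤ m ∧ J ≤ level v (X n) ∧ level v (X m) ≤ c}

lemma measurableSet_Ret (v : Fin d → ℝ) (J c : ℝ) : MeasurableSet (Ret v J c : Set (ℕ → Site d)) := by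
  have : (Ret v J c : Set (ℕ → Site d)) = ⋃ n : ℕ, ⋃ m : ℕ,
      {X | n ≤ m ∧ J ≤ level v (X n) ∧ level v (X m) ≤ c} := by
    ext X; simp [Ret]
  rw [this]
  refine MeasurableSet.iUnion fun n => MeasurableSet.iUnion fun m => ?_
  by_cases hnm : n ≤ m
  · simp only [hnm, true_and]
    exact (measurableSet_le measurable_const (measurable_level v n)).inter
      (measurableSet_le (measurable_level v m) measurable_const)
  · simp [hnm]

lemma ret_tendsto {v : Fin d → ℝ} (h : annM μ 0 (escape v) ≠ 0) (c : ℝ) :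
    Tendsto (fun J : ℕ => annM μ 0 (Ret v J c)) atTop (𝓝 0) := by
  have hanti : Antitone fun J : ℕ => (Ret v (J : ℝ) c : Set (ℕ → Site d)) := by
    intro J J' hJ X hX
    obtain ⟨n, m, hnm, h1, h2⟩ := hX
    exact ⟨n, m, hnm, le_trans (by exact_mod_cast hJ) h1, h2⟩
  have hlim := tendsto_measure_iInter_atTop (μ := annM μ 0)
    (s := fun J : ℕ => Ret v (J : ℝ) c)
    (fun J => (measurableSet_Ret v (J : ℝ) c).nullMeasurableSet) hanti ⟨0, measure_ne_top _ _⟩
  have hz : annM μ 0 (⋂ J : ℕ, Ret v (J : ℝ) c) = 0 := by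
    have hsub : (⋂ J : ℕ, Ret v (J : ℝ) c) ⊆ {X : ℕ → Site d | ¬ (Unb v X → X ∈ escape v)} := by
      intro X hX
      simp only [Set.mem_iInter] at hX
      simp only [Set.mem_ofPred_eq, Classical.not_imp]
      refine ⟨fun K => ?_, fun hesc => ?_⟩
      · obtain ⟨J, hJ⟩ := exists_nat_gt K
        obtain ⟨n, m, hnm, h1, h2⟩ := hX J
        exact ⟨n, lt_of_lt_of_le hJ h1⟩
      · have hesc' : Tendsto (fun n => level v (X n)) atTop atTop := hesc
        obtain ⟨N, hN⟩ := (hesc'.eventually_gt_atTop c).exists_forall_of_atTop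
        set M := (Finset.range (N + 1)).sup' ⟨0, by simp⟩ (fun i => level v (X i))
        have hM : ∀ i ≤ N, level v (X i) ≤ M := fun i hi =>
          Finset.le_sup' (fun i => level v (X i)) (Finset.mem_range.2 (by omega))
        obtain ⟨J, hJ⟩ := exists_nat_gt M
        obtain ⟨n, m, hnm, h1, h2⟩ := hX J
        have hnN : N < n := by
          by_contra hcon
          linarith [hM n (not_lt.1 hcon)]
        linarith [hN m (by omega)]
    exact measure_mono_null hsub (unb_escape μ h)
  rw [hz] at hlim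
  exact hlim

end Vale.P147
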