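import Vale.Agent.P147.Basic

/-!
# The walk stays in a cone: competition of the two escapes across a tilted hyperplane
-/

open MeasureTheory ProbabilityTheory Filter Finset
open scoped ENNReal Topology

namespace Vale.P147

variable {d : ℕ}

/-- Reach level `K` while staying strictly above the starting level and in `{v ≤ 0}`, with the
level `K` exceeded at time `m`. -/
def SpT (ℓ v : Fin d → ℝ) (K : ℝ) (m : ℕ) : Set (ℕ → Site d) :=
  {X | X 0 = 0 ∧ K ≤ level ℓ (X m) ∧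
    ∀ i, 1 ≤ i → i ≤ m → 0 < level ℓ (X i) ∧ level v (X i) ≤ 0}

/-- Reach level `K` while staying strictly above the starting level and in `{v ≤ 0}`. -/
def Sp (ℓ v : Fin d → ℝ) (K : ℝ) : Set (ℕ → Site d) := ⋃ m, SpT ℓ v K m

lemma dep_SpT (ℓ v : Fin d → ℝ) (K : ℝ) (m : ℕ) : Dep m (SpT ℓ v K m) := by
  intro X Y h
  simp only [SpT, Set.mem_ofPred_eq]
  rw [h 0 (Nat.zero_le _), h m le_rfl]
  refine and_congr_right fun _ => and_congr_right fun _ => ?_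
  exact forall_congr' fun i => forall_congr' fun _ => forall_congr' fun hi => by rw [h i hi]

lemma measurableSet_Sp (ℓ v : Fin d → ℝ) (K : ℝ) : MeasurableSet (Sp ℓ v K) :=
  MeasurableSet.iUnion fun m => (dep_SpT ℓ v K m).measurableSet

lemma Sp_anti {ℓ v : Fin d → ℝ} {K K' : ℝ} (h : K ≤ K') : Sp ℓ v K' ⊆ Sp ℓ v K := by
  refine Set.iUnion_mono fun m X hX => ?_
  exact ⟨hX.1, h.trans hX.2.1, hX.2.2⟩

lemma Sp_nonneg_v {ℓ v : Fin d → ℝ} {K : ℝ} (m : ℕ) :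
    ∀ X ∈ SpT ℓ v K m, ∀ j < m, X j ∈ {z : Site d | 0 ≤ level (-v) z} := by
  rintro X ⟨h0, -, h2⟩ j hj
  simp only [Set.mem_ofPred_eq, level_neg]
  rcases Nat.eq_zero_or_pos j with rfl | hj0
  · rw [h0, level_zero]; simp
  · linarith [(h2 j hj0 hj.le).2]

open Classical in
lemma measure_inter_eq_tsum (ν : Measure (ℕ → Site d)) {n : ℕ} {T Y : Set (ℕ → Site d)}
    (hT : Dep n T) :
    ν (T ∩ Y) = ∑' h : Fin (n + 1) → Site d,
      if ext n h ∈ T then ν (cyl n (ext n h) ∩ Y) else 0 := by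
  have h := measure_eq_tsum (ν.restrict Y) hT
  rw [Measure.restrict_apply hT.measurableSet] at h
  rw [h]
  refine tsum_congr fun k => ?_
  split_ifs with hk
  · rw [Measure.restrict_apply (measurableSet_cyl _ _)]
  · rfl

variable (μ : Measure (Row d)) [IsProbabilityMeasure μ]

/-- Product formula for an event of the past whose end-point is at the boundary of a fresh
half-space. -/
lemma fresh_event_stop {n : ℕ} {V : Set (ℕ → Site d)} (hV : Dep n V) {R : Set (Site d)}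
    (hVR : ∀ γ ∈ V, ∀ i < n, γ i - γ n ∉ R) {T : ℕ → Set (ℕ → Site d)}
    (hT : ∀ m, Dep m (T m)) (hR : ∀ m, ∀ X ∈ T m, ∀ j < m, X j ∈ R) :
    annM μ 0 (V ∩ fut n ⁻¹' (⋃ m, T m)) = annM μ 0 V * annM μ 0 (⋃ m, T m) := by
  classical
  rw [measure_inter_eq_tsum _ hV, measure_eq_tsum (annM μ 0) hV, ← ENNReal.tsum_mul_right]
  refine tsum_congr fun h => ?_
  split_ifs with hh
  · exact fresh_stop μ (hVR _ hh) hT hR
  · simp

/-- The first violation of `{v ≤ 0}` happens at time `n`, below level `K` (up to one step) and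
after level `J` has been reached. -/
def Vio (ℓ v : Fin d → ℝ) (J K : ℝ) (n : ℕ) : Set (ℕ → Site d) :=
  {X | (∀ i < n, level v (X i) ≤ 0) ∧ 0 < level v (X n) ∧ level ℓ (X n) ≤ K + stepBd ℓ ∧
    ∃ m < n, J ≤ level ℓ (X m)}

lemma dep_Vio (ℓ v : Fin d → ℝ) (J K : ℝ) (n : ℕ) : Dep n (Vio ℓ v J K n) := by
  intro X Y h
  simp only [Vio, Set.mem_ofPred_eq]
  rw [h n le_rfl]
  refine and_congr ?_ (and_congr_right fun _ => and_congr_right fun _ => ?_)
  · exact forall_congr' fun i => forall_congr' fun hi => by rw [h i hi.le]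
  · exact exists_congr fun i => and_congr_right fun hi => by rw [h i hi.le]

lemma vio_disjoint (ℓ v : Fin d → ℝ) (J K : ℝ) :
    Pairwise (Function.onFun Disjoint (Vio ℓ v J K)) := by
  intro n n' hne
  rw [Function.onFun, Set.disjoint_left]
  intro X h1 h2
  rcases lt_or_gt_of_ne hne with h | h
  · exact absurd (h2.1 n h) (not_le.2 h1.2.1)
  · exact absurd (h1.1 n' h) (not_le.2 h2.2.1)

/-- The mass of the violation events is paid by returns. -/
lemma vio_le_ret (ℓ v : Fin d → ℝ) (J : ℝ) (K : ℝ) :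
    annM μ 0 (⋃ n, Vio ℓ v J (K + 1) n) * annM μ 0 (Sp (-ℓ) (-v) K) ≤
      annM μ 0 (Ret ℓ J (1 + stepBd ℓ)) := by
  have h1 : ∀ n, annM μ 0 (Vio ℓ v J (K + 1) n ∩ fut n ⁻¹' (Sp (-ℓ) (-v) K)) =
      annM μ 0 (Vio ℓ v J (K + 1) n) * annM μ 0 (Sp (-ℓ) (-v) K) := by
    intro n
    refine fresh_event_stop μ (R := {z : Site d | 0 ≤ level v z}) (dep_Vio _ _ _ _ _) ?_
      (fun m => dep_SpT _ _ _ m) ?_
    · intro γ hγ i hi
      simp only [Set.mem_ofPred_eq, level_sub, not_le]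
      linarith [hγ.1 i hi, hγ.2.1]
    · intro m X hX j hj
      have := Sp_nonneg_v m X hX j hj
      simpa using this
  rw [measure_iUnion (vio_disjoint _ _ _ _) (fun n => (dep_Vio _ _ _ _ n).measurableSet),
    ← ENNReal.tsum_mul_right]
  simp_rw [← h1]
  rw [← measure_iUnion]
  · refine measure_mono ?_
    refine Set.iUnion_subset fun n X hX => ?_
    obtain ⟨⟨-, -, h3, m, hm, h4⟩, h5⟩ := hX
    simp only [Set.mem_preimage, Sp, Set.mem_iUnion] at h5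
    obtain ⟨k, -, h6, -⟩ := h5
    refine ⟨m, n + k, by omega, h4, ?_⟩
    simp only [fut, level_neg, level_sub] at h6
    linarith
  · intro n n' hne
    exact (vio_disjoint ℓ v J (K + 1) hne).mono Set.inter_subset_left Set.inter_subset_left
  · intro n
    exact (dep_Vio _ _ _ _ n).measurableSet.inter (measurable_fut n (measurableSet_Sp _ _ _))

/-- On `Up ℓ`, if level `J` is reached inside `{v ≤ 0}` but not level `K`, there is a violation. -/
lemma up_inter_subset_vio (ℓ v : Fin d → ℝ) (J K : ℝ) :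
    ∀ᵐ X ∂annM μ 0, X ∈ (Up ℓ ∩ Sp ℓ v J) \ Sp ℓ v K → X ∈ ⋃ n, Vio ℓ v J K n := by
  classical
  filter_upwards [ae_step μ] with X hstep
  rintro ⟨⟨⟨⟨hpos, h0⟩, hesc⟩, hJ⟩, hK⟩
  rw [Set.mem_ofPred_eq] at h0
  have hesc' : Tendsto (fun n => level ℓ (X n)) atTop atTop := hesc
  obtain ⟨N, hN⟩ := (hesc'.eventually_ge_atTop K).exists
  have hexT : ∃ m, K ≤ level ℓ (X m) := ⟨N, hN⟩
  set t := Nat.find hexT
  have ht : K ≤ level ℓ (X t) := Nat.find_spec hexT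
  have htmin : ∀ i < t, level ℓ (X i) < K := fun i hi => not_le.1 (Nat.find_min hexT hi)
  have hexV : ∃ i, i ≤ t ∧ 0 < level v (X i) := by
    by_contra hcon
    push Not at hcon
    refine hK (Set.mem_iUnion.2 ⟨t, h0, ht, fun i hi1 hi2 => ⟨hpos i hi1, hcon i hi2⟩⟩)
  have hexV' : ∃ i, 0 < level v (X i) := ⟨_, hexV.choose_spec.2⟩
  set s := Nat.find hexV'
  have hs : 0 < level v (X s) := Nat.find_spec hexV'
  have hsmin : ∀ i < s, level v (X i) ≤ 0 := fun i hi => not_lt.1 (Nat.find_min hexV' hi)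
  have hst : s ≤ t := (Nat.find_min' hexV' hexV.choose_spec.2).trans hexV.choose_spec.1
  have hs0 : s ≠ 0 := by
    intro h
    rw [h, h0, level_zero] at hs
    exact lt_irrefl _ hs
  obtain ⟨r, hr⟩ := Nat.exists_eq_succ_of_ne_zero hs0
  refine Set.mem_iUnion.2 ⟨s, hsmin, hs, ?_, ?_⟩
  · obtain ⟨e, he⟩ := hstep r
    have h1 : level ℓ (X s) = level ℓ (X r) + level ℓ (unit e) := by
      rw [← he, level_sub, hr]; ring
    rw [h1]
    exact add_le_add (htmin r (by omega)).le (level_unit_le ℓ e)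
  · obtain ⟨m, hm⟩ := Set.mem_iUnion.1 hJ
    refine ⟨m, ?_, hm.2.1⟩
    by_contra hcon
    have := (hm.2.2 s (by omega) (by omega)).2
    linarith

/-- As the slope tends to infinity the constraint up to level `J` disappears. -/
lemma up_diff_Sp_tendsto (ℓ u : Fin d → ℝ) (J : ℝ) :
    Tendsto (fun a : ℕ => annM μ 0 (Up ℓ \ Sp ℓ (u - (a : ℝ) • ℓ) J)) atTop (𝓝 0) := by
  have hanti : Antitone fun a : ℕ => (Up ℓ \ Sp ℓ (u - (a : ℝ) • ℓ) J : Set (ℕ → Site d)) := by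
    intro a a' haa X hX
    refine ⟨hX.1, fun hS => hX.2 ?_⟩
    obtain ⟨m, hm⟩ := Set.mem_iUnion.1 hS
    refine Set.mem_iUnion.2 ⟨m, hm.1, hm.2.1, fun i h1 h2 => ⟨(hm.2.2 i h1 h2).1, ?_⟩⟩
    obtain ⟨h3, h4⟩ := hm.2.2 i h1 h2
    rw [level_sub_smul] at h4 ⊢
    have : (a : ℝ) * level ℓ (X i) ≤ (a' : ℝ) * level ℓ (X i) :=
      mul_le_mul_of_nonneg_right (by exact_mod_cast haa) h3.le
    linarith
  have hlim := tendsto_measure_iInter_atTop (μ := annM μ 0)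
    (s := fun a : ℕ => Up ℓ \ Sp ℓ (u - (a : ℝ) • ℓ) J)
    (fun a => ((measurableSet_Up ℓ).diff (measurableSet_Sp _ _ _)).nullMeasurableSet)
    hanti ⟨0, measure_ne_top _ _⟩
  have hempty : (⋂ a : ℕ, (Up ℓ \ Sp ℓ (u - (a : ℝ) • ℓ) J : Set (ℕ → Site d))) = ∅ := by
    rw [Set.eq_empty_iff_forall_notMem]
    intro X hX
    simp only [Set.mem_iInter] at hX
    obtain ⟨⟨hpos, h0⟩, hesc⟩ := (hX 0).1
    rw [Set.mem_ofPred_eq] at h0
    have hesc' : Tendsto (fun n => level ℓ (X n)) atTop atTop := hesc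
    obtain ⟨N, hN⟩ := (hesc'.eventually_ge_atTop J).exists
    set M := (Finset.range (N + 1)).sup' ⟨0, by simp⟩ (fun i => level u (X i) / level ℓ (X i))
    have hM : ∀ i ≤ N, level u (X i) / level ℓ (X i) ≤ M := fun i hi =>
      Finset.le_sup' (fun i => level u (X i) / level ℓ (X i)) (Finset.mem_range.2 (by omega))
    obtain ⟨a, ha⟩ := exists_nat_ge M
    refine (hX a).2 (Set.mem_iUnion.2 ⟨N, h0, hN, fun i h1 h2 => ⟨hpos i h1, ?_⟩⟩)
    rw [level_sub_smul]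
    have h3 := (hM i h2).trans ha
    rw [div_le_iff₀ (hpos i h1)] at h3
    linarith
  rw [hempty, measure_empty] at hlim
  exact hlim

/-- The one-sided competition argument. -/
lemma one_sided {ℓ : Fin d → ℝ} (hℓ : annM μ 0 (escape ℓ) ≠ 0) (u : Fin d → ℝ)
    {q q' ε : ℝ≥0∞} (hε : ε ≠ 0) (hq : q + ε + ε ≤ annM μ 0 (Up ℓ)) (hq' : q' ≠ 0)
    (h : ∃ᶠ a : ℕ in atTop, ∃ K : ℕ, annM μ 0 (Sp ℓ (u - (a : ℝ) • ℓ) (K + 1)) < q ∧
      q' ≤ annM μ 0 (Sp (-ℓ) (-(u - (a : ℝ) • ℓ)) K)) : False := by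
  have hkey : ∀ J : ℕ, ε * q' ≤ annM μ 0 (Ret ℓ J (1 + stepBd ℓ)) := by
    intro J
    have hεpos : 0 < ε := pos_iff_ne_zero.2 hε
    have hev := (up_diff_Sp_tendsto μ ℓ u (J : ℝ)).eventually_lt_const hεpos
    obtain ⟨a, ⟨K, h1, h2⟩, h3⟩ := (h.and_eventually hev).exists
    set v := u - (a : ℝ) • ℓ
    have hA : ε ≤ annM μ 0 (⋃ n, Vio ℓ v J ((K : ℝ) + 1) n) := by
      have h4 : annM μ 0 ((Up ℓ ∩ Sp ℓ v J) \ Sp ℓ v (K + 1)) ≤
          annM μ 0 (⋃ n, Vio ℓ v J ((K : ℝ) + 1) n) :=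
        measure_mono_ae (up_inter_subset_vio μ ℓ v J (K + 1))
      refine le_trans ?_ h4
      have h5 : annM μ 0 (Up ℓ) ≤ annM μ 0 ((Up ℓ ∩ Sp ℓ v J) \ Sp ℓ v (K + 1)) +
          annM μ 0 (Sp ℓ v (K + 1)) + annM μ 0 (Up ℓ \ Sp ℓ v J) := by
        calc annM μ 0 (Up ℓ) ≤ annM μ 0 ((((Up ℓ ∩ Sp ℓ v J) \ Sp ℓ v (K + 1)) ∪
              Sp ℓ v (K + 1)) ∪ (Up ℓ \ Sp ℓ v J)) := by
              refine measure_mono fun X hX => ?_
              by_cases hXJ : X ∈ Sp ℓ v J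
              · by_cases hXK : X ∈ Sp ℓ v (K + 1)
                · exact Or.inl (Or.inr hXK)
                · exact Or.inl (Or.inl ⟨⟨hX, hXJ⟩, hXK⟩)
              · exact Or.inr ⟨hX, hXJ⟩
          _ ≤ _ := (measure_union_le _ _).trans (by gcongr; exact measure_union_le _ _)
      have h6 : q + ε + ε ≤ annM μ 0 ((Up ℓ ∩ Sp ℓ v J) \ Sp ℓ v (K + 1)) + q + ε := by
        refine hq.trans (h5.trans ?_)
        gcongr
      have hqtop : q ≠ ∞ := by
        refine ne_top_of_le_ne_top (measure_ne_top (annM μ 0) (Up ℓ)) (le_trans ?_ hq)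
        rw [add_assoc]; exact le_self_add
      have hεtop : ε ≠ ∞ := by
        refine ne_top_of_le_ne_top (measure_ne_top (annM μ 0) (Up ℓ)) (le_trans ?_ hq)
        exact le_add_self
      have h7 : ε + (q + ε) ≤ annM μ 0 ((Up ℓ ∩ Sp ℓ v J) \ Sp ℓ v (K + 1)) + (q + ε) := by
        calc ε + (q + ε) = q + ε + ε := by ring
          _ ≤ _ := h6
          _ = _ := by ring
      exact (ENNReal.add_le_add_iff_right (ENNReal.add_ne_top.2 ⟨hqtop, hεtop⟩)).1 h7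
    calc ε * q' ≤ annM μ 0 (⋃ n, Vio ℓ v J ((K : ℝ) + 1) n) * annM μ 0 (Sp (-ℓ) (-v) K) := by
          gcongr
      _ ≤ _ := vio_le_ret μ ℓ v J K
  have hlim := ret_tendsto μ hℓ (1 + stepBd ℓ)
  have := ge_of_tendsto' hlim hkey
  have h0 : ε * q' = 0 := le_antisymm this zero_le
  rcases mul_eq_zero.1 h0 with h | h
  · exact hε h
  · exact hq' h

/-- Both walks stay on their side of some line with high conditional probability. -/
lemma exists_slope {ℓ : Fin d → ℝ} (hℓ : annM μ 0 (escape ℓ) ≠ 0)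
    (hℓ' : annM μ 0 (escape (-ℓ)) ≠ 0) (u : Fin d → ℝ) {q q' ε : ℝ≥0∞} (hε : ε ≠ 0)
    (hq : q + ε + ε ≤ annM μ 0 (Up ℓ)) (hq' : q' + ε + ε ≤ annM μ 0 (Up (-ℓ)))
    (hq0 : q ≠ 0) (hq0' : q' ≠ 0) :
    ∃ a : ℕ, ∀ K : ℕ, q ≤ annM μ 0 (Sp ℓ (u - (a : ℝ) • ℓ) K) := by
  classical
  by_contra hcon
  push Not at hcon
  -- for every `a` there is a first bad level
  have hex : ∀ a : ℕ, ∃ K : ℕ, annM μ 0 (Sp ℓ (u - (a : ℝ) • ℓ) K) < q ∨
      annM μ 0 (Sp (-ℓ) (-(u - (a : ℝ) • ℓ)) K) < q' := fun a => by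
    obtain ⟨K, hK⟩ := hcon a
    exact ⟨K, Or.inl hK⟩
  have hq1 : q ≤ 1 := le_trans (by rw [add_assoc]; exact le_self_add) (hq.trans prob_le_one)
  have hq1' : q' ≤ 1 := le_trans (by rw [add_assoc]; exact le_self_add) (hq'.trans prob_le_one)
  have hzero : ∀ (ℓ v : Fin d → ℝ), annM μ 0 (Sp ℓ v ((0 : ℕ) : ℝ)) = 1 := by
    intro ℓ v
    rw [← mem_ae_iff_prob_eq_one (measurableSet_Sp _ _ _)]
    filter_upwards [ae_start μ] with X hX
    refine Set.mem_iUnion.2 ⟨0, hX, ?_, fun i h1 h2 => by omega⟩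
    rw [hX, level_zero]; simp
  have hspec : ∀ a : ℕ, ∃ K : ℕ, (annM μ 0 (Sp ℓ (u - (a : ℝ) • ℓ) (K + 1)) < q ∨
      annM μ 0 (Sp (-ℓ) (-(u - (a : ℝ) • ℓ)) (K + 1)) < q') ∧
      q ≤ annM μ 0 (Sp ℓ (u - (a : ℝ) • ℓ) K) ∧
      q' ≤ annM μ 0 (Sp (-ℓ) (-(u - (a : ℝ) • ℓ)) K) := by
    intro a
    have h1 := Nat.find_spec (hex a)
    have h2 : ∀ k < Nat.find (hex a), _ := fun k hk => Nat.find_min (hex a) hk
    set N := Nat.find (hex a) with hN
    have hN0 : N ≠ 0 := by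
      intro h0
      rw [h0] at h1
      rw [hzero, hzero] at h1
      rcases h1 with h | h
      · exact absurd h (not_lt.2 hq1)
      · exact absurd h (not_lt.2 hq1')
    obtain ⟨K, hK⟩ := Nat.exists_eq_succ_of_ne_zero hN0
    have h3 := h2 K (by omega)
    push Not at h3
    refine ⟨K, ?_, h3⟩
    rw [hK] at h1
    simpa [Nat.succ_eq_add_one, Nat.cast_add, Nat.cast_one] using h1
  have hfreq : (∃ᶠ a : ℕ in atTop, ∃ K : ℕ, annM μ 0 (Sp ℓ (u - (a : ℝ) • ℓ) (K + 1)) < q ∧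
      q' ≤ annM μ 0 (Sp (-ℓ) (-(u - (a : ℝ) • ℓ)) K)) ∨
      (∃ᶠ a : ℕ in atTop, ∃ K : ℕ, annM μ 0 (Sp (-ℓ) (-(u - (a : ℝ) • ℓ)) (K + 1)) < q' ∧
      q ≤ annM μ 0 (Sp ℓ (u - (a : ℝ) • ℓ) K)) := by
    rw [← Filter.frequently_or_distrib]
    refine Filter.Eventually.frequently (Filter.Eventually.of_forall fun a => ?_)
    obtain ⟨K, h1, h2, h3⟩ := hspec a
    rcases h1 with h1 | h1
    · exact Or.inl ⟨K, h1, h3⟩
    · exact Or.inr ⟨K, h1, h2⟩
  rcases hfreq with h | h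
  · exact one_sided μ hℓ u hε hq hq0' h
  · refine one_sided μ hℓ' (-u) hε hq' hq0 (h.mono fun a ha => ?_)
    obtain ⟨K, h1, h2⟩ := ha
    refine ⟨K, ?_, ?_⟩
    · have e : (-u - (a : ℝ) • -ℓ) = -(u - (a : ℝ) • ℓ) := by
        ext i; simp; ring
      rw [e]; exact h1
    · have e : (-(-u - (a : ℝ) • -ℓ)) = (u - (a : ℝ) • ℓ) := by
        ext i; simp; ring
      rw [e, neg_neg]; exact h2

end Vale.P147
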