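import Vale.Agent.P147.Cone

/-!
# The cone property, almost surely on the escape event
-/

open MeasureTheory ProbabilityTheory Filter Finset
open scoped ENNReal Topology

namespace Vale.P147

variable {d : ℕ}

/-- Stay forever below the line of slope `a` in direction `u`. -/
def Cn (ℓ u : Fin d → ℝ) (a : ℝ) : Set (ℕ → Site d) :=
  {X | ∀ i, 1 ≤ i → level u (X i) ≤ a * level ℓ (X i)}

lemma measurableSet_Cn (ℓ u : Fin d → ℝ) (a : ℝ) : MeasurableSet (Cn ℓ u a) := by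
  have : Cn ℓ u a = ⋂ i : ℕ, {X : ℕ → Site d | 1 ≤ i → level u (X i) ≤ a * level ℓ (X i)} := by
    ext X; simp [Cn]
  rw [this]
  refine MeasurableSet.iInter fun i => ?_
  by_cases hi : 1 ≤ i
  · simp only [hi, true_imp_iff]
    exact measurableSet_le (measurable_level u i) ((measurable_level ℓ i).const_mul a)
  · simp [hi]

lemma iInter_Sp_subset (ℓ u : Fin d → ℝ) (a : ℝ) {X : ℕ → Site d}
    (hX : X ∈ ⋂ K : ℕ, Sp ℓ (u - a • ℓ) K) :
    X 0 = 0 ∧ Unb ℓ X ∧ ∀ i, 1 ≤ i → 0 < level ℓ (X i) ∧ level u (X i) ≤ a * level ℓ (X i) := by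
  simp only [Set.mem_iInter] at hX
  refine ⟨?_, fun K => ?_, fun i hi => ?_⟩
  · obtain ⟨m, hm⟩ := Set.mem_iUnion.1 (hX 0)
    exact hm.1
  · obtain ⟨J, hJ⟩ := exists_nat_gt K
    obtain ⟨m, hm⟩ := Set.mem_iUnion.1 (hX J)
    exact ⟨m, lt_of_lt_of_le hJ hm.2.1⟩
  · set M := (Finset.range (i + 1)).sup' ⟨0, by simp⟩ (fun i => level ℓ (X i))
    have hM : ∀ j ≤ i, level ℓ (X j) ≤ M := fun j hj =>
      Finset.le_sup' (fun i => level ℓ (X i)) (Finset.mem_range.2 (by omega))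
    obtain ⟨J, hJ⟩ := exists_nat_gt M
    obtain ⟨m, hm⟩ := Set.mem_iUnion.1 (hX J)
    have him : i ≤ m := by
      by_contra hcon
      linarith [hM m (by omega), hm.2.1]
    obtain ⟨h1, h2⟩ := hm.2.2 i hi him
    rw [level_sub_smul] at h2
    exact ⟨h1, by linarith⟩

variable (μ : Measure (Row d)) [IsProbabilityMeasure μ]

lemma exists_slope' {ℓ : Fin d → ℝ} (hℓ : annM μ 0 (escape ℓ) ≠ 0)
    (hℓ' : annM μ 0 (escape (-ℓ)) ≠ 0) (u : Fin d → ℝ) {q : ℝ≥0∞}
    (hq : q < annM μ 0 (Up ℓ)) (hq0 : q ≠ 0) :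
    ∃ a : ℕ, ∀ K : ℕ, q ≤ annM μ 0 (Sp ℓ (u - (a : ℝ) • ℓ) K) := by
  have hup' := up_pos μ hℓ'
  set π := annM μ 0 (Up ℓ)
  set π' := annM μ 0 (Up (-ℓ))
  set ε := min ((π - q) / 2) (π' / 2 / 2)
  have hε : ε ≠ 0 := by
    simp only [ε, ne_eq, min_eq_iff, not_or]
    have h1 : (π - q) / 2 ≠ 0 := ENNReal.div_ne_zero.2 ⟨(tsub_pos_of_lt hq).ne', by simp⟩
    have h2 : π' / 2 / 2 ≠ 0 :=
      ENNReal.div_ne_zero.2 ⟨ENNReal.div_ne_zero.2 ⟨hup', by simp⟩, by simp⟩
    exact ⟨fun h => h1 h.1, fun h => h2 h.1⟩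
  refine exists_slope μ hℓ hℓ' u (q := q) (q' := π' / 2) hε ?_ ?_ hq0
    (ENNReal.div_ne_zero.2 ⟨hup', by simp⟩)
  · calc q + ε + ε ≤ q + (π - q) / 2 + (π - q) / 2 := by
          gcongr <;> exact min_le_left _ _
      _ = π := by rw [add_assoc, ENNReal.add_halves, add_tsub_cancel_of_le hq.le]
  · calc π' / 2 + ε + ε ≤ π' / 2 + π' / 2 / 2 + π' / 2 / 2 := by
          gcongr <;> exact min_le_right _ _
      _ = π' := by rw [add_assoc, ENNReal.add_halves, ENNReal.add_halves]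

lemma exists_Cn {ℓ : Fin d → ℝ} (hℓ : annM μ 0 (escape ℓ) ≠ 0)
    (hℓ' : annM μ 0 (escape (-ℓ)) ≠ 0) (u : Fin d → ℝ) {q : ℝ≥0∞}
    (hq : q < annM μ 0 (Up ℓ)) (hq0 : q ≠ 0) :
    ∃ a : ℕ, q ≤ annM μ 0 (Up ℓ ∩ Cn ℓ u a) := by
  obtain ⟨a, ha⟩ := exists_slope' μ hℓ hℓ' u hq hq0
  refine ⟨a, ?_⟩
  have hanti : Antitone fun K : ℕ => (Sp ℓ (u - (a : ℝ) • ℓ) (K : ℝ) : Set (ℕ → Site d)) :=
    fun K K' h => Sp_anti (by exact_mod_cast h)
  have hlim := tendsto_measure_iInter_atTop (μ := annM μ 0)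
    (s := fun K : ℕ => Sp ℓ (u - (a : ℝ) • ℓ) (K : ℝ))
    (fun K => (measurableSet_Sp _ _ _).nullMeasurableSet) hanti ⟨0, measure_ne_top _ _⟩
  have h1 : q ≤ annM μ 0 (⋂ K : ℕ, Sp ℓ (u - (a : ℝ) • ℓ) (K : ℝ)) :=
    ge_of_tendsto' hlim ha
  refine h1.trans (measure_mono_ae ?_)
  filter_upwards [unb_escape μ hℓ] with X hesc hX
  obtain ⟨h0, hU, hc⟩ := iInter_Sp_subset ℓ u a hX
  exact ⟨⟨⟨fun i hi => (hc i hi).1, h0⟩, hesc hU⟩, fun i hi => (hc i hi).2⟩

/-- The walk stays in a cone around the direction `ℓ` and escapes. -/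
def ConeEv (ℓ : Fin d → ℝ) (a : ℝ) : Set (ℕ → Site d) :=
  Up ℓ ∩ {X | ∀ i, ∀ j, |(X i j : ℝ)| ≤ a * level ℓ (X i)}

lemma measurableSet_ConeEv (ℓ : Fin d → ℝ) (a : ℝ) : MeasurableSet (ConeEv ℓ a) := by
  refine (measurableSet_Up ℓ).inter ?_
  have : {X : ℕ → Site d | ∀ i, ∀ j, |(X i j : ℝ)| ≤ a * level ℓ (X i)} =
      ⋂ i : ℕ, (fun X : ℕ → Site d => X i) ⁻¹' {x | ∀ j, |(x j : ℝ)| ≤ a * level ℓ x} := by
    ext X; simp
  rw [this]
  exact MeasurableSet.iInter fun i => (measurable_pi_apply i) (Set.to_countable _).measurableSet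

lemma exists_ConeEv {ℓ : Fin d → ℝ} (hℓ : annM μ 0 (escape ℓ) ≠ 0)
    (hℓ' : annM μ 0 (escape (-ℓ)) ≠ 0) : ∃ a : ℕ, annM μ 0 (ConeEv ℓ a) ≠ 0 := by
  classical
  have hup := up_pos μ hℓ
  set π := annM μ 0 (Up ℓ) with hπ
  have hπtop : π ≠ ∞ := measure_ne_top _ _
  set N : ℕ := Fintype.card (Dir d) with hN
  -- the loss allowed for each direction
  set δ : ℝ≥0∞ := π / (N + 2) with hδ
  have hδ0 : δ ≠ 0 := ENNReal.div_ne_zero.2 ⟨hup, by simp [ENNReal.add_eq_top]⟩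
  have hδπ : (N + 2) * δ = π := by
    rw [hδ]
    exact ENNReal.mul_div_cancel (by simp) (by simp [ENNReal.add_eq_top])
  have hδtop : δ ≠ ∞ := by
    refine ne_top_of_le_ne_top hπtop ?_
    rw [← hδπ]
    calc δ = 1 * δ := (one_mul _).symm
      _ ≤ (N + 2) * δ := by
        gcongr
        calc (1 : ℝ≥0∞) ≤ 2 := by norm_num
          _ ≤ N + 2 := le_add_self
  have hq : π - δ < π := ENNReal.sub_lt_self hπtop hup hδ0
  have hq0 : π - δ ≠ 0 := by
    intro h
    rw [tsub_eq_zero_iff_le, ← hδπ] at h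
    have h1 : (N + 2) * δ = δ + (N + 1) * δ := by ring
    rw [h1] at h
    have h2 : δ + (N + 1) * δ ≤ δ + 0 := by simpa using h
    have h3 := (ENNReal.add_le_add_iff_left hδtop).1 h2
    have h4 : ((N : ℝ≥0∞) + 1) * δ = 0 := le_antisymm h3 zero_le
    rcases mul_eq_zero.1 h4 with h | h
    · simp at h
    · exact hδ0 h
  choose a ha using fun e : Dir d =>
    exists_Cn μ hℓ hℓ' (fun j => ((unit e : Site d) j : ℝ)) hq hq0
  set A : ℕ := Finset.univ.sup a
  refine ⟨A, ?_⟩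
  -- complement
  have hcompl : ∀ e, annM μ 0 (Up ℓ \ Cn ℓ (fun j => ((unit e : Site d) j : ℝ)) (a e)) ≤ δ := by
    intro e
    have h1 := measure_inter_add_sdiff (μ := annM μ 0) (Up ℓ)
      (measurableSet_Cn ℓ (fun j => ((unit e : Site d) j : ℝ)) (a e))
    have h2 : π - δ + annM μ 0 (Up ℓ \ Cn ℓ (fun j => ((unit e : Site d) j : ℝ)) (a e)) ≤
        π - δ + δ := by
      rw [tsub_add_cancel_of_le (by
        rw [← hδπ]
        calc δ = 1 * δ := (one_mul _).symm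
          _ ≤ (N + 2) * δ := by
            gcongr
            calc (1 : ℝ≥0∞) ≤ 2 := by norm_num
              _ ≤ N + 2 := le_add_self)]
      calc _ ≤ annM μ 0 (Up ℓ ∩ Cn ℓ (fun j => ((unit e : Site d) j : ℝ)) (a e)) +
            annM μ 0 (Up ℓ \ Cn ℓ (fun j => ((unit e : Site d) j : ℝ)) (a e)) := by
            gcongr; exact ha e
        _ = π := h1
    exact (ENNReal.add_le_add_iff_left (ne_top_of_le_ne_top hπtop tsub_le_self)).1 h2
  -- inclusion
  have hsub : Up ℓ ⊆ ConeEv ℓ A ∪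
      ⋃ e : Dir d, (Up ℓ \ Cn ℓ (fun j => ((unit e : Site d) j : ℝ)) (a e)) := by
    intro X hX
    by_cases hall : ∀ e : Dir d, X ∈ Cn ℓ (fun j => ((unit e : Site d) j : ℝ)) (a e)
    · left
      refine ⟨hX, fun i j => ?_⟩
      rcases Nat.eq_zero_or_pos i with rfl | hi
      · have : X 0 = 0 := hX.1.2
        rw [this, level_zero]; simp
      · have hpos : 0 < level ℓ (X i) := hX.1.1 i hi
        have hunit : ∀ b : Bool, level (fun k => ((unit (j, b) : Site d) k : ℝ)) (X i) =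
            (X i j : ℝ) * (if b then 1 else -1) := by
          intro b
          unfold level unit
          rw [Finset.sum_eq_single j]
          · simp only [Pi.single_eq_same]
            split_ifs <;> simp
          · intro k _ hk
            change (X i k : ℝ) * ((Pi.single j (if b = true then 1 else -1) : Site d) k : ℝ) = 0
            rw [Pi.single_eq_of_ne hk]; simp
          · intro h; exact absurd (Finset.mem_univ j) h
        have hle : ∀ b : Bool, level (fun k => ((unit (j, b) : Site d) k : ℝ)) (X i) ≤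
            A * level ℓ (X i) := by
          intro b
          refine (hall (j, b) i hi).trans ?_
          refine mul_le_mul_of_nonneg_right ?_ hpos.le
          exact_mod_cast Finset.le_sup (f := a) (Finset.mem_univ (j, b))
        have h1 := hle true
        have h2 := hle false
        rw [hunit] at h1 h2
        simp only [if_true, mul_one] at h1
        simp only [Bool.false_eq_true, if_false, mul_neg, mul_one] at h2
        rw [abs_le]
        constructor <;> linarith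
    · right
      push Not at hall
      obtain ⟨e, he⟩ := hall
      exact Set.mem_iUnion.2 ⟨e, hX, he⟩
  intro h0
  have h1 : π ≤ N * δ := by
    calc π ≤ annM μ 0 (ConeEv ℓ A ∪
          ⋃ e : Dir d, (Up ℓ \ Cn ℓ (fun j => ((unit e : Site d) j : ℝ)) (a e))) :=
          measure_mono hsub
      _ ≤ annM μ 0 (ConeEv ℓ A) + annM μ 0 (⋃ e : Dir d,
          (Up ℓ \ Cn ℓ (fun j => ((unit e : Site d) j : ℝ)) (a e))) := measure_union_le _ _
      _ = annM μ 0 (⋃ e : Dir d,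
          (Up ℓ \ Cn ℓ (fun j => ((unit e : Site d) j : ℝ)) (a e))) := by rw [h0, zero_add]
      _ ≤ ∑ e : Dir d, annM μ 0 (Up ℓ \ Cn ℓ (fun j => ((unit e : Site d) j : ℝ)) (a e)) :=
          measure_iUnion_fintype_le _ _
      _ ≤ ∑ _e : Dir d, δ := Finset.sum_le_sum fun e _ => hcompl e
      _ = N * δ := by rw [Finset.sum_const, Finset.card_univ, nsmul_eq_mul]
  rw [← hδπ] at h1
  have h2 : (N : ℝ≥0∞) * δ + 2 * δ ≤ N * δ + 0 := by
    calc (N : ℝ≥0∞) * δ + 2 * δ = (N + 2) * δ := by ring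
      _ ≤ N * δ := h1
      _ = N * δ + 0 := (add_zero _).symm
  have h3 := (ENNReal.add_le_add_iff_left (ENNReal.mul_ne_top (by simp) hδtop)).1 h2
  have h4 : (2 : ℝ≥0∞) * δ = 0 := le_antisymm h3 zero_le
  rcases mul_eq_zero.1 h4 with h | h
  · simp at h
  · exact hδ0 h

/-- **Cone property.** If the walk escapes in the directions `ℓ` and `-ℓ` with positive
probability each, then almost surely on escape in direction `ℓ` the walk eventually stays in a
fixed cone around `ℓ`. -/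
theorem cone_ae {ℓ : Fin d → ℝ} (hℓ : annM μ 0 (escape ℓ) ≠ 0)
    (hℓ' : annM μ 0 (escape (-ℓ)) ≠ 0) :
    ∃ c : ℝ, 0 < c ∧ ∀ᵐ X ∂annM μ 0, X ∈ escape ℓ →
      ∀ᶠ n in atTop, ∀ j, c * |(X n j : ℝ)| ≤ level ℓ (X n) := by
  obtain ⟨a, ha⟩ := exists_ConeEv μ hℓ hℓ'
  refine ⟨1 / (a + 1), by positivity, ?_⟩
  filter_upwards [trial μ (measurableSet_ConeEv ℓ a) (fun X hX j => up_level_nonneg X hX.1 j) ha]
    with X hX hesc
  have hesc' : Tendsto (fun n => level ℓ (X n)) atTop atTop := hesc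
  have hU : Unb ℓ X := fun K => (hesc'.eventually_gt_atTop K).exists
  obtain ⟨n, -, hn⟩ := hX (frequently_rec hU)
  have hn' : ∀ i, ∀ j, |(fut n X i j : ℝ)| ≤ a * level ℓ (fut n X i) := hn.2
  set C : ℝ := ∑ j, |(X n j : ℝ)|
  have hC : ∀ j, |(X n j : ℝ)| ≤ C := fun j =>
    Finset.single_le_sum (f := fun j => |(X n j : ℝ)|) (fun _ _ => abs_nonneg _)
      (Finset.mem_univ j)
  have hev : ∀ᶠ m in atTop, C + a * |level ℓ (X n)| ≤ level ℓ (X m) :=
    hesc'.eventually_ge_atTop _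
  filter_upwards [hev, eventually_ge_atTop n] with m hm hnm j
  obtain ⟨i, rfl⟩ := Nat.exists_eq_add_of_le hnm
  have h1 := hn' i j
  simp only [fut, level_sub, Pi.sub_apply, Int.cast_sub] at h1
  have h2 : |(X (n + i) j : ℝ)| ≤ (a + 1) * level ℓ (X (n + i)) := by
    have h3 : |(X (n + i) j : ℝ)| ≤ |(X (n + i) j : ℝ) - X n j| + |(X n j : ℝ)| := by
      have := abs_add_le ((X (n + i) j : ℝ) - X n j) (X n j)
      simpa using this
    have h4 : -level ℓ (X n) ≤ |level ℓ (X n)| := neg_le_abs _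
    have ha0 : (0 : ℝ) ≤ a := Nat.cast_nonneg a
    have h5 := mul_le_mul_of_nonneg_left h4 ha0
    linarith [hC j]
  rw [div_mul_eq_mul_div, one_mul, div_le_iff₀ (by positivity)]
  linarith

end Vale.P147
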