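import Vale.Agent.P147.Defs

/-!
# Cylinders of trajectories, and the cylinder formula for the quenched law
-/

open MeasureTheory ProbabilityTheory Filter Finset
open scoped ENNReal Topology

namespace Vale.P147

variable {d : ℕ}

/-- The cylinder of all trajectories which agree with `γ` up to time `n`. -/
def cyl (n : ℕ) (γ : ℕ → Site d) : Set (ℕ → Site d) := {X | ∀ i ≤ n, X i = γ i}

/-- `T` depends only on the coordinates `≤ n`. -/
def Dep (n : ℕ) (T : Set (ℕ → Site d)) : Prop :=
  ∀ X Y : ℕ → Site d, (∀ i ≤ n, X i = Y i) → (X ∈ T ↔ Y ∈ T)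

/-- Extend a finite prefix to a trajectory. -/
def ext (n : ℕ) (h : Fin (n + 1) → Site d) : ℕ → Site d :=
  fun i => if hi : i < n + 1 then h ⟨i, hi⟩ else 0

/-- The prefix of a trajectory. -/
def pre (n : ℕ) (X : ℕ → Site d) : Fin (n + 1) → Site d := fun i => X i

lemma ext_apply {n : ℕ} (h : Fin (n + 1) → Site d) {i : ℕ} (hi : i ≤ n) :
    ext n h i = h ⟨i, by omega⟩ := by
  unfold ext
  rw [dif_pos (by omega)]

lemma mem_cyl_ext {n : ℕ} (h : Fin (n + 1) → Site d) (X : ℕ → Site d) :
    X ∈ cyl n (ext n h) ↔ pre n X = h := by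
  constructor
  · intro hX
    funext i
    have := hX i (by omega)
    rw [ext_apply h (by omega)] at this
    simpa [pre] using this
  · rintro rfl i hi
    rw [ext_apply _ hi]
    rfl

lemma self_mem_cyl (n : ℕ) (X : ℕ → Site d) : X ∈ cyl n X := fun _ _ => rfl

lemma measurableSet_cyl (n : ℕ) (γ : ℕ → Site d) : MeasurableSet (cyl n γ) := by
  have : cyl n γ = ⋂ i ∈ Set.Iic n, (fun X : ℕ → Site d => X i) ⁻¹' {γ i} := by
    ext X; simp [cyl]
  rw [this]
  exact MeasurableSet.biInter (Set.to_countable _)
    fun i _ => (measurable_pi_apply i) (measurableSet_singleton _)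

lemma cyl_congr {n : ℕ} {γ η : ℕ → Site d} (h : ∀ i ≤ n, γ i = η i) : cyl n γ = cyl n η := by
  ext X
  constructor
  · intro hX i hi; rw [hX i hi, h i hi]
  · intro hX i hi; rw [hX i hi, h i hi]

lemma Dep.eq_iUnion {n : ℕ} {T : Set (ℕ → Site d)} (hT : Dep n T) :
    T = ⋃ h : Fin (n + 1) → Site d, ({X | pre n X = h} ∩ {_X | ext n h ∈ T}) := by
  ext X
  simp only [Set.mem_iUnion, Set.mem_inter_iff, Set.mem_ofPred_eq]
  constructor
  · intro hX
    refine ⟨pre n X, rfl, ?_⟩
    refine (hT X _ ?_).1 hX
    intro i hi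
    rw [ext_apply _ hi]; rfl
  · rintro ⟨h, rfl, hX⟩
    refine (hT X _ ?_).2 hX
    intro i hi
    rw [ext_apply _ hi]; rfl

lemma Dep.measurableSet {n : ℕ} {T : Set (ℕ → Site d)} (hT : Dep n T) : MeasurableSet T := by
  classical
  rw [hT.eq_iUnion]
  refine MeasurableSet.iUnion fun h => ?_
  refine MeasurableSet.inter ?_ ?_
  · have : {X : ℕ → Site d | pre n X = h} = cyl n (ext n h) := by
      ext X; exact (mem_cyl_ext h X).symm
    rw [this]
    exact measurableSet_cyl _ _
  · exact MeasurableSet.const _

open Classical in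
/-- A measure on trajectories of a set depending on finitely many coordinates is the sum over the
cylinders it contains. -/
lemma measure_eq_tsum (ν : Measure (ℕ → Site d)) {n : ℕ} {T : Set (ℕ → Site d)} (hT : Dep n T) :
    ν T = ∑' h : Fin (n + 1) → Site d, if ext n h ∈ T then ν (cyl n (ext n h)) else 0 := by
  conv_lhs => rw [hT.eq_iUnion]
  rw [measure_iUnion]
  · refine tsum_congr fun h => ?_
    have : {X : ℕ → Site d | pre n X = h} = cyl n (ext n h) := by
      ext X; exact (mem_cyl_ext h X).symm
    rw [this]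
    split_ifs with hh
    · congr 1
      ext X; simp [hh]
    · rw [show (cyl n (ext n h) ∩ {_X | ext n h ∈ T}) = ∅ by ext X; simp [hh]]
      simp
  · intro h h' hne
    rw [Function.onFun, Set.disjoint_left]
    rintro X ⟨h1, _⟩ ⟨h2, _⟩
    exact hne (h1.symm.trans h2)
  · intro h
    refine MeasurableSet.inter ?_ (MeasurableSet.const _)
    have : {X : ℕ → Site d | pre n X = h} = cyl n (ext n h) := by
      ext X; exact (mem_cyl_ext h X).symm
    rw [this]
    exact measurableSet_cyl _ _

/-- The generating π-system. -/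
def cylSys (d : ℕ) : Set (Set (ℕ → Site d)) := {S | ∃ n γ, S = cyl n γ}

lemma isPiSystem_cylSys : IsPiSystem (cylSys d) := by
  rintro _ ⟨n, γ, rfl⟩ _ ⟨m, η, rfl⟩ ⟨X, hX, hX'⟩
  refine ⟨max n m, X, ?_⟩
  ext Y
  constructor
  · rintro ⟨h1, h2⟩ i hi
    rcases le_max_iff.1 hi with h | h
    · rw [h1 i h, hX i h]
    · rw [h2 i h, hX' i h]
  · intro h
    refine ⟨fun i hi => ?_, fun i hi => ?_⟩
    · rw [h i (hi.trans (le_max_left _ _)), hX i hi]
    · rw [h i (hi.trans (le_max_right _ _)), hX' i hi]

lemma generateFrom_cylSys :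
    (MeasurableSpace.pi : MeasurableSpace (ℕ → Site d)) = MeasurableSpace.generateFrom (cylSys d) := by
  apply le_antisymm
  · refine iSup_le fun i => ?_
    rintro _ ⟨S, _, rfl⟩
    have : (fun X : ℕ → Site d => X i) ⁻¹' S =
        ⋃ h : {h : Fin (i + 1) → Site d // h (Fin.last i) ∈ S}, cyl i (ext i h.1) := by
      ext X
      simp only [Set.mem_preimage, Set.mem_iUnion, mem_cyl_ext]
      constructor
      · intro h
        exact ⟨⟨pre i X, by simpa [pre] using h⟩, rfl⟩
      · rintro ⟨⟨h, hh⟩, h2⟩
        subst h2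
        simpa [pre] using hh
    rw [this]
    exact MeasurableSet.iUnion fun h => MeasurableSpace.measurableSet_generateFrom ⟨_, _, rfl⟩
  · refine MeasurableSpace.generateFrom_le ?_
    rintro _ ⟨n, γ, rfl⟩
    exact measurableSet_cyl n γ

/-- Finite measures on trajectories which agree on cylinders are equal. -/
lemma ext_cyl {ν₁ ν₂ : Measure (ℕ → Site d)} [IsFiniteMeasure ν₁]
    (h : ∀ n γ, ν₁ (cyl n γ) = ν₂ (cyl n γ)) : ν₁ = ν₂ := by
  refine ext_of_generate_finite (cylSys d) generateFrom_cylSys isPiSystem_cylSys ?_ ?_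
  · rintro _ ⟨n, γ, rfl⟩
    exact h n γ
  · have hd : Dep 0 (Set.univ : Set (ℕ → Site d)) := fun _ _ _ => by simp
    rw [measure_eq_tsum ν₁ hd, measure_eq_tsum ν₂ hd]
    simp [h]

/-! ### The quenched law of cylinders -/

/-- The one-step probabilities of a row. -/
noncomputable def rowProb (p : Row d) (v : Site d) : ℝ≥0∞ :=
  ∑ e : Dir d, ENNReal.ofReal (p.1 e) * (if unit e = v then 1 else 0)

lemma stepLaw_singleton (ω : Env d) (x y : Site d) :
    stepLaw ω x {y} = rowProb (ω x) (y - x) := by
  simp only [stepLaw, Measure.coe_finsetSum, Finset.sum_apply, Measure.smul_apply, smul_eq_mul,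
    rowProb]
  refine Finset.sum_congr rfl fun e _ => ?_
  congr 1
  rw [Measure.dirac_apply' _ (measurableSet_singleton _), Set.indicator_apply]
  simp only [Set.mem_singleton_iff, Pi.one_apply]
  congr 1
  simp only [eq_iff_iff]
  constructor
  · intro h; rw [← h]; simp
  · intro h; rw [h]; simp

lemma measurable_rowProb (v : Site d) : Measurable (fun p : Row d => rowProb p v) := by
  unfold rowProb
  refine Finset.measurable_sum _ fun e _ => ?_
  refine Measurable.mul ?_ measurable_const
  exact ENNReal.measurable_ofReal.comp ((measurable_pi_apply e).comp measurable_subtype_coe)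

lemma rowProb_le_one (p : Row d) (v : Site d) : rowProb p v ≤ 1 := by
  have h := p.2
  calc rowProb p v ≤ ∑ e : Dir d, ENNReal.ofReal (p.1 e) := by
        refine Finset.sum_le_sum fun e _ => ?_
        split_ifs <;> simp
    _ = 1 := by rw [← ENNReal.ofReal_sum_of_nonneg (fun e _ => h.1 e), h.2, ENNReal.ofReal_one]

instance (ω : Env d) (x : Site d) : IsProbabilityMeasure (quenched ω x) := by
  unfold quenched; infer_instance

lemma quenched_map_zero (ω : Env d) (x : Site d) :
    (quenched ω x).map (Preorder.frestrictLe 0) =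
      (Measure.dirac x).map (MeasurableEquiv.piUnique (fun _ : Finset.Iic 0 => Site d)).symm := by
  unfold quenched Kernel.trajMeasure
  rw [Measure.map_comp _ _ (by fun_prop), Kernel.traj_map_frestrictLe, Kernel.partialTraj_self,
    Measure.id_comp]

lemma quenched_cyl_zero (ω : Env d) (x : Site d) (γ : ℕ → Site d) :
    quenched ω x (cyl 0 γ) = if γ 0 = x then 1 else 0 := by
  have h1 : cyl 0 γ = (Preorder.frestrictLe (π := fun _ => Site d) 0) ⁻¹'
      {Preorder.frestrictLe (π := fun _ => Site d) 0 γ} := by
    ext X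
    simp only [cyl, Set.mem_ofPred_eq, Set.mem_preimage, Set.mem_singleton_iff]
    constructor
    · intro h
      funext i
      have := i.2
      simp only [Finset.mem_Iic, Nat.le_zero] at this
      simp only [Preorder.frestrictLe_apply]
      exact h i (by omega)
    · intro h i hi
      exact congrFun h ⟨i, Finset.mem_Iic.2 hi⟩
  rw [h1, ← Measure.map_apply (by fun_prop) (measurableSet_singleton _), quenched_map_zero,
    Measure.map_apply (by fun_prop) (measurableSet_singleton _),
    Measure.dirac_apply' _ (measurableSet_singleton _ |>.preimage (by fun_prop))]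
  by_cases hx : γ 0 = x
  · rw [if_pos hx, Set.indicator_of_mem, Pi.one_apply]
    simp only [Set.mem_preimage, Set.mem_singleton_iff]
    funext i
    have hi := i.2
    simp only [Finset.mem_Iic, Nat.le_zero] at hi
    obtain ⟨i, hi'⟩ := i
    simp only at hi
    subst hi
    simpa [MeasurableEquiv.piUnique] using hx.symm
  · rw [if_neg hx, Set.indicator_of_notMem]
    simp only [Set.mem_preimage, Set.mem_singleton_iff]
    intro h
    have := congrFun h ⟨0, Finset.mem_Iic.2 le_rfl⟩
    exact hx (by simpa [MeasurableEquiv.piUnique] using this.symm)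

lemma quenched_cyl_succ (ω : Env d) (x : Site d) (n : ℕ) (γ : ℕ → Site d) :
    quenched ω x (cyl (n + 1) γ) =
      quenched ω x (cyl n γ) * rowProb (ω (γ n)) (γ (n + 1) - γ n) := by
  have hmeas : Measurable (fun X : ℕ → Site d => (Preorder.frestrictLe n X, X (n + 1))) := by
    fun_prop
  have h1 : cyl (n + 1) γ = (fun X : ℕ → Site d => (Preorder.frestrictLe n X, X (n + 1))) ⁻¹'
      ({Preorder.frestrictLe n γ} ×ˢ {γ (n + 1)}) := by
    ext X
    simp only [cyl, Set.mem_ofPred_eq, Set.mem_preimage, Set.mem_prod, Set.mem_singleton_iff]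
    constructor
    · intro h
      refine ⟨?_, h _ le_rfl⟩
      funext i
      have := i.2
      simp only [Finset.mem_Iic] at this
      exact h i (by omega)
    · rintro ⟨h, h'⟩ i hi
      rcases Nat.lt_or_ge i (n + 1) with hlt | hge
      · exact congrFun h ⟨i, Finset.mem_Iic.2 (by omega)⟩
      · obtain rfl : i = n + 1 := by omega
        exact h'
  have h2 : cyl n γ = (Preorder.frestrictLe (π := fun _ => Site d) n) ⁻¹'
      {Preorder.frestrictLe (π := fun _ => Site d) n γ} := by
    ext X
    simp only [cyl, Set.mem_ofPred_eq, Set.mem_preimage, Set.mem_singleton_iff]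
    constructor
    · intro h
      funext i
      have := i.2
      simp only [Finset.mem_Iic] at this
      exact h i this
    · intro h i hi
      exact congrFun h ⟨i, Finset.mem_Iic.2 hi⟩
  have key := Kernel.map_frestrictLe_trajMeasure_compProd_eq_map_trajMeasure
    (X := fun _ => Site d) (μ₀ := Measure.dirac x) (κ := stepKernel ω) (a := n)
  rw [h1, ← Measure.map_apply hmeas
    ((measurableSet_singleton _).prod (measurableSet_singleton _))]
  unfold quenched
  rw [← key, Measure.compProd_apply_prod (measurableSet_singleton _) (measurableSet_singleton _),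
    lintegral_singleton]
  rw [Measure.map_apply (by fun_prop) (measurableSet_singleton _), ← h2, mul_comm]
  congr 1
  change stepLaw ω (γ n) {γ (n + 1)} = _
  rw [stepLaw_singleton]

lemma quenched_cyl (ω : Env d) (x : Site d) (n : ℕ) (γ : ℕ → Site d) :
    quenched ω x (cyl n γ) =
      (if γ 0 = x then 1 else 0) * ∏ i ∈ range n, rowProb (ω (γ i)) (γ (i + 1) - γ i) := by
  induction n with
  | zero => rw [quenched_cyl_zero]; simp
  | succ n ih => rw [quenched_cyl_succ, ih, Finset.prod_range_succ, mul_assoc]

end Vale.P147
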