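import Mathlib

/-!
# Random walk in an iid random environment on `ℤ^d`: definitions (P147)
-/

open MeasureTheory ProbabilityTheory Filter
open scoped ENNReal Topology

namespace Vale.P147

/-- The sites of `ℤ^d`. -/
abbrev Site (d : ℕ) : Type := Fin d → ℤ

/-- Labels of the `2d` coordinate unit steps. -/
abbrev Dir (d : ℕ) : Type := Fin d × Bool

/-- The unit step with label `e`: `+e_i` for the label `(i, true)` and `-e_i` for `(i, false)`. -/
def unit {d : ℕ} (e : Dir d) : Site d := Pi.single e.1 (if e.2 then 1 else -1)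

/-- The simplex `Δ_U` of probability vectors on the `2d` unit steps. -/
abbrev Row (d : ℕ) : Type := {p : Dir d → ℝ // (∀ e, 0 ≤ p e) ∧ ∑ e, p e = 1}

/-- An environment assigns a transition vector to each site. -/
abbrev Env (d : ℕ) : Type := Site d → Row d

/-- The law of the next position, in the environment `ω`, of a walk standing at `x`. -/
noncomputable def stepLaw {d : ℕ} (ω : Env d) (x : Site d) : Measure (Site d) :=
  ∑ e : Dir d, ENNReal.ofReal ((ω x).1 e) • Measure.dirac (x + unit e)

/-- The one-step transition kernel at time `n` (it only looks at the present position). -/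
noncomputable def stepKernel {d : ℕ} (ω : Env d) (n : ℕ) :
    Kernel (Π _ : Finset.Iic n, Site d) (Site d) where
  toFun h := stepLaw ω (h ⟨n, Finset.mem_Iic.2 le_rfl⟩)
  measurable' := measurable_of_countable _

lemma stepLaw_univ {d : ℕ} (ω : Env d) (x : Site d) : stepLaw ω x Set.univ = 1 := by
  have h := (ω x).2
  simp only [stepLaw, Measure.coe_finsetSum, Finset.sum_apply, Measure.smul_apply, smul_eq_mul,
    measure_univ, mul_one]
  rw [← ENNReal.ofReal_sum_of_nonneg (fun e _ => h.1 e), h.2, ENNReal.ofReal_one]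

instance {d : ℕ} (ω : Env d) (n : ℕ) : IsMarkovKernel (stepKernel ω n) :=
  ⟨fun _ => ⟨stepLaw_univ ω _⟩⟩

/-- The quenched law `P_{x,ω}` of the walk started at `x`: the law on trajectories of the Markov
chain with initial law `δ_x` and transitions `stepLaw ω`. -/
noncomputable def quenched {d : ℕ} (ω : Env d) (x : Site d) : Measure (ℕ → Site d) :=
  Kernel.trajMeasure (X := fun _ => Site d) (Measure.dirac x) (stepKernel ω)

/-- The iid environment law `μ^{⊗ℤ^d}`. -/
noncomputable def envLaw {d : ℕ} (μ : Measure (Row d)) : Measure (Env d) :=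
  Measure.infinitePi fun _ => μ

/-- The annealed probability `P_0(A) = ∫ P_{0,ω}(A) ℙ(dω)`. -/
noncomputable def annealed {d : ℕ} (μ : Measure (Row d)) (A : Set (ℕ → Site d)) : ℝ≥0∞ :=
  ∫⁻ ω, quenched ω 0 A ∂envLaw μ

/-- The inner product `x·ℓ`. -/
def level {d : ℕ} (ℓ : Fin d → ℝ) (x : Site d) : ℝ := ∑ i, (x i : ℝ) * ℓ i

/-- The event `A_ℓ = {X_n·ℓ → +∞}`. -/
def escape {d : ℕ} (ℓ : Fin d → ℝ) : Set (ℕ → Site d) :=
  {X | Tendsto (fun n => level ℓ (X n)) atTop atTop}

/-- The law `μ` of a row is elliptic. -/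
def Elliptic {d : ℕ} (μ : Measure (Row d)) : Prop := ∀ᵐ p ∂μ, ∀ e : Dir d, 0 < p.1 e

end Vale.P147
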