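import Vale.Agent.P147.Defs

/-!
# Euclidean norm of a site (P147)
-/

namespace Vale.P147

/-- Euclidean norm of a site. -/
noncomputable def enorm2 {d : ℕ} (x : Site d) : ℝ := Real.sqrt (∑ i, (x i : ℝ) ^ 2)

end Vale.P147
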