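import Vale.Agent.P147.Law

/-!
# Restarting at a fixed time, and independence of the future in a fresh region
-/

open MeasureTheory ProbabilityTheory Filter Finset
open scoped ENNReal Topology

namespace Vale.P147

variable {d : ℕ} (μ : Measure (Row d)) [IsProbabilityMeasure μ]

lemma annM_map_fut (y : Site d) : (annM μ y).map (fut 0) = annM μ 0 := by
  refine ext_cyl fun M δ => ?_
  rw [Measure.map_apply (measurable_fut 0) (measurableSet_cyl _ _)]
  by_cases h0 : δ 0 = 0
  · have h1 : annM μ y ((cyl 0 (fun _ => y))ᶜ) = 0 := by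
      rw [prob_compl_eq_zero_iff (measurableSet_cyl _ _), annM_cyl]
      simp [wt]
    have e : fut 0 ⁻¹' (cyl M δ) ∩ cyl 0 (fun _ => y) = cyl M (fun j => δ j + y) := by
      rw [Set.inter_comm, cyl_inter_fut_cyl h0, Nat.zero_add]
      refine cyl_congr fun i _ => ?_
      have := glue_add (n := 0) (γ := fun _ => y) h0 i
      rw [Nat.zero_add] at this
      rw [this, add_comm]
    have e' : annM μ y (fut 0 ⁻¹' (cyl M δ)) =
        annM μ y (fut 0 ⁻¹' (cyl M δ) ∩ cyl 0 (fun _ => y)) := by
      refine (measure_inter_conull' ?_).symm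
      exact measure_mono_null (Set.sdiff_subset_compl _ _) h1
    rw [e', e, annM_cyl, annM_cyl, wt_shift]
    simp [h0]
  · rw [cyl_inter_fut_cyl' h0, annM_cyl]
    simp [h0]

lemma annM_cyl_inter_fut_le (n : ℕ) (γ : ℕ → Site d) {B : Set (ℕ → Site d)}
    (hB : MeasurableSet B) : annM μ 0 (cyl n γ ∩ fut n ⁻¹' B) ≤ annM μ 0 B := by
  rw [annM_apply μ 0 ((measurableSet_cyl n γ).inter (measurable_fut n hB))]
  simp_rw [quenched_markov _ _ _ _ hB]
  calc ∫⁻ ω, quenched ω 0 (cyl n γ) * quenched ω (γ n) (fut 0 ⁻¹' B) ∂envLaw μ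
      ≤ ∫⁻ ω, quenched ω (γ n) (fut 0 ⁻¹' B) ∂envLaw μ := by
        refine lintegral_mono fun ω => ?_
        calc quenched ω 0 (cyl n γ) * quenched ω (γ n) (fut 0 ⁻¹' B)
            ≤ 1 * quenched ω (γ n) (fut 0 ⁻¹' B) := by gcongr; exact prob_le_one
          _ = _ := one_mul _
    _ = annM μ (γ n) (fut 0 ⁻¹' B) := (annM_apply μ _ (measurable_fut 0 hB)).symm
    _ = annM μ 0 B := by
        rw [← Measure.map_apply (measurable_fut 0) hB, annM_map_fut]

lemma iUnion_cyl_ext (n : ℕ) : (⋃ h : Fin (n + 1) → Site d, cyl n (ext n h)) = Set.univ := by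
  ext X
  simp only [Set.mem_iUnion, Set.mem_univ, iff_true, mem_cyl_ext]
  exact ⟨_, rfl⟩

/-- An event which is null for the walk is null for the re-centred future. -/
lemma annM_fut_null (n : ℕ) {B : Set (ℕ → Site d)} (hB : MeasurableSet B)
    (h : annM μ 0 B = 0) : annM μ 0 (fut n ⁻¹' B) = 0 := by
  have : fut n ⁻¹' B = ⋃ h : Fin (n + 1) → Site d, (cyl n (ext n h) ∩ fut n ⁻¹' B) := by
    rw [← Set.iUnion_inter, iUnion_cyl_ext, Set.univ_inter]
  rw [this, measure_iUnion_null_iff]
  intro i
  exact le_antisymm ((annM_cyl_inter_fut_le μ n _ hB).trans h.le) zero_le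

/-! ### Fresh regions -/

section Fresh

variable {n : ℕ} {γ : ℕ → Site d} {R : Set (Site d)}

lemma fresh_cyl (hγ : ∀ i < n, γ i - γ n ∉ R) {M : ℕ} {δ : ℕ → Site d}
    (hδ : ∀ j < M, δ j ∈ R) :
    annM μ 0 (cyl n γ ∩ fut n ⁻¹' (cyl M δ)) = annM μ 0 (cyl n γ) * annM μ 0 (cyl M δ) := by
  by_cases h0 : δ 0 = 0
  · rw [cyl_inter_fut_cyl h0, annM_cyl, annM_cyl, annM_cyl, wt_mul]
    · have e1 : wt μ n (glue n γ δ) = wt μ n γ := by
        unfold wt
        refine lintegral_congr fun ω => Finset.prod_congr rfl fun i hi => ?_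
        rw [Finset.mem_range] at hi
        rw [glue_le (by omega), glue_le (by omega)]
      have e2 : wt μ M (fun j => glue n γ δ (n + j)) = wt μ M δ := by
        rw [← wt_shift μ (γ n) M δ]
        congr 1
        funext j
        rw [glue_add h0, add_comm]
      rw [e1, e2, glue_le (Nat.zero_le n)]
      simp only [h0, if_true, one_mul]
      ring
    · intro i hi j hj h
      rw [glue_le hi.le, glue_add h0] at h
      exact hγ i hi (by rw [h]; simpa using hδ j hj)
  · rw [cyl_inter_fut_cyl' h0, annM_cyl μ 0 M δ]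
    simp [h0]

lemma fresh_dep (hγ : ∀ i < n, γ i - γ n ∉ R) {M : ℕ} {T : Set (ℕ → Site d)} (hT : Dep M T)
    (hR : ∀ X ∈ T, ∀ j < M, X j ∈ R) :
    annM μ 0 (cyl n γ ∩ fut n ⁻¹' T) = annM μ 0 (cyl n γ) * annM μ 0 T := by
  classical
  have h1 : annM μ 0 (cyl n γ ∩ fut n ⁻¹' T) =
      (((annM μ 0).restrict (cyl n γ)).map (fut n)) T := by
    rw [Measure.map_apply (measurable_fut n) hT.measurableSet,
      Measure.restrict_apply (measurable_fut n hT.measurableSet), Set.inter_comm]
  rw [h1, measure_eq_tsum _ hT, measure_eq_tsum (annM μ 0) hT, ← ENNReal.tsum_mul_left]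
  refine tsum_congr fun h => ?_
  split_ifs with hh
  · rw [Measure.map_apply (measurable_fut n) (measurableSet_cyl _ _),
      Measure.restrict_apply (measurable_fut n (measurableSet_cyl _ _)), Set.inter_comm]
    exact fresh_cyl μ hγ (hR _ hh)
  · simp

lemma fresh_stop (hγ : ∀ i < n, γ i - γ n ∉ R) {T : ℕ → Set (ℕ → Site d)}
    (hT : ∀ m, Dep m (T m)) (hR : ∀ m, ∀ X ∈ T m, ∀ j < m, X j ∈ R) :
    annM μ 0 (cyl n γ ∩ fut n ⁻¹' (⋃ m, T m)) = annM μ 0 (cyl n γ) * annM μ 0 (⋃ m, T m) := by
  classical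
  set T' : ℕ → Set (ℕ → Site d) := disjointed T
  have hT'sub : ∀ m, T' m ⊆ T m := fun m => disjointed_subset T m
  have hT' : ∀ m, Dep m (T' m) := by
    intro m X Y hXY
    simp only [T', disjointed_eq_inter_compl, Set.mem_inter_iff, Set.mem_iInter, Set.mem_compl_iff]
    refine and_congr (hT m X Y hXY) (forall_congr' fun k => forall_congr' fun hk => not_congr ?_)
    exact hT k X Y fun i hi => hXY i (by omega)
  have hU : (⋃ m, T m) = ⋃ m, T' m := (iUnion_disjointed).symm
  have hdisj : Pairwise (Function.onFun Disjoint T') := disjoint_disjointed T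
  rw [hU, Set.preimage_iUnion, Set.inter_iUnion, measure_iUnion, measure_iUnion hdisj
    (fun m => (hT' m).measurableSet), ← ENNReal.tsum_mul_left]
  · exact tsum_congr fun m => fresh_dep μ hγ (hT' m) fun X hX => hR m X (hT'sub m hX)
  · intro i j hij
    have := hdisj hij
    rw [Function.onFun] at this ⊢
    exact (this.preimage (fut n)).mono Set.inter_subset_right Set.inter_subset_right
  · intro m
    exact (measurableSet_cyl _ _).inter (measurable_fut n (hT' m).measurableSet)

lemma fresh_inf (hγ : ∀ i < n, γ i - γ n ∉ R) {B : Set (ℕ → Site d)} (hB : MeasurableSet B)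
    (hR : ∀ X ∈ B, ∀ j, X j ∈ R) :
    annM μ 0 (cyl n γ ∩ fut n ⁻¹' B) = annM μ 0 (cyl n γ) * annM μ 0 B := by
  set S : Set (ℕ → Site d) := {X | ∀ j, X j ∈ R}
  set SK : ℕ → Set (ℕ → Site d) := fun K => {X | ∀ j ≤ K, X j ∈ R}
  have hSK : ∀ K, Dep K (SK K) := by
    intro K X Y hXY
    simp only [SK, Set.mem_ofPred_eq]
    exact forall_congr' fun j => forall_congr' fun hj => by rw [hXY j hj]
  have hS : S = ⋂ K, SK K := by
    ext X
    simp only [S, SK, Set.mem_ofPred_eq, Set.mem_iInter]
    exact ⟨fun h K j _ => h j, fun h j => h j j le_rfl⟩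
  have hSm : MeasurableSet S := by
    rw [hS]; exact MeasurableSet.iInter fun K => (hSK K).measurableSet
  set ν₁ : Measure (ℕ → Site d) := (((annM μ 0).restrict (cyl n γ)).map (fut n)).restrict S
  set ν₂ : Measure (ℕ → Site d) := (annM μ 0 (cyl n γ) • annM μ 0).restrict S
  have hν : ν₁ = ν₂ := by
    have : IsFiniteMeasure ν₁ := by
      constructor
      simp only [ν₁]
      rw [Measure.restrict_apply MeasurableSet.univ, Measure.map_apply (measurable_fut n)
        (MeasurableSet.univ.inter hSm)]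
      exact measure_lt_top _ _
    refine ext_cyl fun M δ => ?_
    simp only [ν₁, ν₂]
    rw [Measure.restrict_apply (measurableSet_cyl _ _), Measure.restrict_apply
      (measurableSet_cyl _ _)]
    have hinter : cyl M δ ∩ S = ⋂ K, (cyl M δ ∩ SK (M + K)) := by
      rw [← Set.inter_iInter, hS]
      congr 1
      ext X
      simp only [SK, Set.mem_iInter, Set.mem_ofPred_eq]
      exact ⟨fun h K j hj => h (M + K) j hj, fun h K j hj => h K j (by omega)⟩
    have hdep : ∀ K, Dep (M + K) (cyl M δ ∩ SK (M + K)) := by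
      intro K X Y hXY
      refine and_congr ?_ (hSK _ X Y hXY)
      simp only [cyl, Set.mem_ofPred_eq]
      exact forall_congr' fun i => forall_congr' fun hi => by rw [hXY i (by omega)]
    have hanti : Antitone fun K => cyl M δ ∩ SK (M + K) := by
      intro K K' hKK X hX
      exact ⟨hX.1, fun j hj => hX.2 j (by omega)⟩
    rw [hinter]
    have l1 := tendsto_measure_iInter_atTop
      (μ := ((annM μ 0).restrict (cyl n γ)).map (fut n))
      (fun K => (hdep K).measurableSet.nullMeasurableSet) hanti ⟨0, by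
        rw [Measure.map_apply (measurable_fut n) (hdep 0).measurableSet]
        exact measure_ne_top _ _⟩
    have l2 := tendsto_measure_iInter_atTop (μ := annM μ 0 (cyl n γ) • annM μ 0)
      (fun K => (hdep K).measurableSet.nullMeasurableSet) hanti ⟨0, by
        rw [Measure.smul_apply, smul_eq_mul]
        exact ENNReal.mul_ne_top (measure_ne_top _ _) (measure_ne_top _ _)⟩
    refine tendsto_nhds_unique l1 (l2.congr fun K => ?_)
    simp only [Function.comp_apply]
    rw [Measure.map_apply (measurable_fut n) (hdep K).measurableSet,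
      Measure.restrict_apply (measurable_fut n (hdep K).measurableSet),
      Set.inter_comm _ (cyl n γ), Measure.smul_apply, smul_eq_mul]
    exact (fresh_dep μ hγ (hdep K) fun X hX j hj => hX.2 j hj.le).symm
  have hBS : B ∩ S = B := Set.inter_eq_left.2 fun X hX => hR X hX
  have h1 : ν₁ B = annM μ 0 (cyl n γ ∩ fut n ⁻¹' B) := by
    simp only [ν₁]
    rw [Measure.restrict_apply hB, hBS, Measure.map_apply (measurable_fut n) hB,
      Measure.restrict_apply ((measurable_fut n) hB), Set.inter_comm]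
  have h2 : ν₂ B = annM μ 0 (cyl n γ) * annM μ 0 B := by
    simp only [ν₂]
    rw [Measure.restrict_apply hB, hBS, Measure.smul_apply, smul_eq_mul]
  rw [← h1, ← h2, hν]

end Fresh

end Vale.P147
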