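import Vale.Agent.P147.Cyl

/-!
# Annealed law, Markov property, independence of fresh regions
-/

open MeasureTheory ProbabilityTheory Filter Finset
open scoped ENNReal Topology

namespace Vale.P147

variable {d : ℕ}

lemma measurable_rowProb_env (x v : Site d) : Measurable (fun ω : Env d => rowProb (ω x) v) :=
  (measurable_rowProb v).comp (measurable_pi_apply x)

lemma measurable_quenched_cyl (x : Site d) (n : ℕ) (γ : ℕ → Site d) :
    Measurable (fun ω : Env d => quenched ω x (cyl n γ)) := by
  simp_rw [quenched_cyl]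
  refine Measurable.const_mul ?_ _
  exact Finset.measurable_prod _ fun i _ => measurable_rowProb_env _ _

lemma measurable_quenched (x : Site d) : Measurable (fun ω : Env d => quenched ω x) := by
  refine Measurable.measure_of_isPiSystem_of_isProbabilityMeasure generateFrom_cylSys
    isPiSystem_cylSys ?_
  rintro _ ⟨n, γ, rfl⟩
  exact measurable_quenched_cyl x n γ

/-- The annealed law as a measure on trajectories. -/
noncomputable def annM (μ : Measure (Row d)) (x : Site d) : Measure (ℕ → Site d) :=
  (envLaw μ).bind (fun ω => quenched ω x)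

lemma annM_apply (μ : Measure (Row d)) (x : Site d) {A : Set (ℕ → Site d)}
    (hA : MeasurableSet A) : annM μ x A = ∫⁻ ω, quenched ω x A ∂envLaw μ :=
  Measure.bind_apply hA (measurable_quenched x).aemeasurable

lemma annealed_eq (μ : Measure (Row d)) {A : Set (ℕ → Site d)} (hA : MeasurableSet A) :
    annealed μ A = annM μ 0 A := (annM_apply μ 0 hA).symm

variable (μ : Measure (Row d))

instance [IsProbabilityMeasure μ] : IsProbabilityMeasure (envLaw μ) := by unfold envLaw; infer_instance

instance [IsProbabilityMeasure μ] (x : Site d) : IsProbabilityMeasure (annM μ x) := by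
  constructor
  rw [annM_apply μ x MeasurableSet.univ]
  simp

/-- The annealed weight of a finite path. -/
noncomputable def wt (n : ℕ) (γ : ℕ → Site d) : ℝ≥0∞ :=
  ∫⁻ ω, ∏ i ∈ range n, rowProb (ω (γ i)) (γ (i + 1) - γ i) ∂envLaw μ

lemma annM_cyl (x : Site d) (n : ℕ) (γ : ℕ → Site d) :
    annM μ x (cyl n γ) = (if γ 0 = x then 1 else 0) * wt μ n γ := by
  rw [annM_apply μ x (measurableSet_cyl n γ)]
  simp_rw [quenched_cyl]
  rw [lintegral_const_mul']
  · rfl
  · split_ifs <;> simp

variable [IsProbabilityMeasure μ]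

lemma wt_le_one (n : ℕ) (γ : ℕ → Site d) : wt μ n γ ≤ 1 := by
  unfold wt
  calc ∫⁻ ω, ∏ i ∈ range n, rowProb (ω (γ i)) (γ (i + 1) - γ i) ∂envLaw μ
      ≤ ∫⁻ _ω, 1 ∂envLaw μ := by
        refine lintegral_mono fun ω => ?_
        exact Finset.prod_le_one (fun _ _ => zero_le) (fun _ _ => rowProb_le_one _ _)
    _ = 1 := by simp

/-- Translation invariance of the weights. -/
lemma wt_shift (z : Site d) (n : ℕ) (γ : ℕ → Site d) :
    wt μ n (fun i => γ i + z) = wt μ n γ := by
  unfold wt
  have h := Measure.infinitePi_map_piCongrLeft (fun _ : Site d => μ) (Equiv.addRight z)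
  conv_lhs => rw [envLaw, ← h]
  rw [lintegral_map]
  · unfold envLaw
    refine lintegral_congr fun ω => ?_
    refine Finset.prod_congr rfl fun i _ => ?_
    congr 1
    · have := MeasurableEquiv.piCongrLeft_apply_apply (β := fun _ : Site d => Row d)
        (Equiv.addRight z) ω (γ i)
      simpa using this
    · simp
  · exact Finset.measurable_prod _ fun i _ => measurable_rowProb_env _ _
  · exact MeasurableEquiv.measurable _

/-- Independence: the weight of a concatenation of two paths using disjoint sets of sites. -/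
lemma wt_mul (n m : ℕ) (γ : ℕ → Site d)
    (hdis : ∀ i < n, ∀ j < m, γ i ≠ γ (n + j)) :
    wt μ (n + m) γ = wt μ n γ * wt μ m (fun j => γ (n + j)) := by
  classical
  unfold wt
  simp_rw [Finset.prod_range_add]
  set S : Finset (Site d) := (range n).image γ
  set T : Finset (Site d) := (range m).image (fun j => γ (n + j))
  have hST : Disjoint S T := by
    rw [Finset.disjoint_left]
    intro x hx hx'
    simp only [S, T, Finset.mem_image, Finset.mem_range] at hx hx'
    obtain ⟨i, hi, rfl⟩ := hx
    obtain ⟨j, hj, h⟩ := hx'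
    exact hdis i hi j hj h.symm
  have hind : iIndepFun (fun (x : Site d) (ω : Env d) => ω x) (envLaw μ) :=
    iIndepFun_infinitePi (X := fun _ ω => ω) (by fun_prop)
  have h2 := hind.indepFun_finset S T hST (fun x => measurable_pi_apply x)
  set F : (S → Row d) → ℝ≥0∞ := fun a =>
    ∏ i : Fin n, rowProb (a ⟨γ i, Finset.mem_image.2 ⟨i, Finset.mem_range.2 i.2, rfl⟩⟩)
      (γ (i + 1) - γ i)
  set G : (T → Row d) → ℝ≥0∞ := fun a =>
    ∏ j : Fin m, rowProb (a ⟨γ (n + j), Finset.mem_image.2 ⟨j, Finset.mem_range.2 j.2, rfl⟩⟩)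
      (γ (n + j + 1) - γ (n + j))
  have hF : Measurable F := Finset.measurable_prod _ fun i _ =>
    (measurable_rowProb _).comp (measurable_pi_apply _)
  have hG : Measurable G := Finset.measurable_prod _ fun i _ =>
    (measurable_rowProb _).comp (measurable_pi_apply _)
  have h3 := h2.comp hF hG
  have h4 := lintegral_mul_eq_lintegral_mul_lintegral_of_indepFun'' (μ := envLaw μ)
    (f := F ∘ fun a (i : S) => a i) (g := G ∘ fun a (i : T) => a i)
    (hF.comp (by fun_prop)).aemeasurable (hG.comp (by fun_prop)).aemeasurable h3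
  have e1 : ∀ ω : Env d, (F ∘ fun a (i : S) => a i) ω =
      ∏ i ∈ range n, rowProb (ω (γ i)) (γ (i + 1) - γ i) := by
    intro ω
    simp only [F, Function.comp_apply]
    exact (Finset.prod_range (fun i => rowProb (ω (γ i)) (γ (i + 1) - γ i))).symm
  have e2 : ∀ ω : Env d, (G ∘ fun a (i : T) => a i) ω =
      ∏ j ∈ range m, rowProb (ω (γ (n + j))) (γ (n + (j + 1)) - γ (n + j)) := by
    intro ω
    simp only [G, Function.comp_apply]
    exact (Finset.prod_range (fun j => rowProb (ω (γ (n + j))) (γ (n + (j + 1)) - γ (n + j)))).symm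
  simp_rw [e1, e2] at h4
  exact h4

/-! ### Futures -/

/-- The future of a trajectory after time `n`, re-centred. -/
def fut (n : ℕ) (X : ℕ → Site d) : ℕ → Site d := fun m => X (n + m) - X n

/-- Concatenate the prefix of length `n` of `γ` with the (re-centred) path `δ`. -/
def glue (n : ℕ) (γ δ : ℕ → Site d) : ℕ → Site d :=
  fun i => if i ≤ n then γ i else γ n + δ (i - n)

lemma glue_le {n : ℕ} {γ δ : ℕ → Site d} {i : ℕ} (hi : i ≤ n) : glue n γ δ i = γ i := if_pos hi

lemma glue_add {n : ℕ} {γ δ : ℕ → Site d} (h0 : δ 0 = 0) (j : ℕ) :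
    glue n γ δ (n + j) = γ n + δ j := by
  unfold glue
  rcases Nat.eq_zero_or_pos j with rfl | hj
  · simp [h0]
  · rw [if_neg (by omega)]
    congr 2
    omega

lemma measurable_fut (n : ℕ) : Measurable (fut n : (ℕ → Site d) → (ℕ → Site d)) := by
  unfold fut
  exact measurable_pi_lambda _ fun m => (measurable_pi_apply _).sub (measurable_pi_apply _)

lemma cyl_inter_fut_cyl {n M : ℕ} {γ δ : ℕ → Site d} (h0 : δ 0 = 0) :
    cyl n γ ∩ fut n ⁻¹' (cyl M δ) = cyl (n + M) (glue n γ δ) := by
  ext X
  constructor
  · rintro ⟨h1, h2⟩ i hi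
    rcases Nat.lt_or_ge n i with h | h
    · obtain ⟨j, rfl⟩ := Nat.exists_eq_add_of_le h.le
      rw [glue_add h0]
      have := h2 j (by omega)
      simp only [fut] at this
      rw [← h1 n le_rfl, ← this]
      abel
    · rw [glue_le h, h1 i h]
  · intro h
    refine ⟨fun i hi => ?_, fun j hj => ?_⟩
    · rw [h i (by omega), glue_le hi]
    · simp only [fut]
      rw [h (n + j) (by omega), h n (by omega), glue_add h0, glue_le le_rfl]
      abel

lemma cyl_inter_fut_cyl' {n M : ℕ} {δ : ℕ → Site d} (h0 : δ 0 ≠ 0) :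
    fut n ⁻¹' (cyl M δ) = ∅ := by
  ext X
  simp only [Set.mem_preimage, Set.mem_empty_iff_false, iff_false]
  intro h
  have := h 0 (Nat.zero_le _)
  simp only [fut, add_zero, sub_self] at this
  exact h0 this.symm

/-- The Markov property of the quenched law. -/
lemma quenched_markov (ω : Env d) (x : Site d) (n : ℕ) (γ : ℕ → Site d) {B : Set (ℕ → Site d)}
    (hB : MeasurableSet B) :
    quenched ω x (cyl n γ ∩ fut n ⁻¹' B) =
      quenched ω x (cyl n γ) * quenched ω (γ n) (fut 0 ⁻¹' B) := by
  set ν₁ : Measure (ℕ → Site d) := ((quenched ω x).restrict (cyl n γ)).map (fut n)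
  set ν₂ : Measure (ℕ → Site d) := quenched ω x (cyl n γ) • (quenched ω (γ n)).map (fut 0)
  have hν : ν₁ = ν₂ := by
    have : IsFiniteMeasure ν₁ := by
      constructor
      simp only [ν₁]
      rw [Measure.map_apply (measurable_fut n) MeasurableSet.univ]
      exact measure_lt_top _ _
    refine ext_cyl fun M δ => ?_
    simp only [ν₁, ν₂, Measure.smul_apply, smul_eq_mul]
    rw [Measure.map_apply (measurable_fut n) (measurableSet_cyl _ _),
      Measure.map_apply (measurable_fut 0) (measurableSet_cyl _ _),
      Measure.restrict_apply ((measurable_fut n) (measurableSet_cyl _ _)), Set.inter_comm]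
    by_cases h0 : δ 0 = 0
    · rw [cyl_inter_fut_cyl h0]
      have e : fut 0 ⁻¹' (cyl M δ) ∩ cyl 0 (fun _ => γ n) =
          cyl M (fun j => γ n + δ j) := by
        rw [Set.inter_comm, cyl_inter_fut_cyl h0, Nat.zero_add]
        refine cyl_congr fun i _ => ?_
        have := glue_add (n := 0) (γ := fun _ => γ n) h0 i
        rw [Nat.zero_add] at this
        exact this
      have e' : quenched ω (γ n) (fut 0 ⁻¹' (cyl M δ)) =
          quenched ω (γ n) (fut 0 ⁻¹' (cyl M δ) ∩ cyl 0 (fun _ => γ n)) := by
        refine (measure_inter_conull' ?_).symm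
        have h1 : quenched ω (γ n) ((cyl 0 (fun _ => γ n))ᶜ) = 0 := by
          rw [prob_compl_eq_zero_iff (measurableSet_cyl _ _), quenched_cyl_zero, if_pos rfl]
        exact measure_mono_null (Set.sdiff_subset_compl _ _) h1
      rw [e', e, quenched_cyl, quenched_cyl, quenched_cyl, Finset.prod_range_add]
      simp only [h0, add_zero, if_true, one_mul, glue_le (Nat.zero_le n)]
      rw [mul_assoc]
      congr 2
      · refine Finset.prod_congr rfl fun i hi => ?_
        rw [Finset.mem_range] at hi
        rw [glue_le (by omega), glue_le (by omega)]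
      · refine Finset.prod_congr rfl fun j _ => ?_
        rw [add_assoc, glue_add h0, glue_add h0]
    · rw [cyl_inter_fut_cyl' h0, cyl_inter_fut_cyl' h0]
      simp
  have h1 : ν₁ B = quenched ω x (cyl n γ ∩ fut n ⁻¹' B) := by
    simp only [ν₁]
    rw [Measure.map_apply (measurable_fut n) hB, Measure.restrict_apply ((measurable_fut n) hB),
      Set.inter_comm]
  have h2 : ν₂ B = quenched ω x (cyl n γ) * quenched ω (γ n) (fut 0 ⁻¹' B) := by
    simp only [ν₂, Measure.smul_apply, smul_eq_mul]
    rw [Measure.map_apply (measurable_fut 0) hB]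
  rw [← h1, ← h2, hν]

end Vale.P147
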