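import Vale.Agent.P147.Fresh

/-!
# A Lévy zero-one lemma for infinitely many trials
-/

open MeasureTheory ProbabilityTheory Filter Finset
open scoped ENNReal Topology

namespace Vale.P147

variable {d : ℕ}

/-- The σ-algebra of the events which depend only on the coordinates `≤ n`. -/
@[instance_reducible] def depSpace (d n : ℕ) : MeasurableSpace (ℕ → Site d) where
  MeasurableSet' T := Dep n T
  measurableSet_empty := fun _ _ _ => by simp
  measurableSet_compl := fun T hT X Y h => by
    simp only [Set.mem_compl_iff]; exact not_congr (hT X Y h)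
  measurableSet_iUnion := fun T hT X Y h => by
    simp only [Set.mem_iUnion]; exact exists_congr fun i => hT i X Y h

/-- The canonical filtration. -/
def depFil (d : ℕ) : Filtration ℕ (MeasurableSpace.pi : MeasurableSpace (ℕ → Site d)) where
  seq := depSpace d
  mono' := by
    intro n m hnm T hT X Y h
    exact hT X Y fun i hi => h i (hi.trans hnm)
  le' := fun n T (hT : Dep n T) => hT.measurableSet

lemma iSup_depFil : (⨆ n, (depFil d) n) =
    (MeasurableSpace.pi : MeasurableSpace (ℕ → Site d)) := by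
  apply le_antisymm
  · exact iSup_le fun n => (depFil d).le n
  · refine le_trans (le_of_eq generateFrom_cylSys) ?_
    refine MeasurableSpace.generateFrom_le ?_
    rintro _ ⟨n, γ, rfl⟩
    have h : MeasurableSet[(depFil d) n] (cyl n γ) := by
      change Dep n (cyl n γ)
      intro X Y hXY
      simp only [cyl, Set.mem_ofPred_eq]
      exact forall_congr' fun i => forall_congr' fun hi => by rw [hXY i hi]
    exact (le_iSup (fun n => (depFil d) n) n) _ h

lemma levy (P : Measure (ℕ → Site d)) [IsProbabilityMeasure P] {Q : Set (ℕ → Site d)}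
    (hQ : MeasurableSet Q) {E : ℕ → Set (ℕ → Site d)} {p : ℝ}
    (hp : 0 < p) (h : ∀ n, ∀ γ ∈ E n, ENNReal.ofReal p * P (cyl n γ) ≤ P (cyl n γ ∩ Q)) :
    ∀ᵐ X ∂P, (∃ᶠ n in atTop, X ∈ E n) → X ∈ Q := by
  set g : (ℕ → Site d) → ℝ := Q.indicator (fun _ => (1 : ℝ)) with hg_def
  have hgint : Integrable g P := (integrable_const (1 : ℝ)).indicator hQ
  have hgmeas : StronglyMeasurable[⨆ n, (depFil d) n] g := by
    rw [iSup_depFil]
    exact stronglyMeasurable_const.indicator hQ
  have hlim := hgint.tendsto_ae_condExp hgmeas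
  have hpos : ∀ᵐ X ∂P, ∀ n, P (cyl n X) ≠ 0 := by
    rw [ae_all_iff]
    intro n
    have hsub : {X : ℕ → Site d | ¬ P (cyl n X) ≠ 0} ⊆
        ⋃ k : {k : Fin (n + 1) → Site d // P (cyl n (ext n k)) = 0}, cyl n (ext n k.1) := by
      intro X hX
      simp only [Set.mem_ofPred_eq, not_not] at hX
      have e : cyl n (ext n (pre n X)) = cyl n X := by
        refine cyl_congr fun i hi => ?_
        rw [ext_apply _ hi]; rfl
      refine Set.mem_iUnion.2 ⟨⟨pre n X, by rw [e]; exact hX⟩, ?_⟩
      rw [mem_cyl_ext]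
    refine measure_mono_null hsub ?_
    rw [measure_iUnion_null_iff]
    exact fun k => k.2
  filter_upwards [hlim, hpos] with X hX hXpos hfreq
  by_contra hXQ
  have hgX : g X = 0 := Set.indicator_of_notMem hXQ _
  rw [hgX] at hX
  have hev : ∀ᶠ n in atTop, (P[g | (depFil d) n]) X < p := hX.eventually_lt_const hp
  obtain ⟨n, hnE, hn⟩ := (hfreq.and_eventually hev).exists
  refine absurd hn (not_lt.2 ?_)
  set f := P[g | (depFil d) n]
  have hf : StronglyMeasurable[(depFil d) n] f := stronglyMeasurable_condExp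
  have hconst : ∀ Y ∈ cyl n X, f Y = f X := by
    intro Y hY
    have hs : MeasurableSet[(depFil d) n] (f ⁻¹' {f X}) :=
      hf.measurable (measurableSet_singleton _)
    have hs' : Dep n (f ⁻¹' {f X}) := hs
    have := (hs' Y X hY).2 rfl
    simpa using this
  have hcm : MeasurableSet[(depFil d) n] (cyl n X) := by
    change Dep n (cyl n X)
    intro Y Z hYZ
    simp only [cyl, Set.mem_ofPred_eq]
    exact forall_congr' fun i => forall_congr' fun hi => by rw [hYZ i hi]
  have h1 : ∫ Y in cyl n X, f Y ∂P = ∫ Y in cyl n X, g Y ∂P :=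
    setIntegral_condExp ((depFil d).le n) hgint hcm
  have h2 : ∫ Y in cyl n X, f Y ∂P = P.real (cyl n X) * f X := by
    rw [setIntegral_congr_fun (measurableSet_cyl n X) hconst, setIntegral_const, smul_eq_mul]
  have h3 : ∫ Y in cyl n X, g Y ∂P = P.real (cyl n X ∩ Q) := by
    rw [hg_def, setIntegral_indicator hQ, setIntegral_const, smul_eq_mul, mul_one]
  have h4 : p * P.real (cyl n X) ≤ P.real (cyl n X ∩ Q) := by
    have := h n X hnE
    have h5 := ENNReal.toReal_mono (measure_ne_top _ _) this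
    rw [ENNReal.toReal_mul, ENNReal.toReal_ofReal hp.le] at h5
    exact h5
  have h6 : 0 < P.real (cyl n X) := by
    rw [Measure.real]
    exact ENNReal.toReal_pos (hXpos n) (measure_ne_top _ _)
  have h7 : p * P.real (cyl n X) ≤ f X * P.real (cyl n X) := by
    calc p * P.real (cyl n X) ≤ P.real (cyl n X ∩ Q) := h4
      _ = P.real (cyl n X) * f X := by rw [← h3, ← h1, h2]
      _ = _ := mul_comm _ _
  exact le_of_mul_le_mul_right h7 h6

/-- ENNReal version. -/
lemma levy' (P : Measure (ℕ → Site d)) [IsProbabilityMeasure P] {Q : Set (ℕ → Site d)}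
    (hQ : MeasurableSet Q) {E : ℕ → Set (ℕ → Site d)} {p : ℝ≥0∞}
    (hp : p ≠ 0) (h : ∀ n, ∀ γ ∈ E n, p * P (cyl n γ) ≤ P (cyl n γ ∩ Q)) :
    ∀ᵐ X ∂P, (∃ᶠ n in atTop, X ∈ E n) → X ∈ Q := by
  obtain ⟨q, hq0, hqp⟩ : ∃ q : ℝ, 0 < q ∧ ENNReal.ofReal q ≤ p := by
    obtain ⟨q, hq, hqp⟩ := ENNReal.lt_iff_exists_nnreal_btwn.1 (pos_iff_ne_zero.2 hp)
    refine ⟨q, ?_, ?_⟩
    · exact_mod_cast hq
    · rw [ENNReal.ofReal_coe_nnreal]; exact hqp.le
  refine levy P hQ hq0 fun n γ hγ => le_trans ?_ (h n γ hγ)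
  gcongr

end Vale.P147
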