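import Vale.Agent.P147.Struct

/-!
# The set of violating directions is open; cone property; reduction to integer directions
-/

open MeasureTheory ProbabilityTheory Filter Finset
open scoped ENNReal Topology

namespace Vale.P147

variable {d : ℕ}

lemma annealed_escape (μ : Measure (Row d)) (ℓ : Fin d → ℝ) :
    annealed μ (escape ℓ) = annM μ 0 (escape ℓ) := annealed_eq μ (measurableSet_escape ℓ)

variable (μ : Measure (Row d)) [IsProbabilityMeasure μ]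

lemma viol_iff' (hμ : Elliptic μ) (ℓ : Fin d → ℝ) :
    (0 < annealed μ (escape ℓ) ∧ annealed μ (escape ℓ) < 1) ↔
      (annM μ 0 (escape ℓ) ≠ 0 ∧ annM μ 0 (escape (-ℓ)) ≠ 0) := by
  rw [annealed_escape, pos_iff_ne_zero, lt_iff_le_and_ne, ← viol_iff μ hμ ℓ]
  have : annM μ 0 (escape ℓ) ≤ 1 := prob_le_one
  tauto

lemma measurableSet_cone (ℓ : Fin d → ℝ) (c : ℝ) : MeasurableSet
    {X : ℕ → Site d | X ∈ escape ℓ → ∀ᶠ n in atTop, ∀ j, c * |(X n j : ℝ)| ≤ level ℓ (X n)} := by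
  have h1 : MeasurableSet
      {X : ℕ → Site d | ∀ᶠ n in atTop, ∀ j, c * |(X n j : ℝ)| ≤ level ℓ (X n)} := by
    have : {X : ℕ → Site d | ∀ᶠ n in atTop, ∀ j, c * |(X n j : ℝ)| ≤ level ℓ (X n)} =
        ⋃ N : ℕ, ⋂ n ∈ Set.Ici N, {X | ∀ j, c * |(X n j : ℝ)| ≤ level ℓ (X n)} := by
      ext X
      simp only [Set.mem_ofPred_eq, Set.mem_iUnion, Set.mem_iInter, Set.mem_Ici,
        Filter.eventually_atTop]
    rw [this]
    refine MeasurableSet.iUnion fun N => MeasurableSet.biInter (Set.to_countable _) fun n _ => ?_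
    have : {X : ℕ → Site d | ∀ j, c * |(X n j : ℝ)| ≤ level ℓ (X n)} =
        (fun X : ℕ → Site d => X n) ⁻¹' {x | ∀ j, c * |(x j : ℝ)| ≤ level ℓ x} := rfl
    rw [this]
    exact measurable_pi_apply n (Set.to_countable _).measurableSet
  have : {X : ℕ → Site d | X ∈ escape ℓ → ∀ᶠ n in atTop, ∀ j, c * |(X n j : ℝ)| ≤ level ℓ (X n)} =
      (escape ℓ)ᶜ ∪ {X : ℕ → Site d | ∀ᶠ n in atTop, ∀ j, c * |(X n j : ℝ)| ≤ level ℓ (X n)} := by
    ext X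
    simp only [Set.mem_ofPred_eq, Set.mem_union, Set.mem_compl_iff]
    exact imp_iff_not_or
  rw [this]
  exact (measurableSet_escape ℓ).compl.union h1

theorem isOpen_viol (hμ : Elliptic μ) :
    IsOpen {ℓ : Fin d → ℝ | 0 < annealed μ (escape ℓ) ∧ annealed μ (escape ℓ) < 1} := by
  rw [Metric.isOpen_iff]
  intro ℓ hℓ
  obtain ⟨h1, h2⟩ := (viol_iff' μ hμ ℓ).1 hℓ
  obtain ⟨δ, hδ, H⟩ := viol_near μ h1 h2
  refine ⟨δ, hδ, fun ℓ' hℓ' => (viol_iff' μ hμ ℓ').2 (H ℓ' fun j => ?_)⟩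
  have h3 : dist (ℓ' j) (ℓ j) ≤ dist ℓ' ℓ := dist_le_pi_dist ℓ' ℓ j
  rw [Real.dist_eq] at h3
  exact h3.trans (Metric.mem_ball.1 hℓ').le

theorem cone_viol (hμ : Elliptic μ) (ℓ : Fin d → ℝ)
    (hℓ : 0 < annealed μ (escape ℓ) ∧ annealed μ (escape ℓ) < 1) :
    ∃ c : ℝ, 0 < c ∧ ∀ᵐ ω ∂envLaw μ, ∀ᵐ X ∂quenched ω 0, X ∈ escape ℓ →
      ∀ᶠ n in atTop, ∀ j, c * |(X n j : ℝ)| ≤ level ℓ (X n) := by
  obtain ⟨h1, h2⟩ := (viol_iff' μ hμ ℓ).1 hℓ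
  obtain ⟨c, hc, H⟩ := cone_ae μ h1 h2
  exact ⟨c, hc, quenched_ae_of_annM μ (measurableSet_cone ℓ c) H⟩

/-- Positive multiples of a direction have the same escape event. -/
lemma escape_smul {a : ℝ} (ha : 0 < a) (ℓ : Fin d → ℝ) :
    (escape (a • ℓ) : Set (ℕ → Site d)) = escape ℓ := by
  ext X
  simp only [escape, Set.mem_ofPred_eq, level_smul_left]
  exact tendsto_const_mul_atTop_of_pos ha

theorem int_reduction (hμ : Elliptic μ)
    (h : ∀ m : Fin d → ℤ, m ≠ 0 → annealed μ (escape fun i => (m i : ℝ)) = 0 ∨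
      annealed μ (escape fun i => (m i : ℝ)) = 1) (ℓ : Fin d → ℝ) :
    annealed μ (escape ℓ) = 0 ∨ annealed μ (escape ℓ) = 1 := by
  by_contra hcon
  push Not at hcon
  have hle : annealed μ (escape ℓ) ≤ 1 := by rw [annealed_escape]; exact prob_le_one
  have hviol : 0 < annealed μ (escape ℓ) ∧ annealed μ (escape ℓ) < 1 :=
    ⟨pos_iff_ne_zero.2 hcon.1, lt_of_le_of_ne hle hcon.2⟩
  obtain ⟨h1, h2⟩ := (viol_iff' μ hμ ℓ).1 hviol
  obtain ⟨δ, hδ, H⟩ := viol_near μ h1 h2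
  -- approximate `ℓ` by `m / N`
  obtain ⟨N, hN⟩ := exists_nat_gt (1 / δ)
  have hN0 : (0 : ℝ) < N := lt_trans (by positivity) hN
  set m : Fin d → ℤ := fun i => ⌊N * ℓ i⌋
  have hnear : ∀ j, |((N : ℝ)⁻¹ • (fun i => (m i : ℝ)) : Fin d → ℝ) j - ℓ j| ≤ δ := by
    intro j
    simp only [Pi.smul_apply, smul_eq_mul, m]
    have h3 : (N : ℝ)⁻¹ * (⌊N * ℓ j⌋ : ℝ) - ℓ j = (N : ℝ)⁻¹ * ((⌊N * ℓ j⌋ : ℝ) - N * ℓ j) := by
      field_simp
    rw [h3, abs_mul, abs_of_pos (inv_pos.2 hN0)]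
    have h4 : |(⌊N * ℓ j⌋ : ℝ) - N * ℓ j| ≤ 1 := by
      rw [abs_le]
      constructor
      · linarith [Int.lt_floor_add_one ((N : ℝ) * ℓ j)]
      · linarith [Int.floor_le ((N : ℝ) * ℓ j)]
    calc (N : ℝ)⁻¹ * |(⌊N * ℓ j⌋ : ℝ) - N * ℓ j| ≤ (N : ℝ)⁻¹ * 1 :=
          mul_le_mul_of_nonneg_left h4 (by positivity)
      _ ≤ δ := by
          rw [mul_one, inv_le_comm₀ hN0 hδ, ← one_div]
          exact hN.le
  have h5 := H _ hnear
  have h6 : 0 < annealed μ (escape ((N : ℝ)⁻¹ • (fun i => (m i : ℝ)) : Fin d → ℝ)) ∧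
      annealed μ (escape ((N : ℝ)⁻¹ • (fun i => (m i : ℝ)) : Fin d → ℝ)) < 1 :=
    (viol_iff' μ hμ _).2 h5
  rw [escape_smul (inv_pos.2 hN0)] at h6
  have hm : m ≠ 0 := by
    intro h0
    have h7 : (fun i => (m i : ℝ)) = (0 : Fin d → ℝ) := by
      funext i; simp [h0]
    rw [h7, escape_zero] at h6
    simp [annealed] at h6
  rcases h m hm with h7 | h7
  · exact h6.1.ne' h7
  · exact h6.2.ne h7

end Vale.P147
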