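import Vale.Agent.P147.TwoRay

/-!
# Two-ray dichotomy, final form
-/

open MeasureTheory ProbabilityTheory Filter Finset
open scoped ENNReal Topology

namespace Vale.P147

variable {d : ℕ}

lemma measurableSet_dirTendsto (a : ℝ) (j : Fin d) : MeasurableSet
    {X : ℕ → Site d | Tendsto (fun n => (X n j : ℝ) / enorm2 (X n)) atTop (𝓝 a)} := by
  refine measurableSet_tendsto _ fun n => ?_
  exact (measurable_of_countable (fun x : Site d => (x j : ℝ) / enorm2 x)).comp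
    (measurable_pi_apply n)

lemma measurableSet_ray (ν : Fin d → ℝ) (a : Fin d → ℝ) : MeasurableSet
    {X : ℕ → Site d | X ∈ escape ν ∧
      ∀ j, Tendsto (fun n => (X n j : ℝ) / enorm2 (X n)) atTop (𝓝 (a j))} := by
  have : {X : ℕ → Site d | X ∈ escape ν ∧
      ∀ j, Tendsto (fun n => (X n j : ℝ) / enorm2 (X n)) atTop (𝓝 (a j))} =
      escape ν ∩ ⋂ j, {X | Tendsto (fun n => (X n j : ℝ) / enorm2 (X n)) atTop (𝓝 (a j))} := by
    ext X; simp
  rw [this]
  exact (measurableSet_escape ν).inter (MeasurableSet.iInter fun j => measurableSet_dirTendsto _ j)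

variable (μ : Measure (Row d)) [IsProbabilityMeasure μ]

theorem two_ray_main (hμ : Elliptic μ) :
    (∀ ℓ : Fin d → ℝ, annealed μ (escape ℓ) = 0 ∨ annealed μ (escape ℓ) = 1) ∨
    ∃ ν : Fin d → ℝ, ∑ j, ν j ^ 2 = 1 ∧
      (∀ᵐ ω ∂envLaw μ, ∀ᵐ X ∂quenched ω 0,
        (X ∈ escape ν ∧ ∀ j, Tendsto (fun n => (X n j : ℝ) / enorm2 (X n)) atTop (𝓝 (ν j))) ∨
        (X ∈ escape (-ν) ∧
          ∀ j, Tendsto (fun n => (X n j : ℝ) / enorm2 (X n)) atTop (𝓝 (-ν j)))) ∧
      (∀ ℓ : Fin d → ℝ, ∑ j, ν j * ℓ j ≠ 0 →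
        0 < annealed μ (escape ℓ) ∧ annealed μ (escape ℓ) < 1) ∧
      (∀ ℓ : Fin d → ℝ, ∑ j, ν j * ℓ j = 0 → annealed μ (escape ℓ) = 0) := by
  by_cases hall : ∀ ℓ : Fin d → ℝ, annealed μ (escape ℓ) = 0 ∨ annealed μ (escape ℓ) = 1
  · exact Or.inl hall
  right
  push Not at hall
  obtain ⟨v, hv0, hv1⟩ := hall
  have hle : annealed μ (escape v) ≤ 1 := by rw [annealed_escape]; exact prob_le_one
  obtain ⟨h1, h2⟩ := (viol_iff' μ hμ v).1 ⟨pos_iff_ne_zero.2 hv0, lt_of_le_of_ne hle hv1⟩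
  obtain ⟨ν, hν, hray, hpos, hzero⟩ := two_ray μ hμ h1 h2
  refine ⟨ν, hν, ?_, ?_, ?_⟩
  · refine quenched_ae_of_annM μ ?_ hray
    exact (measurableSet_ray ν ν).union (measurableSet_ray (-ν) (fun j => -ν j))
  · intro ℓ hℓ
    exact (viol_iff' μ hμ ℓ).2 (hpos ℓ hℓ)
  · intro ℓ hℓ
    rw [annealed_escape]
    exact hzero ℓ hℓ

/-- The zero-one law in the coordinate directions implies the zero-one law in all directions. -/
theorem coord_reduction (hμ : Elliptic μ)
    (h : ∀ i : Fin d, annealed μ (escape (Pi.single i (1 : ℝ))) = 0 ∨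
      annealed μ (escape (Pi.single i (1 : ℝ))) = 1) (ℓ : Fin d → ℝ) :
    annealed μ (escape ℓ) = 0 ∨ annealed μ (escape ℓ) = 1 := by
  rcases two_ray_main μ hμ with h1 | ⟨ν, hν, -, h2, -⟩
  · exact h1 ℓ
  · exfalso
    have h3 : ∀ i, ν i = 0 := by
      intro i
      by_contra hne
      have h4 : ∑ j, ν j * (Pi.single i (1 : ℝ) : Fin d → ℝ) j ≠ 0 := by
        rw [Finset.sum_eq_single i]
        · simpa using hne
        · intro k _ hk
          rw [Pi.single_eq_of_ne hk]; simp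
        · intro hh; exact absurd (Finset.mem_univ i) hh
      obtain ⟨h5, h6⟩ := h2 _ h4
      rcases h i with h7 | h7
      · exact h5.ne' h7
      · exact h6.ne h7
    rw [Finset.sum_eq_zero fun j _ => by rw [h3 j]; norm_num] at hν
    exact zero_ne_one hν

end Vale.P147
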