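import Vale.Agent.P147.Struct

/-!
# Regeneration structure
-/

open MeasureTheory ProbabilityTheory Filter Finset
open scoped ENNReal Topology

namespace Vale.P147

variable {d : ℕ}

/-! ### Deterministic part -/

lemma fut_fut (m n : ℕ) (X : ℕ → Site d) : fut m (fut n X) = fut (n + m) X := by
  funext j
  simp only [fut]
  rw [add_assoc]
  abel

lemma fut_zero_eq {X : ℕ → Site d} (h : X 0 = 0) : fut 0 X = X := by
  funext j
  simp [fut, h]

/-- `r` is a regeneration time of `X` in direction `v`. -/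
def Reg (v : Fin d → ℝ) (r : ℕ) (X : ℕ → Site d) : Prop := Rec v r X ∧ fut r X ∈ Up v

lemma measurableSet_Reg (v : Fin d → ℝ) (r : ℕ) : MeasurableSet {X : ℕ → Site d | Reg v r X} :=
  (dep_rec v r).measurableSet.inter (measurable_fut r (measurableSet_Up v))

/-- The first positive regeneration time (zero if there is none). -/
noncomputable def tau (v : Fin d → ℝ) (X : ℕ → Site d) : ℕ := sInf {r | 1 ≤ r ∧ Reg v r X}

lemma tau_spec {v : Fin d → ℝ} {X : ℕ → Site d} (h : ∃ r, 1 ≤ r ∧ Reg v r X) :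
    1 ≤ tau v X ∧ Reg v (tau v X) X := Nat.sInf_mem (s := {r | 1 ≤ r ∧ Reg v r X}) h

lemma tau_le {v : Fin d → ℝ} {X : ℕ → Site d} {r : ℕ} (h1 : 1 ≤ r) (h2 : Reg v r X) :
    tau v X ≤ r := Nat.sInf_le (s := {r | 1 ≤ r ∧ Reg v r X}) ⟨h1, h2⟩

lemma tau_eq_iff {v : Fin d → ℝ} {X : ℕ → Site d} {m : ℕ} (hm : 1 ≤ m) :
    tau v X = m ↔ Reg v m X ∧ ∀ r, 1 ≤ r → r < m → ¬ Reg v r X := by
  constructor
  · intro h
    have hne : ∃ r, 1 ≤ r ∧ Reg v r X := by
      by_contra hcon
      have : {r | 1 ≤ r ∧ Reg v r X} = ∅ := by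
        ext r
        simp only [Set.mem_ofPred_eq, Set.mem_empty_iff_false, iff_false]
        exact fun hr => hcon ⟨r, hr⟩
      unfold tau at h
      rw [this, Nat.sInf_empty] at h
      omega
    have h1 := tau_spec hne
    rw [h] at h1
    refine ⟨h1.2, fun r hr hrm hreg => ?_⟩
    have := tau_le hr hreg
    omega
  · rintro ⟨h1, h2⟩
    have h3 := tau_spec ⟨m, hm, h1⟩
    have h4 := tau_le hm h1
    rcases h4.eq_or_lt with h | h
    · exact h
    · exact absurd h3.2 (h2 _ h3.1 h)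

lemma measurable_tau (v : Fin d → ℝ) : Measurable (tau v : (ℕ → Site d) → ℕ) := by
  have hpos : ∀ m, 1 ≤ m → MeasurableSet ((tau v : (ℕ → Site d) → ℕ) ⁻¹' {m}) := by
    intro m hm
    have : ((tau v : (ℕ → Site d) → ℕ) ⁻¹' {m}) =
        {X | Reg v m X} ∩ ⋂ r ∈ Set.Ico 1 m, {X : ℕ → Site d | Reg v r X}ᶜ := by
      ext X
      simp only [Set.mem_preimage, Set.mem_singleton_iff, tau_eq_iff hm, Set.mem_inter_iff,
        Set.mem_ofPred_eq, Set.mem_iInter, Set.mem_Ico, Set.mem_compl_iff, and_imp]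
    rw [this]
    exact (measurableSet_Reg v m).inter (MeasurableSet.biInter (Set.to_countable _)
      fun r _ => (measurableSet_Reg v r).compl)
  refine measurable_to_countable' fun m => ?_
  rcases Nat.eq_zero_or_pos m with rfl | hm
  · have : ((tau v : (ℕ → Site d) → ℕ) ⁻¹' {0}) =
        (⋃ m ∈ Set.Ici 1, (tau v : (ℕ → Site d) → ℕ) ⁻¹' {m})ᶜ := by
      ext X
      simp only [Set.mem_preimage, Set.mem_singleton_iff, Set.mem_compl_iff, Set.mem_iUnion,
        Set.mem_Ici, exists_prop, not_exists, not_and]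
      constructor
      · intro h m hm; omega
      · intro h
        by_contra hcon
        exact h _ (Nat.one_le_iff_ne_zero.2 hcon) rfl
    rw [this]
    exact (MeasurableSet.biUnion (Set.to_countable _) fun m hm => hpos m hm).compl
  · exact hpos m hm

/-- `m` is the first regeneration time as far as it can be seen on the first `m` steps. -/
def Irr (v : Fin d → ℝ) (m : ℕ) (X : ℕ → Site d) : Prop :=
  X 0 = 0 ∧ (∀ i, 1 ≤ i → i ≤ m → 0 < level v (X i)) ∧ Rec v m X ∧
    ∀ r, 1 ≤ r → r < m → ¬ (Rec v r X ∧ ∀ i, r < i → i ≤ m → level v (X r) < level v (X i))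

lemma dep_irr (v : Fin d → ℝ) (m : ℕ) : Dep m {X : ℕ → Site d | Irr v m X} := by
  intro X Y h
  simp only [Irr, Rec, Set.mem_ofPred_eq]
  refine and_congr (by rw [h 0 (Nat.zero_le _)]) (and_congr ?_ (and_congr ?_ ?_))
  · exact forall_congr' fun i => forall_congr' fun _ => forall_congr' fun hi => by rw [h i hi]
  · exact forall_congr' fun i => forall_congr' fun hi => by rw [h i hi.le, h m le_rfl]
  · refine forall_congr' fun r => forall_congr' fun _ => forall_congr' fun hr => not_congr ?_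
    refine and_congr ?_ ?_
    · exact forall_congr' fun i => forall_congr' fun hi => by rw [h i (by omega), h r hr.le]
    · exact forall_congr' fun i => forall_congr' fun _ => forall_congr' fun hi => by
        rw [h i hi, h r hr.le]

lemma up_zero {v : Fin d → ℝ} {X : ℕ → Site d} (h : X ∈ Up v) : X 0 = 0 := h.1.2

lemma up_gt {v : Fin d → ℝ} {X : ℕ → Site d} {r : ℕ} (h : fut r X ∈ Up v) {i : ℕ} (hi : r < i) :
    level v (X r) < level v (X i) := by
  obtain ⟨j, rfl⟩ := Nat.exists_eq_add_of_le hi.le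
  have := h.1.1 j (by omega)
  simp only [fut, level_sub] at this
  linarith

lemma up_ge {v : Fin d → ℝ} {X : ℕ → Site d} {r : ℕ} (h : fut r X ∈ Up v) {i : ℕ} (hi : r ≤ i) :
    level v (X r) ≤ level v (X i) := by
  rcases hi.eq_or_lt with rfl | h'
  · exact le_rfl
  · exact (up_gt h h').le

lemma fut_up_of {v : Fin d → ℝ} {X : ℕ → Site d} {r : ℕ}
    (h : ∀ i, r < i → level v (X r) < level v (X i)) (hesc : X ∈ escape v) : fut r X ∈ Up v := by
  refine ⟨⟨fun j hj => ?_, ?_⟩, fut_escape_iff.2 hesc⟩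
  · simp only [fut, level_sub, sub_pos]
    exact h _ (by omega)
  · simp [fut]

lemma block_eq {v : Fin d → ℝ} {m : ℕ} (hm : 1 ≤ m) :
    (Up v ∩ {X : ℕ → Site d | tau v X = m}) = {X | Irr v m X} ∩ fut m ⁻¹' (Up v) := by
  ext X
  constructor
  · rintro ⟨hX, hτ⟩
    rw [Set.mem_ofPred_eq, tau_eq_iff hm] at hτ
    obtain ⟨⟨h1, h2⟩, h3⟩ := hτ
    refine ⟨⟨up_zero hX, fun i hi _ => hX.1.1 i hi, h1, ?_⟩, h2⟩
    rintro r hr hrm ⟨h4, h5⟩
    refine h3 r hr hrm ⟨h4, fut_up_of (fun i hi => ?_) hX.2⟩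
    rcases le_or_gt i m with him | him
    · exact h5 i hi him
    · exact (h1 r hrm).trans (up_gt h2 him)
  · rintro ⟨⟨h0, h1, h2, h3⟩, h4⟩
    have hesc : X ∈ escape v := fut_escape_iff.1 h4.2
    refine ⟨⟨⟨fun i hi => ?_, h0⟩, hesc⟩, ?_⟩
    · rcases le_or_gt i m with him | him
      · exact h1 i hi him
      · exact (h1 m hm le_rfl).trans (up_gt h4 him)
    · rw [Set.mem_ofPred_eq, tau_eq_iff hm]
      refine ⟨⟨h2, h4⟩, fun r hr hrm hreg => h3 r hr hrm ⟨hreg.1, fun i hi _ => ?_⟩⟩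
      exact up_gt hreg.2 hi

/-- The trajectory after the first regeneration time, re-centred. -/
noncomputable def theta (v : Fin d → ℝ) (X : ℕ → Site d) : ℕ → Site d := fut (tau v X) X

lemma measurable_theta (v : Fin d → ℝ) :
    Measurable (theta v : (ℕ → Site d) → (ℕ → Site d)) := by
  intro A hA
  have : (theta v : (ℕ → Site d) → (ℕ → Site d)) ⁻¹' A =
      ⋃ m, ((tau v : (ℕ → Site d) → ℕ) ⁻¹' {m} ∩ fut m ⁻¹' A) := by
    ext X
    simp only [theta, Set.mem_preimage, Set.mem_iUnion, Set.mem_inter_iff,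
      Set.mem_singleton_iff]
    constructor
    · intro h; exact ⟨_, rfl, h⟩
    · rintro ⟨m, h1, h2⟩; rw [h1]; exact h2
  rw [this]
  exact MeasurableSet.iUnion fun m =>
    (measurable_tau v (measurableSet_singleton m)).inter (measurable_fut m hA)

/-- The event that the trajectory up to the first regeneration time satisfies `T`. -/
def BE (v : Fin d → ℝ) (T : ℕ → Set (ℕ → Site d)) : Set (ℕ → Site d) := {X | X ∈ T (tau v X)}

lemma measurableSet_BE (v : Fin d → ℝ) {T : ℕ → Set (ℕ → Site d)} (hT : ∀ m, Dep m (T m)) :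
    MeasurableSet (BE v T) := by
  have : BE v T = ⋃ m, ((tau v : (ℕ → Site d) → ℕ) ⁻¹' {m} ∩ T m) := by
    ext X
    simp only [BE, Set.mem_ofPred_eq, Set.mem_iUnion, Set.mem_inter_iff, Set.mem_preimage,
      Set.mem_singleton_iff]
    constructor
    · intro h; exact ⟨_, rfl, h⟩
    · rintro ⟨m, h1, h2⟩; rw [h1]; exact h2
  rw [this]
  exact MeasurableSet.iUnion fun m =>
    (measurable_tau v (measurableSet_singleton m)).inter (hT m).measurableSet

/-! ### Probabilistic part -/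

variable (μ : Measure (Row d)) [IsProbabilityMeasure μ]

lemma fresh_set {n : ℕ} {R : Set (Site d)} {S : Set (ℕ → Site d)} (hS : Dep n S)
    (hSR : ∀ γ ∈ S, ∀ i < n, γ i - γ n ∉ R) {B : Set (ℕ → Site d)} (hB : MeasurableSet B)
    (hR : ∀ X ∈ B, ∀ j, X j ∈ R) :
    annM μ 0 (S ∩ fut n ⁻¹' B) = annM μ 0 S * annM μ 0 B := by
  classical
  have h1 : annM μ 0 (S ∩ fut n ⁻¹' B) = ((annM μ 0).restrict (fut n ⁻¹' B)) S := by
    rw [Measure.restrict_apply hS.measurableSet]
  rw [h1, measure_eq_tsum _ hS, measure_eq_tsum (annM μ 0) hS, ← ENNReal.tsum_mul_right]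
  refine tsum_congr fun h => ?_
  split_ifs with hh
  · rw [Measure.restrict_apply (measurableSet_cyl _ _)]
    exact fresh_inf μ (hSR _ hh) hB hR
  · simp

/-- Infinitely many records give trials at arbitrarily late times. -/
lemma trial' {v : Fin d → ℝ} {B : Set (ℕ → Site d)} (hB : MeasurableSet B)
    (hBv : ∀ X ∈ B, ∀ j, 0 ≤ level v (X j)) (hP : annM μ 0 B ≠ 0) (N : ℕ) :
    ∀ᵐ X ∂annM μ 0, (∃ᶠ n in atTop, Rec v n X) → ∃ n, N ≤ n ∧ Rec v n X ∧ fut n X ∈ B := by
  set Q : Set (ℕ → Site d) := ⋃ n ∈ Set.Ici N, ({X | Rec v n X} ∩ fut n ⁻¹' B)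
  have hQ : MeasurableSet Q := MeasurableSet.biUnion (Set.to_countable _) fun n _ =>
    (dep_rec v n).measurableSet.inter (measurable_fut n hB)
  have key := levy' (annM μ 0) hQ (E := fun n => {X | Rec v n X ∧ N ≤ n}) hP (by
    rintro n γ ⟨hγ, hn⟩
    have hf := fresh_inf μ (rec_fresh hγ) hB hBv
    rw [mul_comm, ← hf]
    refine measure_mono ?_
    rintro X ⟨h1, h2⟩
    refine ⟨h1, Set.mem_biUnion (Set.mem_Ici.2 hn) ⟨?_, h2⟩⟩
    have hd := dep_rec v n X γ (fun i hi => h1 i hi)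
    exact hd.2 hγ)
  filter_upwards [key] with X hX hfreq
  obtain ⟨n, hn, h1, h2⟩ := Set.mem_iUnion₂.1 (hX (hfreq.and_eventually (eventually_ge_atTop N)))
  exact ⟨n, Set.mem_Ici.1 hn, h1, h2⟩

lemma ae_tau {v : Fin d → ℝ} (h : annM μ 0 (escape v) ≠ 0) :
    ∀ᵐ X ∂annM μ 0, X ∈ Up v → 1 ≤ tau v X := by
  filter_upwards [trial' μ (measurableSet_Up v) up_level_nonneg (up_pos μ h) 1] with X hX hU
  obtain ⟨n, hn, h1, h2⟩ := hX (frequently_rec (escape_unb hU.2))
  exact (tau_spec ⟨n, hn, h1, h2⟩).1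

/-- The factor attached to a block event. -/
noncomputable def kap (v : Fin d → ℝ) (T : ℕ → Set (ℕ → Site d)) : ℝ≥0∞ :=
  ∑' m : ℕ, annM μ 0 ({X | Irr v (m + 1) X} ∩ T (m + 1))

lemma block_mul {v : Fin d → ℝ} (h : annM μ 0 (escape v) ≠ 0) {T : ℕ → Set (ℕ → Site d)}
    (hT : ∀ m, Dep m (T m)) {B : Set (ℕ → Site d)} (hB : MeasurableSet B) :
    annM μ 0 (Up v ∩ (BE v T ∩ theta v ⁻¹' B)) = kap μ v T * annM μ 0 (Up v ∩ B) := by
  have h1 : annM μ 0 (Up v ∩ (BE v T ∩ theta v ⁻¹' B)) = annM μ 0 (⋃ m : ℕ,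
      (({X | Irr v (m + 1) X} ∩ T (m + 1)) ∩ fut (m + 1) ⁻¹' (Up v ∩ B))) := by
    refine measure_congr ?_
    filter_upwards [ae_tau μ h] with X hX
    refine propext ?_
    change X ∈ Up v ∩ (BE v T ∩ theta v ⁻¹' B) ↔ X ∈ ⋃ m : ℕ,
      (({X | Irr v (m + 1) X} ∩ T (m + 1)) ∩ fut (m + 1) ⁻¹' (Up v ∩ B))
    constructor
    · rintro ⟨hU, hTT, hBB⟩
      have hτ := hX hU
      obtain ⟨m, hm⟩ := Nat.exists_eq_add_of_le hτ
      rw [add_comm] at hm
      have h2 : X ∈ Up v ∩ {X | tau v X = m + 1} := ⟨hU, hm⟩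
      rw [block_eq (by omega)] at h2
      have h3 : X ∈ T (tau v X) := hTT
      have h4 : fut (tau v X) X ∈ B := hBB
      rw [hm] at h3 h4
      exact Set.mem_iUnion.2 ⟨m, ⟨h2.1, h3⟩, h2.2, h4⟩
    · intro hmem
      obtain ⟨m, ⟨h2, h3⟩, h4, h5⟩ := Set.mem_iUnion.1 hmem
      have h6 : X ∈ Up v ∩ {X | tau v X = m + 1} := by
        rw [block_eq (by omega)]; exact ⟨h2, h4⟩
      have hm : tau v X = m + 1 := h6.2
      refine ⟨h6.1, ?_, ?_⟩
      · change X ∈ T (tau v X); rw [hm]; exact h3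
      · change fut (tau v X) X ∈ B; rw [hm]; exact h5
  rw [h1, measure_iUnion]
  · unfold kap
    rw [← ENNReal.tsum_mul_right]
    refine tsum_congr fun m => ?_
    refine fresh_set μ (R := {z : Site d | 0 ≤ level v z}) (fun X Y hXY =>
      and_congr (dep_irr v (m + 1) X Y hXY) (hT (m + 1) X Y hXY)) ?_ ((measurableSet_Up v).inter hB)
      (fun X hX j => up_level_nonneg X hX.1 j)
    rintro γ ⟨hγ, _⟩
    exact rec_fresh hγ.2.2.1
  · intro i j hij
    rw [Function.onFun, Set.disjoint_left]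
    rintro X ⟨⟨h2, _⟩, h4, _⟩ ⟨⟨h2', _⟩, h4', _⟩
    have h6 : X ∈ Up v ∩ {X | tau v X = i + 1} := by
      rw [block_eq (by omega)]; exact ⟨h2, h4⟩
    have h7 : X ∈ Up v ∩ {X | tau v X = j + 1} := by
      rw [block_eq (by omega)]; exact ⟨h2', h4'⟩
    have h8 : tau v X = i + 1 := h6.2
    have h9 : tau v X = j + 1 := h7.2
    omega
  · intro m
    exact ((dep_irr v (m + 1)).measurableSet.inter (hT (m + 1)).measurableSet).inter
      (measurable_fut _ ((measurableSet_Up v).inter hB))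

/-- The conditional law given `Up v`. -/
noncomputable def upM (v : Fin d → ℝ) : Measure (ℕ → Site d) := (annM μ 0)[|Up v]

lemma upM_prob {v : Fin d → ℝ} (h : annM μ 0 (escape v) ≠ 0) : IsProbabilityMeasure (upM μ v) :=
  cond_isProbabilityMeasure (up_pos μ h)

omit [IsProbabilityMeasure μ] in
lemma upM_apply (v : Fin d → ℝ) (A : Set (ℕ → Site d)) :
    upM μ v A = (annM μ 0 (Up v))⁻¹ * annM μ 0 (Up v ∩ A) :=
  cond_apply (measurableSet_Up v) _ _

lemma kap_univ {v : Fin d → ℝ} (h : annM μ 0 (escape v) ≠ 0) :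
    kap μ v (fun _ => Set.univ) = 1 := by
  have h1 := block_mul μ h (T := fun _ => Set.univ) (fun m X Y _ => by simp)
    (B := Set.univ) MeasurableSet.univ
  have h2 : BE v (fun _ => (Set.univ : Set (ℕ → Site d))) = Set.univ := by ext X; simp [BE]
  rw [h2, Set.preimage_univ, Set.inter_univ, Set.inter_univ] at h1
  have h3 := up_pos μ h
  have h4 : annM μ 0 (Up v) ≠ ⊤ := measure_ne_top _ _
  have h5 : 1 * annM μ 0 (Up v) = kap μ v (fun _ => Set.univ) * annM μ 0 (Up v) := by
    rw [one_mul]; exact h1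
  exact ((ENNReal.mul_left_inj h3 h4).1 h5).symm

lemma upM_BE {v : Fin d → ℝ} (h : annM μ 0 (escape v) ≠ 0) {T : ℕ → Set (ℕ → Site d)}
    (hT : ∀ m, Dep m (T m)) : upM μ v (BE v T) = kap μ v T := by
  have h1 := block_mul μ h hT (B := Set.univ) MeasurableSet.univ
  rw [Set.preimage_univ, Set.inter_univ, Set.inter_univ] at h1
  rw [upM_apply, h1, mul_comm, mul_assoc, ENNReal.mul_inv_cancel (up_pos μ h) (measure_ne_top _ _),
    mul_one]

lemma upM_block {v : Fin d → ℝ} (h : annM μ 0 (escape v) ≠ 0) {T : ℕ → Set (ℕ → Site d)}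
    (hT : ∀ m, Dep m (T m)) {B : Set (ℕ → Site d)} (hB : MeasurableSet B) :
    upM μ v (BE v T ∩ theta v ⁻¹' B) = upM μ v (BE v T) * upM μ v B := by
  rw [upM_BE μ h hT, upM_apply, block_mul μ h hT hB, upM_apply]
  ring

lemma theta_mp {v : Fin d → ℝ} (h : annM μ 0 (escape v) ≠ 0) :
    MeasurePreserving (theta v) (upM μ v) (upM μ v) := by
  refine ⟨measurable_theta v, ?_⟩
  ext B hB
  rw [Measure.map_apply (measurable_theta v) hB]
  have h1 := upM_block μ h (T := fun _ => Set.univ) (fun m X Y _ => by simp) hB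
  have h2 : BE v (fun _ => (Set.univ : Set (ℕ → Site d))) = Set.univ := by ext X; simp [BE]
  have := upM_prob μ h
  rw [h2, Set.univ_inter, measure_univ, one_mul] at h1
  exact h1

/-- Block events at different blocks are independent. -/
lemma upM_prod {v : Fin d → ℝ} (h : annM μ 0 (escape v) ≠ 0) (n : ℕ) :
    ∀ T : ℕ → ℕ → Set (ℕ → Site d), (∀ k m, Dep m (T k m)) →
      upM μ v (⋂ i ∈ range n, ((theta v)^[i]) ⁻¹' (BE v (T i))) =
        ∏ i ∈ range n, upM μ v (BE v (T i)) := by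
  induction n with
  | zero =>
    intro T _
    have := upM_prob μ h
    simp
  | succ n ih =>
    intro T hT
    have h1 : (⋂ i ∈ range (n + 1), ((theta v)^[i]) ⁻¹' (BE v (T i))) =
        BE v (T 0) ∩ theta v ⁻¹' (⋂ i ∈ range n, ((theta v)^[i]) ⁻¹' (BE v (T (i + 1)))) := by
      ext X
      simp only [Set.mem_iInter, Set.mem_preimage, Set.mem_inter_iff, Finset.mem_range]
      constructor
      · intro hX
        exact ⟨hX 0 (by omega), fun i hi => hX (i + 1) (by omega)⟩
      · rintro ⟨h1, h2⟩ i hi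
        rcases i with _ | i
        · exact h1
        · exact h2 i (by omega)
    have hmeas : MeasurableSet (⋂ i ∈ range n, ((theta v)^[i]) ⁻¹' (BE v (T (i + 1)))) :=
      Finset.measurableSet_biInter _ fun i _ =>
        ((measurable_theta v).iterate i) (measurableSet_BE v (hT (i + 1)))
    rw [h1, upM_block μ h (hT 0) hmeas, ih (fun i => T (i + 1)) (fun k m => hT (k + 1) m),
      Finset.prod_range_succ', mul_comm]

lemma upM_iIndep {v : Fin d → ℝ} (h : annM μ 0 (escape v) ≠ 0) (T : ℕ → ℕ → Set (ℕ → Site d))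
    (hT : ∀ k m, Dep m (T k m)) :
    iIndepSet (fun k => ((theta v)^[k]) ⁻¹' (BE v (T k))) (upM μ v) := by
  classical
  have := upM_prob μ h
  rw [iIndepSet_iff_meas_biInter]
  · intro s
    obtain ⟨n, hn⟩ := s.exists_nat_subset_range
    set T' : ℕ → ℕ → Set (ℕ → Site d) := fun k => if k ∈ s then T k else fun _ => Set.univ
    have hT' : ∀ k m, Dep m (T' k m) := by
      intro k m
      by_cases hk : k ∈ s
      · simp only [T', hk, if_true]; exact hT k m
      · simp only [T', hk, if_false]; exact fun X Y _ => by simp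
    have h1 := upM_prod μ h n T' hT'
    have h2 : BE v (fun _ => (Set.univ : Set (ℕ → Site d))) = Set.univ := by ext X; simp [BE]
    have h3 : (⋂ i ∈ range n, ((theta v)^[i]) ⁻¹' (BE v (T' i))) =
        ⋂ i ∈ s, ((theta v)^[i]) ⁻¹' (BE v (T i)) := by
      ext X
      simp only [Set.mem_iInter, Set.mem_preimage]
      constructor
      · intro hX i hi
        have := hX i (hn hi)
        simpa only [T', hi, if_true] using this
      · intro hX i _
        by_cases hi : i ∈ s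
        · simpa only [T', hi, if_true] using hX i hi
        · simp only [T', hi, if_false, h2, Set.mem_univ]
    have h4 : ∏ i ∈ range n, upM μ v (BE v (T' i)) = ∏ i ∈ s, upM μ v (BE v (T i)) := by
      rw [← Finset.prod_subset hn]
      · exact Finset.prod_congr rfl fun i hi => by simp only [T', hi, if_true]
      · intro i _ hi
        simp only [T', hi, if_false, h2, measure_univ]
    rw [h3, h4] at h1
    rw [h1]
    refine Finset.prod_congr rfl fun i _ => ?_
    exact (((theta_mp μ h).iterate i).measure_preimage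
      (measurableSet_BE v (hT i)).nullMeasurableSet).symm
  · exact fun k => ((measurable_theta v).iterate k) (measurableSet_BE v (hT k))

end Vale.P147
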