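import Vale.Agent.P147.Regen

/-!
# Block functionals, the strong law, regeneration times, integrability of the height
-/

open MeasureTheory ProbabilityTheory Filter Finset
open scoped ENNReal Topology

namespace Vale.P147

variable {d : ℕ}

/-! ### An integrability criterion -/

lemma integrable_of_tsum {Ω : Type*} {mΩ : MeasurableSpace Ω} {ν : Measure Ω} {f : Ω → ℝ}
    (hf : Measurable f) {C : ℝ} (hC : 0 < C)
    (h : ∑' k : ℕ, ν {ω | C * k < |f ω|} ≠ ∞) : Integrable f ν := by
  have hm : ∀ k : ℕ, MeasurableSet {ω | C * k < |f ω|} := fun k =>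
    measurableSet_lt measurable_const (by fun_prop)
  have h1 : ∫⁻ ω, ENNReal.ofReal (|f ω| / C) ∂ν ≤ ∑' k : ℕ, ν {ω | C * k < |f ω|} := by
    calc ∫⁻ ω, ENNReal.ofReal (|f ω| / C) ∂ν
        ≤ ∫⁻ ω, ∑' k : ℕ, Set.indicator {ω | C * k < |f ω|} (fun _ => (1 : ℝ≥0∞)) ω ∂ν := by
          refine lintegral_mono fun ω => ?_
          set x := |f ω| / C
          calc ENNReal.ofReal x ≤ (⌈x⌉₊ : ℝ≥0∞) := by
                rw [← ENNReal.ofReal_natCast]
                exact ENNReal.ofReal_le_ofReal (Nat.le_ceil x)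
            _ = ∑ k ∈ range ⌈x⌉₊, (1 : ℝ≥0∞) := by simp
            _ = ∑ k ∈ range ⌈x⌉₊, Set.indicator {ω | C * k < |f ω|} (fun _ => (1 : ℝ≥0∞)) ω := by
                refine Finset.sum_congr rfl fun k hk => ?_
                rw [Set.indicator_of_mem]
                have h2 : (k : ℝ) < x := Nat.lt_ceil.1 (Finset.mem_range.1 hk)
                simp only [Set.mem_ofPred_eq]
                rw [lt_div_iff₀ hC] at h2
                linarith
            _ ≤ ∑' k : ℕ, Set.indicator {ω | C * k < |f ω|} (fun _ => (1 : ℝ≥0∞)) ω :=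
                ENNReal.sum_le_tsum _
      _ = ∑' k : ℕ, ∫⁻ ω, Set.indicator {ω | C * k < |f ω|} (fun _ => (1 : ℝ≥0∞)) ω ∂ν :=
          lintegral_tsum fun k => (measurable_const.indicator (hm k)).aemeasurable
      _ = ∑' k : ℕ, ν {ω | C * k < |f ω|} := by
          refine tsum_congr fun k => ?_
          rw [lintegral_indicator (hm k)]
          simp
  have h2 : Integrable (fun ω => |f ω| / C) ν := by
    refine ⟨(by fun_prop : Measurable fun ω => |f ω| / C).aestronglyMeasurable, ?_⟩
    rw [hasFiniteIntegral_iff_ofReal (Filter.Eventually.of_forall fun ω => by positivity)]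
    exact lt_of_le_of_lt h1 (lt_top_iff_ne_top.2 h)
  have h3 : Integrable (fun ω => |f ω|) ν := by
    have := h2.mul_const C
    refine this.congr (Filter.Eventually.of_forall fun ω => ?_)
    simp only
    field_simp
  exact (integrable_norm_iff hf.aestronglyMeasurable).1 h3

/-! ### Block functionals -/

/-- `F m` depends only on the first `m` steps. -/
def DepF (F : ℕ → (ℕ → Site d) → ℝ) : Prop :=
  ∀ m X Y, (∀ i ≤ m, X i = Y i) → F m X = F m Y

/-- A functional of the first block. -/
noncomputable def BF (v : Fin d → ℝ) (F : ℕ → (ℕ → Site d) → ℝ) (X : ℕ → Site d) : ℝ :=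
  F (tau v X) X

lemma dep_preimage {F : ℕ → (ℕ → Site d) → ℝ} (hF : DepF F) (s : Set ℝ) (m : ℕ) :
    Dep m (F m ⁻¹' s) := by
  intro X Y h
  simp only [Set.mem_preimage, hF m X Y h]

lemma measurable_BF (v : Fin d → ℝ) {F : ℕ → (ℕ → Site d) → ℝ} (hF : DepF F) :
    Measurable (BF v F) := by
  intro s _
  exact measurableSet_BE v (T := fun m => F m ⁻¹' s) (fun m => dep_preimage hF s m)

variable (μ : Measure (Row d)) [IsProbabilityMeasure μ]

lemma indep_BF {v : Fin d → ℝ} (h : annM μ 0 (escape v) ≠ 0) {F : ℕ → (ℕ → Site d) → ℝ}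
    (hF : DepF F) {G : (ℕ → Site d) → ℝ} (hG : Measurable G) :
    IndepFun (BF v F) (G ∘ theta v) (upM μ v) := by
  rw [indepFun_iff_measure_inter_preimage_eq_mul]
  intro s t _ ht
  have h1 := upM_block μ h (T := fun m => F m ⁻¹' s) (fun m => dep_preimage hF s m) (hG ht)
  have h2 : upM μ v (G ⁻¹' t) = upM μ v (theta v ⁻¹' (G ⁻¹' t)) :=
    ((theta_mp μ h).measure_preimage (hG ht).nullMeasurableSet).symm
  rw [h2] at h1
  exact h1

lemma indep_iter {v : Fin d → ℝ} (h : annM μ 0 (escape v) ≠ 0) {F : ℕ → (ℕ → Site d) → ℝ}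
    (hF : DepF F) {i j : ℕ} (hij : i < j) :
    IndepFun (BF v F ∘ (theta v)^[i]) (BF v F ∘ (theta v)^[j]) (upM μ v) := by
  obtain ⟨k, rfl⟩ := Nat.exists_eq_add_of_lt hij
  have h1 := indep_BF μ h hF (G := BF v F ∘ (theta v)^[k])
    ((measurable_BF v hF).comp ((measurable_theta v).iterate k))
  rw [indepFun_iff_measure_inter_preimage_eq_mul] at h1 ⊢
  intro s t hs ht
  have hmp := (theta_mp μ h).iterate i
  have e2 : (BF v F ∘ (theta v)^[i + k + 1]) =
      ((BF v F ∘ (theta v)^[k]) ∘ theta v) ∘ (theta v)^[i] := by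
    funext X
    simp only [Function.comp]
    rw [show i + k + 1 = k + 1 + i by ring, Function.iterate_add_apply, Function.iterate_succ_apply]
  have hs' : MeasurableSet (BF v F ⁻¹' s) := measurable_BF v hF hs
  have ht' : MeasurableSet ((((BF v F ∘ (theta v)^[k]) ∘ theta v)) ⁻¹' t) :=
    (((measurable_BF v hF).comp ((measurable_theta v).iterate k)).comp (measurable_theta v)) ht
  rw [e2, Set.preimage_comp, Set.preimage_comp (g := ((BF v F ∘ (theta v)^[k]) ∘ theta v)),
    ← Set.preimage_inter, hmp.measure_preimage (hs'.inter ht').nullMeasurableSet,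
    hmp.measure_preimage hs'.nullMeasurableSet, hmp.measure_preimage ht'.nullMeasurableSet]
  exact h1 s t hs ht

/-- The strong law for block functionals. -/
lemma slln {v : Fin d → ℝ} (h : annM μ 0 (escape v) ≠ 0) {F : ℕ → (ℕ → Site d) → ℝ}
    (hF : DepF F) (hint : Integrable (BF v F) (upM μ v)) :
    ∀ᵐ X ∂upM μ v, Tendsto (fun n : ℕ => (∑ i ∈ range n, BF v F ((theta v)^[i] X)) / n) atTop
      (𝓝 (∫ X, BF v F X ∂upM μ v)) := by
  have key := strong_law_ae_real (μ := upM μ v) (fun i => BF v F ∘ (theta v)^[i]) hint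
    (by
      intro i j hij
      rcases lt_or_gt_of_ne hij with h1 | h1
      · exact indep_iter μ h hF h1
      · exact (indep_iter μ h hF h1).symm)
    (by
      intro i
      have hmp := (theta_mp μ h).iterate i
      refine ⟨((measurable_BF v hF).comp hmp.measurable).aemeasurable,
        (measurable_BF v hF).aemeasurable, ?_⟩
      rw [← Measure.map_map (measurable_BF v hF) hmp.measurable, hmp.map_eq]
      rfl)
  filter_upwards [key] with X hX
  exact hX

/-! ### Regeneration times -/

/-- The regeneration times. -/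
noncomputable def Tk (v : Fin d → ℝ) (k : ℕ) (X : ℕ → Site d) : ℕ :=
  ∑ i ∈ range k, tau v ((theta v)^[i] X)

/-- All blocks are well defined. -/
def Good (v : Fin d → ℝ) (X : ℕ → Site d) : Prop :=
  ∀ k, (theta v)^[k] X ∈ Up v ∧ 1 ≤ tau v ((theta v)^[k] X)

lemma tau_reg {v : Fin d → ℝ} {X : ℕ → Site d} (h : 1 ≤ tau v X) : Reg v (tau v X) X := by
  have := (tau_eq_iff (v := v) (X := X) (m := tau v X) h).1 rfl
  exact this.1

lemma ae_good {v : Fin d → ℝ} (h : annM μ 0 (escape v) ≠ 0) : ∀ᵐ X ∂upM μ v, Good v X := by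
  have h0 : ∀ᵐ X ∂upM μ v, X ∈ Up v ∧ 1 ≤ tau v X := by
    have h1 : ∀ᵐ X ∂upM μ v, X ∈ Up v := ae_cond_mem (measurableSet_Up v)
    have h2 : ∀ᵐ X ∂upM μ v, X ∈ Up v → 1 ≤ tau v X :=
      cond_absolutelyContinuous (ae_tau μ h)
    filter_upwards [h1, h2] with X a b
    exact ⟨a, b a⟩
  unfold Good
  rw [ae_all_iff]
  intro k
  exact ((theta_mp μ h).iterate k).quasiMeasurePreserving.ae h0

variable {v : Fin d → ℝ} {X : ℕ → Site d}

lemma good_zero (hX : Good v X) : X 0 = 0 := up_zero (hX 0).1

lemma iter_eq (hX : Good v X) (k : ℕ) : (theta v)^[k] X = fut (Tk v k X) X := by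
  induction k with
  | zero => simp [Tk, fut_zero_eq (good_zero hX)]
  | succ k ih =>
    rw [Function.iterate_succ_apply', theta, Tk, Finset.sum_range_succ]
    conv_lhs => rw [ih, fut_fut]
    rw [ih]
    rfl

lemma Tk_succ (k : ℕ) : Tk v (k + 1) X = Tk v k X + tau v ((theta v)^[k] X) := by
  unfold Tk; rw [Finset.sum_range_succ]

lemma Tk_lt (hX : Good v X) (k : ℕ) : Tk v k X < Tk v (k + 1) X := by
  rw [Tk_succ]
  have := (hX k).2
  omega

lemma Tk_strictMono (hX : Good v X) : StrictMono fun k => Tk v k X :=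
  strictMono_nat_of_lt_succ (Tk_lt hX)

lemma le_Tk (hX : Good v X) (k : ℕ) : k ≤ Tk v k X := (Tk_strictMono hX).le_apply

lemma Tk_up (hX : Good v X) (k : ℕ) : fut (Tk v k X) X ∈ Up v := by
  rw [← iter_eq hX]; exact (hX k).1

lemma Tk_rec (hX : Good v X) (k : ℕ) : Rec v (Tk v k X) X := by
  induction k with
  | zero => intro i hi; simp [Tk] at hi
  | succ k ih =>
    intro i hi
    have hreg := (tau_reg (hX k).2).1
    have hlt : level v (X (Tk v k X)) < level v (X (Tk v (k + 1) X)) :=
      up_gt (Tk_up hX k) (Tk_lt hX k)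
    rcases lt_or_ge i (Tk v k X) with h1 | h1
    · exact (ih i h1).trans hlt
    · obtain ⟨j, rfl⟩ := Nat.exists_eq_add_of_le h1
      rw [Tk_succ] at hi ⊢
      have := hreg j (by omega)
      rw [iter_eq hX] at this ⊢
      simp only [fut, level_sub] at this
      linarith

lemma level_Tk (hX : Good v X) (u : Fin d → ℝ) (k : ℕ) : level u (X (Tk v k X)) =
    ∑ i ∈ range k, BF v (fun m Y => level u (Y m)) ((theta v)^[i] X) := by
  induction k with
  | zero => simp [Tk, good_zero hX, level_zero]
  | succ k ih =>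
    rw [Finset.sum_range_succ, ← ih, BF, Tk_succ]
    conv_rhs => rw [iter_eq hX]
    rw [fut, level_sub, iter_eq hX]
    ring

/-! ### Integrability of the height of a block -/

/-- First passage over level `a` at time `r`. -/
def FP (v : Fin d → ℝ) (a : ℝ) (r : ℕ) : Set (ℕ → Site d) :=
  {X | (∀ k < r, level v (X k) < a) ∧ a ≤ level v (X r)}

lemma dep_FP (v : Fin d → ℝ) (a : ℝ) (r : ℕ) : Dep r (FP v a r) := by
  intro X Y h
  simp only [FP, Set.mem_ofPred_eq, h r le_rfl]
  refine and_congr (forall_congr' fun k => forall_congr' fun hk => by rw [h k hk.le]) Iff.rfl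

lemma FP_unique {a : ℝ} {r s : ℕ} (h1 : X ∈ FP v a r) (h2 : X ∈ FP v a s) : r = s := by
  rcases lt_trichotomy r s with h | h | h
  · have := h2.1 r h; linarith [h1.2]
  · exact h
  · have := h1.1 s h; linarith [h2.2]

lemma up_subset_FP (v : Fin d → ℝ) (a : ℝ) : (Up v : Set (ℕ → Site d)) ⊆ ⋃ r, FP v a r := by
  classical
  intro X hX
  have hex : ∃ r, a ≤ level v (X r) := by
    obtain ⟨r, hr⟩ := escape_unb hX.2 a
    exact ⟨r, hr.le⟩
  refine Set.mem_iUnion.2 ⟨Nat.find hex, fun k hk => ?_, Nat.find_spec hex⟩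
  exact not_le.1 (Nat.find_min hex hk)

/-- The height of the first block. -/
noncomputable def ht (v : Fin d → ℝ) : (ℕ → Site d) → ℝ := BF v (fun m Y => level v (Y m))

lemma depF_level (u : Fin d → ℝ) : DepF (fun m (Y : ℕ → Site d) => level u (Y m)) := by
  intro m X Y h
  simp only [h m le_rfl]

lemma level_step {X : ℕ → Site d} (hs : ∀ n, ∃ e : Dir d, X (n + 1) - X n = unit e)
    (u : Fin d → ℝ) (n : ℕ) : level u (X (n + 1)) ≤ level u (X n) + stepBd u := by
  obtain ⟨e, he⟩ := hs n
  have h1 := level_unit_le u e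
  rw [← he, level_sub] at h1
  linarith

lemma ht_sum_le {L : ℝ} (hL : 0 < L) (hstep : stepBd v ≤ L) (N : ℕ) :
    ∑ j ∈ range N, annM μ 0 (Up v) * annM μ 0 (Up v ∩ {X | L * (j + 1 : ℕ) < ht v X}) ≤ 1 := by
  classical
  have hmB : ∀ j : ℕ, MeasurableSet (Up v ∩ {X | L * (j + 1 : ℕ) < ht v X}) := fun j =>
    (measurableSet_Up v).inter (measurableSet_lt measurable_const
      (measurable_BF v (depF_level v)))
  set D : ℕ → Set (ℕ → Site d) := fun j => ⋃ r, (FP v (L * (N - j : ℕ)) r ∩
    fut r ⁻¹' (Up v ∩ {X | L * (j + 1 : ℕ) < ht v X}))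
  have hmD : ∀ j, MeasurableSet (D j) := fun j => MeasurableSet.iUnion fun r =>
    (dep_FP v _ r).measurableSet.inter (measurable_fut r (hmB j))
  have h1 : ∀ j, annM μ 0 (Up v) * annM μ 0 (Up v ∩ {X | L * (j + 1 : ℕ) < ht v X}) ≤
      annM μ 0 (D j) := by
    intro j
    have hdis : Pairwise (Function.onFun Disjoint (FP v (L * (N - j : ℕ)))) := by
      intro r s hrs
      rw [Function.onFun, Set.disjoint_left]
      intro X h1 h2
      exact hrs (FP_unique h1 h2)
    have h2 : annM μ 0 (D j) = annM μ 0 (⋃ r, FP v (L * (N - j : ℕ)) r) *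
        annM μ 0 (Up v ∩ {X | L * (j + 1 : ℕ) < ht v X}) := by
      simp only [D]
      rw [measure_iUnion, measure_iUnion hdis (fun r => (dep_FP v _ r).measurableSet),
        ← ENNReal.tsum_mul_right]
      · refine tsum_congr fun r => ?_
        refine fresh_set μ (R := {z : Site d | 0 ≤ level v z}) (dep_FP v _ r) ?_ (hmB j)
          (fun X hX i => up_level_nonneg X hX.1 i)
        intro γ hγ i hi
        simp only [Set.mem_ofPred_eq, level_sub, not_le]
        linarith [hγ.1 i hi, hγ.2]
      · intro r s hrs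
        exact (hdis hrs).mono Set.inter_subset_left Set.inter_subset_left
      · intro r
        exact (dep_FP v _ r).measurableSet.inter (measurable_fut r (hmB j))
    rw [h2]
    gcongr
    exact up_subset_FP v _
  have hdisj : Set.Pairwise (↑(range N)) (Function.onFun (AEDisjoint (annM μ 0)) D) := by
    -- symmetric reduction
    have key : ∀ j ∈ range N, ∀ j' ∈ range N, j' < j → annM μ 0 (D j ∩ D j') = 0 := by
      intro j hj j' hj' hjj
      rw [Finset.mem_range] at hj hj'
      rw [measure_eq_zero_iff_ae_notMem]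
      filter_upwards [ae_start μ, ae_step μ] with X h0 hs
      rintro ⟨h1, h2⟩
      obtain ⟨r, h3, h4, h5⟩ := Set.mem_iUnion.1 h1
      obtain ⟨r', h3', h4', h5'⟩ := Set.mem_iUnion.1 h2
      simp only [Set.mem_ofPred_eq] at h5
      have hi : ((N - j : ℕ) : ℝ) + 1 ≤ ((N - j' : ℕ) : ℝ) := by
        have : N - j + 1 ≤ N - j' := by omega
        exact_mod_cast this
      have hi1 : (1 : ℝ) ≤ ((N - j : ℕ) : ℝ) := by
        have : 1 ≤ N - j := by omega
        exact_mod_cast this
      -- `r ≥ 1` and the overshoot is at most `L`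
      have hr : 1 ≤ r := by
        by_contra hcon
        obtain rfl : r = 0 := by omega
        have := h3.2
        rw [h0, level_zero] at this
        nlinarith
      have hover : level v (X r) < L * ((N - j : ℕ) : ℝ) + L := by
        obtain ⟨q, rfl⟩ := Nat.exists_eq_add_of_le hr
        have h6 := h3.1 q (by omega)
        have h7 := level_step hs v q
        rw [add_comm 1 q]
        linarith
      have hrr : r < r' := by
        by_contra hcon
        have hge := not_lt.1 hcon
        rcases hge.eq_or_lt with h6 | h6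
        · subst h6
          have := h3'.2
          nlinarith
        · have := h3.1 r' h6
          have h7 := h3'.2
          nlinarith
      -- regeneration of `fut r X` at time `r' - r`
      set Y := fut r X
      obtain ⟨q, rfl⟩ := Nat.exists_eq_add_of_le hrr.le
      have hq : 1 ≤ q := by omega
      have hlevY : ∀ k, level v (Y k) = level v (X (r + k)) - level v (X r) := by
        intro k; simp only [Y, fut, level_sub]
      have hreg : Reg v q Y := by
        refine ⟨fun k hk => ?_, ?_⟩
        · rw [hlevY, hlevY]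
          have := h3'.1 (r + k) (by omega)
          linarith [h3'.2]
        · simp only [Y, fut_fut]; exact h4'
      have h8 := tau_le hq hreg
      have h9 : ht v Y ≤ level v (Y q) := by
        have h10 : ht v Y = level v (Y (tau v Y)) := rfl
        rw [h10]
        rcases h8.eq_or_lt with h11 | h11
        · rw [h11]
        · exact (hreg.1 _ h11).le
      have h12 : level v (X (r + q)) < L * ((N - j' : ℕ) : ℝ) + L := by
        obtain ⟨q', rfl⟩ := Nat.exists_eq_add_of_le hq
        have h6 := h3'.1 (r + q') (by omega)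
        have h7 := level_step hs v (r + q')
        rw [show r + (1 + q') = r + q' + 1 by ring]
        linarith
      rw [hlevY] at h9
      have h13 : ((N - j' : ℕ) : ℝ) ≤ N := by exact_mod_cast Nat.sub_le _ _
      have h14 : ((N - j : ℕ) : ℝ) = (N : ℝ) - j := by
        rw [Nat.cast_sub (by omega)]
      have h15 := h3.2
      rw [h14] at h15
      push_cast at h5
      nlinarith
    intro j hj j' hj' hne
    rw [Function.onFun]
    have hj1 : j ∈ range N := hj
    have hj2 : j' ∈ range N := hj'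
    rcases lt_or_gt_of_ne hne with h | h
    · have := key j' hj2 j hj1 h
      rw [Set.inter_comm] at this
      exact this
    · exact key j hj1 j' hj2 h
  calc ∑ j ∈ range N, annM μ 0 (Up v) * annM μ 0 (Up v ∩ {X | L * (j + 1 : ℕ) < ht v X})
      ≤ ∑ j ∈ range N, annM μ 0 (D j) := Finset.sum_le_sum fun j _ => h1 j
    _ = annM μ 0 (⋃ j ∈ range N, D j) :=
        (measure_biUnion_finset₀ hdisj fun j _ => (hmD j).nullMeasurableSet).symm
    _ ≤ 1 := prob_le_one

lemma ht_integrable (h : annM μ 0 (escape v) ≠ 0) : Integrable (ht v) (upM μ v) := by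
  set L : ℝ := stepBd v + 1
  have hs0 : 0 ≤ stepBd v := Finset.sum_nonneg fun i _ => abs_nonneg _
  have hL : 0 < L := by positivity
  refine integrable_of_tsum (measurable_BF v (depF_level v)) hL ?_
  have hp := up_pos μ h
  have hpt : annM μ 0 (Up v) ≠ ⊤ := measure_ne_top _ _
  have h1 : ∀ j : ℕ, upM μ v {X | L * (j + 1 : ℕ) < |ht v X|} =
      (annM μ 0 (Up v))⁻¹ * annM μ 0 (Up v ∩ {X | L * (j + 1 : ℕ) < ht v X}) := by
    intro j
    rw [upM_apply]
    congr 2
    ext X
    simp only [Set.mem_inter_iff, Set.mem_ofPred_eq]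
    refine and_congr_right fun hX => ?_
    rw [abs_of_nonneg]
    exact up_level_nonneg X hX _
  have h2 : ∑' j : ℕ, upM μ v {X | L * (j + 1 : ℕ) < |ht v X|} ≤
      (annM μ 0 (Up v))⁻¹ * (annM μ 0 (Up v))⁻¹ := by
    refine ENNReal.tsum_le_of_sum_range_le fun N => ?_
    have h3 := ht_sum_le (v := v) μ hL (by simp [L]) N
    rw [← Finset.mul_sum] at h3
    simp_rw [h1]
    rw [← Finset.mul_sum]
    gcongr
    rw [mul_comm] at h3
    exact (ENNReal.le_inv_iff_mul_le).2 h3
  have := upM_prob μ h
  rw [tsum_eq_zero_add' ENNReal.summable]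
  refine ENNReal.add_ne_top.2 ⟨measure_ne_top _ _, ?_⟩
  refine ne_top_of_le_ne_top ?_ h2
  exact ENNReal.mul_ne_top (ENNReal.inv_ne_top.2 hp) (ENNReal.inv_ne_top.2 hp)

lemma ht_mean_pos (h : annM μ 0 (escape v) ≠ 0) : 0 < ∫ X, ht v X ∂upM μ v := by
  have := upM_prob μ h
  have h1 : ∀ᵐ X ∂upM μ v, 0 < ht v X := by
    filter_upwards [ae_good μ h] with X hX
    exact (hX 0).1.1.1 _ (hX 0).2
  rw [integral_pos_iff_support_of_nonneg_ae (h1.mono fun X hX => hX.le) (ht_integrable μ h)]
  have h2 : upM μ v (Function.support (ht v)) = 1 := by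
    rw [← prob_compl_eq_zero_iff]
    · refine measure_mono_null ?_ h1
      intro X hX hpos
      exact hX (Function.mem_support.2 (ne_of_gt hpos))
    · exact measurableSet_support (measurable_BF v (depF_level v))
  rw [h2]
  exact one_pos

end Vale.P147
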