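import Vale.Agent.P147.Regen2

/-!
# The asymptotic direction
-/

open MeasureTheory ProbabilityTheory Filter Finset
open scoped ENNReal Topology

namespace Vale.P147

variable {d : ℕ}

/-- Maximal displacement in direction `u` during the first `m` steps. -/
noncomputable def FW (u : Fin d → ℝ) (m : ℕ) (X : ℕ → Site d) : ℝ :=
  (range (m + 1)).sup' (Finset.nonempty_range_iff.2 (Nat.succ_ne_zero m))
    (fun i => |level u (X i)|)

lemma depF_FW (u : Fin d → ℝ) : DepF (FW u) := by
  intro m X Y h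
  unfold FW
  refine Finset.sup'_congr _ rfl fun i hi => ?_
  rw [h i (by have := Finset.mem_range.1 hi; omega)]

lemma le_FW (u : Fin d → ℝ) {m i : ℕ} (hi : i ≤ m) (X : ℕ → Site d) :
    |level u (X i)| ≤ FW u m X :=
  Finset.le_sup' (fun i => |level u (X i)|) (Finset.mem_range.2 (by omega))

lemma FW_nonneg (u : Fin d → ℝ) (m : ℕ) (X : ℕ → Site d) : 0 ≤ FW u m X :=
  (abs_nonneg _).trans (le_FW u (Nat.zero_le m) X)

lemma FW_le (u : Fin d → ℝ) {m : ℕ} {X : ℕ → Site d} {c : ℝ}
    (h : ∀ i ≤ m, |level u (X i)| ≤ c) : FW u m X ≤ c := by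
  exact Finset.sup'_le _ _ fun i hi => h i (by have := Finset.mem_range.1 hi; omega)

lemma abs_level_le {v u : Fin d → ℝ} {c : ℝ} (hc : 0 < c) {x : Site d}
    (h : ∀ j, c * |(x j : ℝ)| ≤ level v x) : |level u x| ≤ stepBd u / c * level v x := by
  unfold stepBd
  calc |level u x| ≤ ∑ j, |(x j : ℝ) * u j| := Finset.abs_sum_le_sum_abs _ _
    _ ≤ ∑ j, |u j| * (level v x / c) := by
        refine Finset.sum_le_sum fun j _ => ?_
        rw [abs_mul, mul_comm]
        refine mul_le_mul_of_nonneg_left ?_ (abs_nonneg _)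
        rw [le_div_iff₀ hc, mul_comm]
        exact h j
    _ = (∑ j, |u j|) / c * level v x := by
        rw [← Finset.sum_mul]; ring

variable {v : Fin d → ℝ} {X : ℕ → Site d}

lemma level_le_Tk (hX : Good v X) {k n : ℕ} (h : n ≤ Tk v k X) :
    level v (X n) ≤ level v (X (Tk v k X)) := by
  rcases h.eq_or_lt with h1 | h1
  · rw [h1]
  · exact (Tk_rec hX k n h1).le

variable (μ : Measure (Row d)) [IsProbabilityMeasure μ]

/-- The cone hypothesis. -/
def ConeHyp (v : Fin d → ℝ) : Prop :=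
  ∃ c : ℝ, 0 < c ∧ ∀ᵐ X ∂annM μ 0, X ∈ escape v →
      ∀ᶠ n in atTop, ∀ j, c * |(X n j : ℝ)| ≤ level v (X n)

/-- The mean height of a block. -/
noncomputable def mh (v : Fin d → ℝ) : ℝ := ∫ X, ht v X ∂upM μ v

lemma slln_height (h : annM μ 0 (escape v) ≠ 0) :
    ∀ᵐ X ∂upM μ v, Tendsto (fun k : ℕ => level v (X (Tk v k X)) / k) atTop (𝓝 (mh μ v)) := by
  filter_upwards [slln μ h (depF_level v) (ht_integrable μ h), ae_good μ h] with X hX hg
  simp_rw [level_Tk hg]
  exact hX

lemma FW_bound (h : annM μ 0 (escape v) ≠ 0) (hc : ConeHyp μ v) (u : Fin d → ℝ) :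
    ∃ C : ℝ, 0 < C ∧ ∀ᵐ X ∂upM μ v, ∀ᶠ k : ℕ in atTop,
      BF v (FW u) ((theta v)^[k] X) ≤ C * k := by
  obtain ⟨c, hc0, hcone⟩ := hc
  have hmh : 0 < mh μ v := ht_mean_pos μ h
  set a : ℝ := stepBd u / c
  have ha : 0 ≤ a := div_nonneg (Finset.sum_nonneg fun i _ => abs_nonneg _) hc0.le
  refine ⟨4 * a * (mh μ v + 1) + 1, by positivity, ?_⟩
  have hcone' : ∀ᵐ X ∂upM μ v, X ∈ escape v →
      ∀ᶠ n in atTop, ∀ j, c * |(X n j : ℝ)| ≤ level v (X n) := cond_absolutelyContinuous hcone
  filter_upwards [slln_height μ h, ae_good μ h, hcone'] with X hX hg hcX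
  obtain ⟨N0, hN0⟩ := (hcX (hg 0).1.2).exists_forall_of_atTop
  have hX1 : ∀ᶠ k : ℕ in atTop, level v (X (Tk v (k + 1) X)) / ((k + 1 : ℕ) : ℝ) < mh μ v + 1 :=
    ((tendsto_add_atTop_iff_nat 1).2 hX).eventually_lt_const (by linarith)
  filter_upwards [hX1, eventually_ge_atTop N0, eventually_ge_atTop 1] with k hk hkN hk1
  have hkN' : N0 ≤ Tk v k X := hkN.trans (le_Tk hg k)
  have hH : level v (X (Tk v (k + 1) X)) ≤ (mh μ v + 1) * (k + 1) := by
    rw [div_lt_iff₀ (by positivity)] at hk
    push_cast at hk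
    exact hk.le
  have hk1' : (1 : ℝ) ≤ k := by exact_mod_cast hk1
  have hbd : ∀ n, Tk v k X ≤ n → n ≤ Tk v (k + 1) X →
      |level u (X n)| ≤ a * ((mh μ v + 1) * (k + 1)) := by
    intro n hn1 hn2
    have h1 := abs_level_le (u := u) hc0 (hN0 n (hkN'.trans hn1))
    have h2 := level_le_Tk hg hn2
    calc |level u (X n)| ≤ a * level v (X n) := h1
      _ ≤ a * ((mh μ v + 1) * (k + 1)) := mul_le_mul_of_nonneg_left (h2.trans hH) ha
  have hW : BF v (FW u) ((theta v)^[k] X) ≤ 2 * (a * ((mh μ v + 1) * (k + 1))) := by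
    refine FW_le u fun i hi => ?_
    have e : ∀ i, level u ((theta v)^[k] X i) =
        level u (X (Tk v k X + i)) - level u (X (Tk v k X)) := by
      intro i; rw [iter_eq hg, fut, level_sub]
    rw [e]
    have h3 := hbd (Tk v k X + i) (by omega) (by rw [Tk_succ]; omega)
    have h4 := hbd (Tk v k X) le_rfl (Tk_lt hg k).le
    have h5 := abs_sub (level u (X (Tk v k X + i))) (level u (X (Tk v k X)))
    linarith
  refine hW.trans ?_
  have h6 : (mh μ v + 1) * (k + 1) ≤ (mh μ v + 1) * (2 * k) :=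
    mul_le_mul_of_nonneg_left (by linarith) (by positivity)
  have h7 := mul_le_mul_of_nonneg_left h6 ha
  nlinarith

lemma FW_integrable (h : annM μ 0 (escape v) ≠ 0) (hc : ConeHyp μ v) (u : Fin d → ℝ) :
    Integrable (BF v (FW u)) (upM μ v) := by
  obtain ⟨C, hC, hbd⟩ := FW_bound μ h hc u
  have := upM_prob μ h
  refine integrable_of_tsum (measurable_BF v (depF_FW u)) hC fun hsum => ?_
  set T : ℕ → ℕ → Set (ℕ → Site d) := fun k m => FW u m ⁻¹' {x | C * k < |x|}
  have hT : ∀ k m, Dep m (T k m) := fun k m => dep_preimage (depF_FW u) _ m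
  have hmeas : ∀ k, MeasurableSet (BE v (T k)) := fun k => measurableSet_BE v (hT k)
  have h1 := measure_limsup_eq_one (μ := upM μ v)
    (s := fun k => ((theta v)^[k]) ⁻¹' (BE v (T k)))
    (fun k => ((measurable_theta v).iterate k) (hmeas k)) (upM_iIndep μ h T hT) (by
      rw [← hsum]
      refine tsum_congr fun k => ?_
      rw [((theta_mp μ h).iterate k).measure_preimage (hmeas k).nullMeasurableSet]
      rfl)
  have h2 : ∀ᵐ X ∂upM μ v, X ∈ limsup (fun k => ((theta v)^[k]) ⁻¹' (BE v (T k))) atTop := by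
    have hm : MeasurableSet (limsup (fun k => ((theta v)^[k]) ⁻¹' (BE v (T k))) atTop) :=
      MeasurableSet.measurableSet_limsup fun k => ((measurable_theta v).iterate k) (hmeas k)
    exact (prob_compl_eq_zero_iff hm).2 h1
  have h3 : ∀ᵐ _X ∂upM μ v, False := by
    filter_upwards [h2, hbd] with X hX1 hX2
    rw [mem_limsup_iff_frequently_mem] at hX1
    obtain ⟨k, hk1, hk2⟩ := (hX1.and_eventually hX2).exists
    have hk1' : C * k < |BF v (FW u) ((theta v)^[k] X)| := hk1
    have hge : 0 ≤ BF v (FW u) ((theta v)^[k] X) := FW_nonneg u _ _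
    rw [abs_of_nonneg hge] at hk1'
    linarith
  obtain ⟨_, hX⟩ := h3.exists
  exact hX

lemma xi_integrable (h : annM μ 0 (escape v) ≠ 0) (hc : ConeHyp μ v) (u : Fin d → ℝ) :
    Integrable (BF v (fun m Y => level u (Y m))) (upM μ v) := by
  refine (FW_integrable μ h hc u).mono' (measurable_BF v (depF_level u)).aestronglyMeasurable ?_
  exact Filter.Eventually.of_forall fun X => le_FW u le_rfl X

/-- If the mean displacement of a block in direction `u` vanishes then the displacement in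
direction `u` is negligible compared to the level. -/
lemma ratio_zero (h : annM μ 0 (escape v) ≠ 0) (hc : ConeHyp μ v) (u : Fin d → ℝ)
    (hu : ∫ X, BF v (fun m Y => level u (Y m)) X ∂upM μ v = 0) :
    ∀ᵐ X ∂upM μ v, Tendsto (fun n => level u (X n) / level v (X n)) atTop (𝓝 0) := by
  classical
  have hmh : 0 < mh μ v := ht_mean_pos μ h
  filter_upwards [slln_height μ h, ae_good μ h, slln μ h (depF_level u) (xi_integrable μ h hc u),
    slln μ h (depF_FW u) (FW_integrable μ h hc u)] with X hH hg hS hW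
  simp_rw [← level_Tk hg] at hS
  rw [hu] at hS
  -- `W_k / k → 0`
  set w : ℕ → ℝ := fun k => BF v (FW u) ((theta v)^[k] X)
  set m := ∫ X, BF v (FW u) X ∂upM μ v
  have hw : Tendsto (fun k : ℕ => w k / k) atTop (𝓝 0) := by
    have h1 : Tendsto (fun k : ℕ => (∑ i ∈ range (k + 1), w i) / ((k + 1 : ℕ) : ℝ)) atTop (𝓝 m) :=
      (tendsto_add_atTop_iff_nat 1).2 hW
    have h2 : Tendsto (fun k : ℕ => (((k + 1 : ℕ) : ℝ)) / k) atTop (𝓝 1) := by
      have h3 : Tendsto (fun k : ℕ => 1 + 1 / (k : ℝ)) atTop (𝓝 (1 + 0)) :=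
        tendsto_const_nhds.add tendsto_one_div_atTop_nhds_zero_nat
      rw [add_zero] at h3
      refine h3.congr' ?_
      filter_upwards [eventually_ge_atTop 1] with k hk
      have : (k : ℝ) ≠ 0 := by positivity
      push_cast
      field_simp
    have h4 := (h1.mul h2).sub hW
    rw [mul_one, sub_self] at h4
    refine h4.congr' ?_
    filter_upwards [eventually_ge_atTop 1] with k hk
    have hk0 : (k : ℝ) ≠ 0 := by positivity
    have hk1 : ((k + 1 : ℕ) : ℝ) ≠ 0 := by positivity
    rw [Finset.sum_range_succ]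
    field_simp
    simp only [w]
    ring
  set ε : ℕ → ℝ := fun k => (|level u (X (Tk v k X))| + w k) / level v (X (Tk v k X))
  have hε : Tendsto ε atTop (𝓝 0) := by
    have h1 : Tendsto (fun k : ℕ => (|level u (X (Tk v k X)) / k| + w k / k) /
        (level v (X (Tk v k X)) / k)) atTop (𝓝 ((|0| + 0) / mh μ v)) :=
      (hS.abs.add hw).div hH hmh.ne'
    rw [abs_zero, add_zero, zero_div] at h1
    refine h1.congr' ?_
    filter_upwards [eventually_ge_atTop 1] with k hk
    have hk0 : (0 : ℝ) < k := by positivity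
    rw [abs_div, abs_of_pos hk0, ← add_div, div_div_div_cancel_right₀ hk0.ne']
  -- the index of the current block
  set κ : ℕ → ℕ := fun n => Nat.findGreatest (fun k => Tk v k X ≤ n) n
  have hκ1 : ∀ n, Tk v (κ n) X ≤ n := by
    intro n
    exact Nat.findGreatest_spec (P := fun k => Tk v k X ≤ n) (Nat.zero_le n) (by simp [Tk])
  have hκ2 : ∀ n, n < Tk v (κ n + 1) X := by
    intro n
    by_contra hcon
    have hle : Tk v (κ n + 1) X ≤ n := not_lt.1 hcon
    have : κ n + 1 ≤ κ n := Nat.le_findGreatest ((le_Tk hg _).trans hle) hle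
    omega
  have hκ3 : Tendsto κ atTop atTop := by
    rw [tendsto_atTop_atTop]
    intro K
    exact ⟨Tk v K X, fun n hn => Nat.le_findGreatest ((le_Tk hg K).trans hn) hn⟩
  have hpos : ∀ n, 1 ≤ n → 0 < level v (X n) := fun n hn => (hg 0).1.1.1 n hn
  have hlast := hε.comp hκ3
  refine squeeze_zero_norm' ?_ hlast
  filter_upwards [hκ3.eventually_ge_atTop 1] with n hn
  simp only [Function.comp]
  have hTpos : 1 ≤ Tk v (κ n) X := hn.trans (le_Tk hg _)
  have hn1 : 1 ≤ n := hTpos.trans (hκ1 n)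
  obtain ⟨i, hi⟩ := Nat.exists_eq_add_of_le (hκ1 n)
  have hiτ : i ≤ tau v ((theta v)^[κ n] X) := by
    have := hκ2 n
    rw [Tk_succ] at this
    omega
  have h1 : |level u (X n)| ≤ |level u (X (Tk v (κ n) X))| + w (κ n) := by
    have h2 := le_FW u hiτ ((theta v)^[κ n] X)
    rw [iter_eq hg] at h2
    simp only [fut, level_sub] at h2
    rw [← hi, ← iter_eq hg] at h2
    have h3 : |level u (X n)| ≤ |level u (X (Tk v (κ n) X))| +
        |level u (X n) - level u (X (Tk v (κ n) X))| := by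
      have := abs_add_le (level u (X (Tk v (κ n) X))) (level u (X n) - level u (X (Tk v (κ n) X)))
      simpa using this
    have h4 : w (κ n) = FW u (tau v ((theta v)^[κ n] X)) ((theta v)^[κ n] X) := rfl
    rw [h4]
    linarith
  have h5 : level v (X (Tk v (κ n) X)) ≤ level v (X n) := up_ge (Tk_up hg _) (hκ1 n)
  have h6 : 0 < level v (X (Tk v (κ n) X)) := hpos _ hTpos
  rw [Real.norm_eq_abs, abs_div, abs_of_pos (hpos n hn1)]
  exact div_le_div₀ (by have := FW_nonneg u (tau v ((theta v)^[κ n] X)) ((theta v)^[κ n] X)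
                        have h7 : 0 ≤ w (κ n) := this
                        positivity) h1 h6 h5

/-- The asymptotic slope in direction `u`. -/
lemma ratio_tendsto (h : annM μ 0 (escape v) ≠ 0) (hc : ConeHyp μ v) (u : Fin d → ℝ) :
    ∃ ρ : ℝ, ∀ᵐ X ∂upM μ v, Tendsto (fun n => level u (X n) / level v (X n)) atTop (𝓝 ρ) := by
  have hmh : 0 < mh μ v := ht_mean_pos μ h
  set ρ : ℝ := (∫ X, BF v (fun m Y => level u (Y m)) X ∂upM μ v) / mh μ v
  refine ⟨ρ, ?_⟩
  have h0 : ∫ X, BF v (fun m Y => level (u - ρ • v) (Y m)) X ∂upM μ v = 0 := by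
    have h1 : ∀ X : ℕ → Site d, BF v (fun m Y => level (u - ρ • v) (Y m)) X =
        BF v (fun m Y => level u (Y m)) X - ρ * ht v X := by
      intro X
      simp only [BF, ht, level_sub_smul]
    simp_rw [h1]
    rw [integral_sub (xi_integrable μ h hc u) ((ht_integrable μ h).const_mul ρ),
      integral_const_mul]
    have h2 : ∫ X, ht v X ∂upM μ v = mh μ v := rfl
    rw [h2]
    simp only [ρ]
    field_simp
    ring
  filter_upwards [ratio_zero μ h hc (u - ρ • v) h0, ae_good μ h] with X hX hg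
  have h3 := hX.add_const ρ
  rw [zero_add] at h3
  refine h3.congr' ?_
  filter_upwards [eventually_ge_atTop 1] with n hn
  have hpos : 0 < level v (X n) := (hg 0).1.1.1 n hn
  rw [level_sub_smul]
  field_simp
  ring

lemma ratio_shift {a b : ℕ → ℝ} {w : ℝ} (hb : Tendsto b atTop atTop)
    (hab : Tendsto (fun n => a n / b n) atTop (𝓝 w)) (a0 b0 : ℝ) :
    Tendsto (fun n => (a n - a0) / (b n - b0)) atTop (𝓝 w) := by
  have h1 : Tendsto (fun n => a0 / b n) atTop (𝓝 0) := hb.const_div_atTop a0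
  have h2 : Tendsto (fun n => b0 / b n) atTop (𝓝 0) := hb.const_div_atTop b0
  have h3 : Tendsto (fun n => (a n / b n - a0 / b n) / (1 - b0 / b n)) atTop
      (𝓝 ((w - 0) / (1 - 0))) := (hab.sub h1).div (tendsto_const_nhds.sub h2) (by norm_num)
  rw [sub_zero, sub_zero, div_one] at h3
  refine h3.congr' ?_
  filter_upwards [hb.eventually_gt_atTop 0, hb.eventually_gt_atTop b0] with n hn hn'
  have h4 : b n - b0 ≠ 0 := (sub_pos.2 hn').ne'
  have h5 : 1 - b0 / b n = (b n - b0) / b n := by field_simp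
  rw [h5, ← sub_div, div_div_div_cancel_right₀ hn.ne']

/-- The event that the walk escapes in direction `v` with asymptotic direction `w`. -/
def DirEv (v w : Fin d → ℝ) : Set (ℕ → Site d) :=
  escape v ∩ {X | ∀ j, Tendsto (fun n => (X n j : ℝ) / level v (X n)) atTop (𝓝 (w j))}

lemma measurableSet_DirEv (v w : Fin d → ℝ) : MeasurableSet (DirEv v w) := by
  refine (measurableSet_escape v).inter ?_
  have : {X : ℕ → Site d | ∀ j, Tendsto (fun n => (X n j : ℝ) / level v (X n)) atTop (𝓝 (w j))} =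
      ⋂ j, {X | Tendsto (fun n => (X n j : ℝ) / level v (X n)) atTop (𝓝 (w j))} := by
    ext X; simp
  rw [this]
  refine MeasurableSet.iInter fun j => measurableSet_tendsto _ fun n => ?_
  exact (measurable_of_countable (fun x : Site d => (x j : ℝ) / level v x)).comp
    (measurable_pi_apply n)

lemma fut_DirEv {v w : Fin d → ℝ} (n : ℕ) (X : ℕ → Site d) :
    fut n X ∈ DirEv v w ↔ X ∈ DirEv v w := by
  constructor
  · rintro ⟨h1, h2⟩
    refine ⟨fut_escape_iff.1 h1, fun j => ?_⟩
    have h1' : Tendsto (fun m => level v (fut n X m)) atTop atTop := h1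
    have h3 := ratio_shift h1' (h2 j) (-(X n j : ℝ)) (-(level v (X n)))
    rw [← tendsto_add_atTop_iff_nat n]
    refine h3.congr fun m => ?_
    simp only [fut, level_sub, Pi.sub_apply, Int.cast_sub]
    rw [add_comm n m]
    congr 1 <;> ring
  · rintro ⟨h1, h2⟩
    refine ⟨fut_escape_iff.2 h1, fun j => ?_⟩
    have h1' : Tendsto (fun m => level v (X m)) atTop atTop := h1
    have h3 := ratio_shift h1' (h2 j) (X n j : ℝ) (level v (X n))
    rw [← tendsto_add_atTop_iff_nat n] at h3
    refine h3.congr fun m => ?_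
    simp only [fut, level_sub, Pi.sub_apply, Int.cast_sub]
    rw [add_comm n m]

lemma level_single (j : Fin d) (x : Site d) : level (Pi.single j 1) x = x j := by
  unfold level
  rw [Finset.sum_eq_single j]
  · simp
  · intro k _ hk
    rw [Pi.single_eq_of_ne hk]; simp
  · intro h; exact absurd (Finset.mem_univ j) h

/-- **Asymptotic direction** on the event of escape in direction `v`. -/
theorem exists_dir (h : annM μ 0 (escape v) ≠ 0) (hc : ConeHyp μ v) :
    ∃ w : Fin d → ℝ, ∀ᵐ X ∂annM μ 0, X ∈ escape v → X ∈ DirEv v w := by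
  choose w hw using fun j : Fin d => ratio_tendsto μ h hc (Pi.single j 1)
  refine ⟨w, ?_⟩
  have h1 : ∀ᵐ X ∂upM μ v, X ∈ DirEv v w := by
    have h2 : ∀ᵐ X ∂upM μ v, ∀ j, Tendsto (fun n => level (Pi.single j 1) (X n) / level v (X n))
        atTop (𝓝 (w j)) := ae_all_iff.2 hw
    filter_upwards [h2, ae_good μ h] with X hX hg
    refine ⟨(hg 0).1.2, fun j => ?_⟩
    have := hX j
    simp_rw [level_single] at this
    exact this
  have := upM_prob μ h
  have h2 : annM μ 0 (escape v ∩ DirEv v w) ≠ 0 := by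
    intro h0
    have h3 : upM μ v (DirEv v w) = 0 := by
      rw [upM_apply]
      have : annM μ 0 (Up v ∩ DirEv v w) = 0 :=
        measure_mono_null (Set.inter_subset_inter_left _ fun X hX => hX.2) h0
      rw [this, mul_zero]
    have h4 : ∀ᵐ _X ∂upM μ v, False := by
      filter_upwards [h1, measure_eq_zero_iff_ae_notMem.1 h3] with X a b
      exact b a
    obtain ⟨_, hX⟩ := h4.exists
    exact hX
  filter_upwards [inv_of_pos μ (measurableSet_DirEv v w) fut_DirEv h2] with X hX hesc
  exact hX (escape_unb hesc)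

end Vale.P147
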