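import Vale.Agent.P147.Union

/-!
# Structure of the set of directions violating the zero-one law
-/

open MeasureTheory ProbabilityTheory Filter Finset
open scoped ENNReal Topology

namespace Vale.P147

variable {d : ℕ}

variable (μ : Measure (Row d)) [IsProbabilityMeasure μ]

/-- An invariant event which has positive probability together with `escape v` holds almost surely
on the trajectories unbounded in direction `v`. -/
lemma inv_of_pos {v : Fin d → ℝ} {I : Set (ℕ → Site d)} (hI : MeasurableSet I)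
    (hinv : ∀ n X, fut n X ∈ I ↔ X ∈ I) (h : annM μ 0 (escape v ∩ I) ≠ 0) :
    ∀ᵐ X ∂annM μ 0, Unb v X → X ∈ I := by
  have hB : MeasurableSet (Up v ∩ I) := (measurableSet_Up v).inter hI
  have hpos : annM μ 0 (Up v ∩ I) ≠ 0 := by
    intro h0
    refine h (measure_mono_null (t := ⋃ n, fut n ⁻¹' (Up v ∩ I)) ?_ ?_)
    · rintro X ⟨hX, hXI⟩
      obtain ⟨n, hn⟩ := Set.mem_iUnion.1 (escape_subset v hX)
      exact Set.mem_iUnion.2 ⟨n, hn, (hinv n X).2 hXI⟩
    · rw [measure_iUnion_null_iff]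
      exact fun n => annM_fut_null μ n hB h0
  filter_upwards [trial μ hB (fun X hX => up_level_nonneg X hX.1) hpos] with X hX hU
  obtain ⟨n, _, hn⟩ := hX (frequently_rec hU)
  exact (hinv n X).1 hn.2

lemma escape_unb {v : Fin d → ℝ} {X : ℕ → Site d} (h : X ∈ escape v) : Unb v X := by
  intro K
  have h' : Tendsto (fun n => level v (X n)) atTop atTop := h
  exact (h'.eventually_gt_atTop K).exists

lemma escape_zero : (escape (0 : Fin d → ℝ) : Set (ℕ → Site d)) = ∅ := by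
  ext X
  simp only [Set.mem_empty_iff_false, iff_false]
  intro h
  obtain ⟨n, hn⟩ := escape_unb h 0
  simp [level] at hn

lemma escape_disjoint (ℓ : Fin d → ℝ) :
    Disjoint (escape ℓ : Set (ℕ → Site d)) (escape (-ℓ)) := by
  rw [Set.disjoint_left]
  intro X h1 h2
  have h1' : Tendsto (fun n => level ℓ (X n)) atTop atTop := h1
  have h2' : Tendsto (fun n => level (-ℓ) (X n)) atTop atTop := h2
  obtain ⟨n, h3, h4⟩ := ((h1'.eventually_gt_atTop 0).and (h2'.eventually_gt_atTop 0)).exists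
  rw [level_neg] at h4
  linarith

/-- The zero-one law is violated in direction `ℓ` iff both `A_ℓ` and `A_{-ℓ}` have positive
probability. -/
lemma viol_iff (hμ : Elliptic μ) (ℓ : Fin d → ℝ) :
    (annM μ 0 (escape ℓ) ≠ 0 ∧ annM μ 0 (escape ℓ) ≠ 1) ↔
      (annM μ 0 (escape ℓ) ≠ 0 ∧ annM μ 0 (escape (-ℓ)) ≠ 0) := by
  constructor
  · rintro ⟨h1, h2⟩
    refine ⟨h1, fun h3 => h2 ?_⟩
    have hℓ : ℓ ≠ 0 := by
      rintro rfl
      rw [escape_zero] at h1
      exact h1 measure_empty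
    have h4 := sign_union μ hμ hℓ h1
    have h5 : ∀ᵐ X ∂annM μ 0, X ∉ escape (-ℓ) := measure_eq_zero_iff_ae_notMem.1 h3
    have h6 : ∀ᵐ X ∂annM μ 0, X ∈ escape ℓ := by
      filter_upwards [h4, h5] with X h h'
      exact h.resolve_right h'
    exact (prob_compl_eq_zero_iff (measurableSet_escape ℓ)).1 h6
  · rintro ⟨h1, h2⟩
    refine ⟨h1, fun h3 => h2 ?_⟩
    refine measure_mono_null (t := (escape ℓ)ᶜ) (fun X hX hX' => ?_)
      ((prob_compl_eq_zero_iff (measurableSet_escape ℓ)).2 h3)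
    exact Set.disjoint_left.1 (escape_disjoint ℓ) hX' hX

/-- If `A_ℓ` has positive probability and `u` is any direction in which escape has probability
one, then `A_ℓ` has probability one. -/
lemma escape_one_of {ℓ u : Fin d → ℝ} (h1 : annM μ 0 (escape ℓ) ≠ 0)
    (h2 : ∀ᵐ X ∂annM μ 0, X ∈ escape u) : ∀ᵐ X ∂annM μ 0, X ∈ escape ℓ := by
  have h3 : annM μ 0 (escape u ∩ escape ℓ) ≠ 0 := by
    intro h0
    refine h1 (measure_mono_null (t := (escape u ∩ escape ℓ) ∪ (escape u)ᶜ) ?_ ?_)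
    · intro X hX
      by_cases h : X ∈ escape u
      · exact Or.inl ⟨h, hX⟩
      · exact Or.inr h
    · exact measure_union_null h0 h2
  filter_upwards [inv_of_pos μ (measurableSet_escape ℓ) (fun n X => fut_escape_iff) h3, h2]
    with X hX hXu
  exact hX (escape_unb hXu)

lemma level_add_left (ℓ ℓ' : Fin d → ℝ) (x : Site d) :
    level (ℓ + ℓ') x = level ℓ x + level ℓ' x := by
  simp [level, mul_add, Finset.sum_add_distrib]

lemma level_smul_left (a : ℝ) (ℓ : Fin d → ℝ) (x : Site d) :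
    level (a • ℓ) x = a * level ℓ x := by
  simp only [level, Pi.smul_apply, smul_eq_mul, Finset.mul_sum]
  exact Finset.sum_congr rfl fun i _ => by ring

/-- If the transversal coordinates are controlled by the level, then escape in direction `ℓ` gives
escape in all nearby directions. -/
lemma escape_near {ℓ ℓ' : Fin d → ℝ} {c δ : ℝ} (hc : 0 < c) (hδ : d * δ ≤ c / 2)
    (_hδ0 : 0 ≤ δ) (hnear : ∀ j, |ℓ' j - ℓ j| ≤ δ) {X : ℕ → Site d} (hX : X ∈ escape ℓ)
    (hcone : ∀ᶠ n in atTop, ∀ j, c * |(X n j : ℝ)| ≤ level ℓ (X n)) : X ∈ escape ℓ' := by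
  have hX' : Tendsto (fun n => level ℓ (X n)) atTop atTop := hX
  have h1 : Tendsto (fun n => level ℓ (X n) / 2) atTop atTop := hX'.atTop_div_const two_pos
  refine tendsto_atTop_mono' _ ?_ h1
  filter_upwards [hcone, hX'.eventually_ge_atTop 0] with n hn hn0
  have h2 : level ℓ' (X n) - level ℓ (X n) = ∑ j, (X n j : ℝ) * (ℓ' j - ℓ j) := by
    simp only [level, mul_sub, Finset.sum_sub_distrib]
  have h3 : |∑ j, (X n j : ℝ) * (ℓ' j - ℓ j)| ≤ level ℓ (X n) / 2 := by
    calc |∑ j, (X n j : ℝ) * (ℓ' j - ℓ j)| ≤ ∑ j, |(X n j : ℝ) * (ℓ' j - ℓ j)| :=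
          Finset.abs_sum_le_sum_abs _ _
      _ ≤ ∑ _j : Fin d, (level ℓ (X n) / c) * δ := by
          refine Finset.sum_le_sum fun j _ => ?_
          rw [abs_mul]
          refine mul_le_mul ?_ (hnear j) (abs_nonneg _) (by positivity)
          rw [le_div_iff₀ hc, mul_comm]
          exact hn j
      _ = (d * δ) * (level ℓ (X n) / c) := by
          rw [Finset.sum_const, Finset.card_univ, Fintype.card_fin, nsmul_eq_mul]; ring
      _ ≤ (c / 2) * (level ℓ (X n) / c) := by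
          refine mul_le_mul_of_nonneg_right hδ (by positivity)
      _ = level ℓ (X n) / 2 := by field_simp
  have h4 := (abs_le.1 h3).1
  linarith

/-- Both cone properties at once, with a common constant. -/
lemma cone_both {ℓ : Fin d → ℝ} (h1 : annM μ 0 (escape ℓ) ≠ 0)
    (h2 : annM μ 0 (escape (-ℓ)) ≠ 0) : ∃ c : ℝ, 0 < c ∧
      (∀ᵐ X ∂annM μ 0, X ∈ escape ℓ → ∀ᶠ n in atTop, ∀ j, c * |(X n j : ℝ)| ≤ level ℓ (X n)) ∧
      (∀ᵐ X ∂annM μ 0, X ∈ escape (-ℓ) →
        ∀ᶠ n in atTop, ∀ j, c * |(X n j : ℝ)| ≤ level (-ℓ) (X n)) := by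
  obtain ⟨c1, hc1, H1⟩ := cone_ae μ h1 h2
  obtain ⟨c2, hc2, H2⟩ := cone_ae μ h2 (by rwa [neg_neg])
  refine ⟨min c1 c2, lt_min hc1 hc2, ?_, ?_⟩
  · filter_upwards [H1] with X hX hesc
    filter_upwards [hX hesc] with n hn j
    exact (mul_le_mul_of_nonneg_right (min_le_left _ _) (abs_nonneg _)).trans (hn j)
  · filter_upwards [H2] with X hX hesc
    filter_upwards [hX hesc] with n hn j
    exact (mul_le_mul_of_nonneg_right (min_le_right _ _) (abs_nonneg _)).trans (hn j)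

/-- Around a violating direction there is a ball of directions with the same escape events. -/
lemma exists_ball {ℓ : Fin d → ℝ} (h1 : annM μ 0 (escape ℓ) ≠ 0)
    (h2 : annM μ 0 (escape (-ℓ)) ≠ 0) : ∃ δ : ℝ, 0 < δ ∧ ∀ ℓ' : Fin d → ℝ,
      (∀ j, |ℓ' j - ℓ j| ≤ δ) →
        (∀ᵐ X ∂annM μ 0, X ∈ escape ℓ → X ∈ escape ℓ') ∧
        (∀ᵐ X ∂annM μ 0, X ∈ escape (-ℓ) → X ∈ escape (-ℓ')) := by
  obtain ⟨c, hc, H1, H2⟩ := cone_both μ h1 h2
  refine ⟨c / (2 * (d + 1)), by positivity, fun ℓ' hnear => ?_⟩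
  have hδ : d * (c / (2 * ((d : ℝ) + 1))) ≤ c / 2 := by
    rw [mul_div_assoc', div_le_div_iff₀ (by positivity) two_pos]
    nlinarith
  have hδ0 : 0 ≤ c / (2 * ((d : ℝ) + 1)) := by positivity
  refine ⟨?_, ?_⟩
  · filter_upwards [H1] with X hX hesc
    exact escape_near hc hδ hδ0 hnear hesc (hX hesc)
  · filter_upwards [H2] with X hX hesc
    refine escape_near hc hδ hδ0 (fun j => ?_) hesc (hX hesc)
    have := hnear j
    simp only [Pi.neg_apply]
    rw [← abs_neg]
    convert this using 2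
    ring

/-- Openness of the set of violating directions. -/
lemma viol_near {ℓ : Fin d → ℝ} (h1 : annM μ 0 (escape ℓ) ≠ 0)
    (h2 : annM μ 0 (escape (-ℓ)) ≠ 0) : ∃ δ : ℝ, 0 < δ ∧ ∀ ℓ' : Fin d → ℝ,
      (∀ j, |ℓ' j - ℓ j| ≤ δ) →
        annM μ 0 (escape ℓ') ≠ 0 ∧ annM μ 0 (escape (-ℓ')) ≠ 0 := by
  obtain ⟨δ, hδ, H⟩ := exists_ball μ h1 h2
  refine ⟨δ, hδ, fun ℓ' hnear => ?_⟩
  obtain ⟨H1, H2⟩ := H ℓ' hnear
  refine ⟨fun h0 => h1 ?_, fun h0 => h2 ?_⟩
  · exact le_antisymm ((measure_mono_ae H1).trans h0.le) zero_le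
  · exact le_antisymm ((measure_mono_ae H2).trans h0.le) zero_le

end Vale.P147
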