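import Vale.Agent.P147.Regen3
import Vale.Agent.P147.Main1
import Vale.Agent.P147.Defs2

/-!
# Two-ray dichotomy
-/

open MeasureTheory ProbabilityTheory Filter Finset
open scoped ENNReal Topology

namespace Vale.P147

variable {d : ℕ}

lemma level_add_smul_single (v : Fin d → ℝ) (s a : ℝ) (j : Fin d) (x : Site d) :
    level (s • Pi.single j 1 + a • v) x = s * x j + a * level v x := by
  rw [level_add_left, level_smul_left, level_smul_left, level_single]

/-- Along a trajectory with asymptotic slopes `w`, the slope of `level u` is `∑ w_j u_j`. -/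
lemma slope_tendsto {v w u : Fin d → ℝ} {X : ℕ → Site d}
    (h : ∀ j, Tendsto (fun n => (X n j : ℝ) / level v (X n)) atTop (𝓝 (w j))) :
    Tendsto (fun n => level u (X n) / level v (X n)) atTop (𝓝 (∑ j, w j * u j)) := by
  have h1 : Tendsto (fun n => ∑ j, (X n j : ℝ) / level v (X n) * u j) atTop
      (𝓝 (∑ j, w j * u j)) := tendsto_finsetSum _ fun j _ => (h j).mul_const _
  refine h1.congr fun n => ?_
  have h2 : level u (X n) = ∑ j, (X n j : ℝ) * u j := rfl
  rw [h2, Finset.sum_div]
  exact Finset.sum_congr rfl fun j _ => by ring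

lemma escape_of_slope {a b : ℕ → ℝ} {c : ℝ} (hc : 0 < c) (hb : Tendsto b atTop atTop)
    (h : Tendsto (fun n => a n / b n) atTop (𝓝 c)) : Tendsto a atTop atTop := by
  have h1 := h.pos_mul_atTop hc hb
  refine h1.congr' ?_
  filter_upwards [hb.eventually_gt_atTop 0] with n hn
  rw [div_mul_cancel₀ _ hn.ne']

variable (μ : Measure (Row d)) [IsProbabilityMeasure μ]

/-- On escape in direction `v` or `-v`, the slopes with respect to `v` converge to the same
deterministic vector `w`. -/
lemma exists_slopes (hμ : Elliptic μ) {v : Fin d → ℝ} (h1 : annM μ 0 (escape v) ≠ 0)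
    (h2 : annM μ 0 (escape (-v)) ≠ 0) :
    ∃ w : Fin d → ℝ, (∑ j, w j * v j = 1) ∧
      ∀ᵐ X ∂annM μ 0, (X ∈ escape v ∨ X ∈ escape (-v)) ∧
        ∀ j, Tendsto (fun n => (X n j : ℝ) / level v (X n)) atTop (𝓝 (w j)) := by
  obtain ⟨w1, hw1⟩ := exists_dir μ h1 (cone_ae μ h1 h2)
  obtain ⟨w2', hw2'⟩ := exists_dir μ h2 (cone_ae μ h2 (by rwa [neg_neg]))
  set w2 : Fin d → ℝ := fun j => -w2' j
  have hw2 : ∀ᵐ X ∂annM μ 0, X ∈ escape (-v) →
      ∀ j, Tendsto (fun n => (X n j : ℝ) / level v (X n)) atTop (𝓝 (w2 j)) := by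
    filter_upwards [hw2'] with X hX hesc j
    have := ((hX hesc).2 j).neg
    refine this.congr fun n => ?_
    rw [level_neg, div_neg, neg_neg]
  have hv0 : v ≠ 0 := by
    rintro rfl
    rw [escape_zero] at h1
    exact h1 measure_empty
  have hsu := sign_union μ hμ hv0 h1
  -- normalisations
  have hn1 : ∑ j, w1 j * v j = 1 := by
    obtain ⟨X, hX, hXe⟩ : ∃ X, (X ∈ escape v → X ∈ DirEv v w1) ∧ X ∈ escape v := by
      by_contra hcon
      push Not at hcon
      refine h1 (measure_eq_zero_iff_ae_notMem.2 ?_)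
      filter_upwards [hw1] with X hX
      exact hcon X hX
    have h3 := slope_tendsto (u := v) (hX hXe).2
    have hXe' : Tendsto (fun n => level v (X n)) atTop atTop := hXe
    have h4 : Tendsto (fun n => level v (X n) / level v (X n)) atTop (𝓝 1) := by
      refine tendsto_const_nhds.congr' ?_
      filter_upwards [hXe'.eventually_gt_atTop 0] with n hn
      rw [div_self hn.ne']
    exact tendsto_nhds_unique h3 h4
  have hn2 : ∑ j, w2 j * v j = 1 := by
    obtain ⟨X, hX, hXe⟩ : ∃ X, (X ∈ escape (-v) →
        ∀ j, Tendsto (fun n => (X n j : ℝ) / level v (X n)) atTop (𝓝 (w2 j))) ∧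
          X ∈ escape (-v) := by
      by_contra hcon
      push Not at hcon
      refine h2 (measure_eq_zero_iff_ae_notMem.2 ?_)
      filter_upwards [hw2] with X hX
      exact hcon X hX
    have h3 := slope_tendsto (u := v) (hX hXe)
    have hXe' : Tendsto (fun n => level (-v) (X n)) atTop atTop := hXe
    have h4 : Tendsto (fun n => level v (X n) / level v (X n)) atTop (𝓝 1) := by
      refine tendsto_const_nhds.congr' ?_
      filter_upwards [hXe'.eventually_gt_atTop 0] with n hn
      rw [level_neg] at hn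
      rw [div_self (neg_pos.1 hn).ne]
    exact tendsto_nhds_unique h3 h4
  -- the two vectors agree
  have hww : w1 = w2 := by
    by_contra hne
    obtain ⟨j, hj⟩ := Function.ne_iff.1 hne
    -- choose the sign
    obtain ⟨s, hs⟩ : ∃ s : ℝ, s * (w2 j - w1 j) < 0 := by
      rcases lt_or_gt_of_ne hj with h | h
      · exact ⟨-1, by linarith⟩
      · exact ⟨1, by linarith⟩
    set ε : ℝ := -(s * (w2 j - w1 j)) / 2
    have hε : 0 < ε := by simp only [ε]; linarith
    set u : Fin d → ℝ := s • Pi.single j 1 + (ε - s * w1 j) • v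
    have hu : ∀ w : Fin d → ℝ, ∑ i, w i * v i = 1 → ∑ i, w i * u i = s * w j + (ε - s * w1 j) := by
      intro w hw
      have h3 : ∀ i, w i * u i = s * (w i * (Pi.single j 1 : Fin d → ℝ) i) +
          (ε - s * w1 j) * (w i * v i) := by
        intro i
        simp only [u, Pi.add_apply, Pi.smul_apply, smul_eq_mul]
        ring
      simp_rw [h3]
      rw [Finset.sum_add_distrib, ← Finset.mul_sum, ← Finset.mul_sum, hw, mul_one,
        Finset.sum_eq_single j]
      · simp
      · intro k _ hk
        rw [Pi.single_eq_of_ne hk]; simp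
      · intro h; exact absurd (Finset.mem_univ j) h
    have hall : ∀ᵐ X ∂annM μ 0, X ∈ escape u := by
      filter_upwards [hsu, hw1, hw2] with X hX hX1 hX2
      rcases hX with h | h
      · have h3 := slope_tendsto (u := u) (hX1 h).2
        rw [hu w1 hn1] at h3
        have h' : Tendsto (fun n => level v (X n)) atTop atTop := h
        exact escape_of_slope (c := s * w1 j + (ε - s * w1 j)) (by linarith) h' h3
      · have h3 := slope_tendsto (u := u) (hX2 h)
        rw [hu w2 hn2] at h3
        have h' : Tendsto (fun n => level (-v) (X n)) atTop atTop := h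
        have h4 := h3.neg
        refine escape_of_slope (c := -(s * w2 j + (ε - s * w1 j)))
          (by simp only [ε]; nlinarith) h' (h4.congr fun n => ?_)
        rw [level_neg, div_neg]
    have h3 := escape_one_of μ h1 hall
    refine h2 (measure_eq_zero_iff_ae_notMem.2 ?_)
    filter_upwards [h3] with X hX hX'
    exact Set.disjoint_left.1 (escape_disjoint v) hX hX'
  refine ⟨w1, hn1, ?_⟩
  filter_upwards [hsu, hw1, hw2] with X hX hX1 hX2
  refine ⟨hX, fun j => ?_⟩
  rcases hX with h | h
  · exact (hX1 h).2 j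
  · rw [hww]; exact hX2 h j

lemma enorm2_div (x : Site d) {b : ℝ} (hb : 0 < b) :
    enorm2 x / b = Real.sqrt (∑ i, ((x i : ℝ) / b) ^ 2) := by
  have h : ∑ i, ((x i : ℝ) / b) ^ 2 = (∑ i, (x i : ℝ) ^ 2) / b ^ 2 := by
    rw [Finset.sum_div]
    exact Finset.sum_congr rfl fun i _ => by ring
  rw [h, Real.sqrt_div (Finset.sum_nonneg fun i _ => sq_nonneg _), Real.sqrt_sq hb.le]
  rfl

lemma dir_tendsto {w : Fin d → ℝ} (hw : w ≠ 0) {b : ℕ → ℝ} {X : ℕ → Site d}
    (hb : Tendsto b atTop atTop) (h : ∀ j, Tendsto (fun n => (X n j : ℝ) / b n) atTop (𝓝 (w j)))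
    (j : Fin d) : Tendsto (fun n => (X n j : ℝ) / enorm2 (X n)) atTop
      (𝓝 (w j / Real.sqrt (∑ i, w i ^ 2))) := by
  have hpos : 0 < Real.sqrt (∑ i, w i ^ 2) := by
    rw [Real.sqrt_pos]
    obtain ⟨i, hi⟩ := Function.ne_iff.1 hw
    refine lt_of_lt_of_le (pow_pos (abs_pos.2 hi) 2) ?_
    rw [sq_abs]
    exact Finset.single_le_sum (f := fun i => w i ^ 2) (fun _ _ => sq_nonneg _)
      (Finset.mem_univ i)
  have h1 : Tendsto (fun n => Real.sqrt (∑ i, ((X n i : ℝ) / b n) ^ 2)) atTop
      (𝓝 (Real.sqrt (∑ i, w i ^ 2))) :=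
    (Real.continuous_sqrt.tendsto _).comp (tendsto_finsetSum _ fun i _ => (h i).pow 2)
  have h2 := (h j).div h1 hpos.ne'
  refine h2.congr' ?_
  filter_upwards [hb.eventually_gt_atTop 0] with n hn
  simp only [Pi.div_apply]
  rw [← enorm2_div _ hn, div_div_div_cancel_right₀ hn.ne']

/-- **Two-ray dichotomy.** If the zero-one law fails in some direction `v`, there is a
deterministic unit vector `ν` such that almost surely the walk escapes with asymptotic direction
`ν` or `-ν`, both with positive probability, and the law of the escape events is governed by the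
inner product with `ν`. -/
theorem two_ray (hμ : Elliptic μ) {v : Fin d → ℝ} (h1 : annM μ 0 (escape v) ≠ 0)
    (h2 : annM μ 0 (escape (-v)) ≠ 0) :
    ∃ ν : Fin d → ℝ, ∑ j, ν j ^ 2 = 1 ∧
      (∀ᵐ X ∂annM μ 0,
        (X ∈ escape ν ∧ ∀ j, Tendsto (fun n => (X n j : ℝ) / enorm2 (X n)) atTop (𝓝 (ν j))) ∨
        (X ∈ escape (-ν) ∧
          ∀ j, Tendsto (fun n => (X n j : ℝ) / enorm2 (X n)) atTop (𝓝 (-ν j)))) ∧
      (∀ u : Fin d → ℝ, ∑ j, ν j * u j ≠ 0 →
        annM μ 0 (escape u) ≠ 0 ∧ annM μ 0 (escape (-u)) ≠ 0) ∧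
      (∀ u : Fin d → ℝ, ∑ j, ν j * u j = 0 → annM μ 0 (escape u) = 0) := by
  obtain ⟨w, hwv, hw⟩ := exists_slopes μ hμ h1 h2
  have hw0 : w ≠ 0 := by
    rintro rfl
    simp at hwv
  set N := Real.sqrt (∑ i, w i ^ 2)
  have hN : 0 < N := by
    rw [Real.sqrt_pos]
    obtain ⟨i, hi⟩ := Function.ne_iff.1 hw0
    refine lt_of_lt_of_le (pow_pos (abs_pos.2 hi) 2) ?_
    rw [sq_abs]
    exact Finset.single_le_sum (f := fun i => w i ^ 2) (fun _ _ => sq_nonneg _)
      (Finset.mem_univ i)
  have hNsq : N ^ 2 = ∑ i, w i ^ 2 := Real.sq_sqrt (Finset.sum_nonneg fun i _ => sq_nonneg _)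
  set ν : Fin d → ℝ := fun j => w j / N
  -- escape in direction `u` in terms of the slope
  have hpos : ∀ u : Fin d → ℝ, 0 < ∑ j, w j * u j → ∀ᵐ X ∂annM μ 0,
      (X ∈ escape v → X ∈ escape u) ∧ (X ∈ escape (-v) → X ∈ escape (-u)) := by
    intro u hu
    filter_upwards [hw] with X hX
    have h3 := slope_tendsto (u := u) hX.2
    refine ⟨fun h => ?_, fun h => ?_⟩
    · have h' : Tendsto (fun n => level v (X n)) atTop atTop := h
      exact escape_of_slope hu h' h3
    · have h' : Tendsto (fun n => level (-v) (X n)) atTop atTop := h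
      refine escape_of_slope hu h' (h3.congr fun n => ?_)
      rw [level_neg, level_neg, neg_div_neg_eq]
  have hscale : ∀ u : Fin d → ℝ, ∑ j, ν j * u j = (∑ j, w j * u j) / N := by
    intro u
    rw [Finset.sum_div]
    exact Finset.sum_congr rfl fun j _ => by simp only [ν]; ring
  have hboth : ∀ u : Fin d → ℝ, 0 < ∑ j, w j * u j →
      annM μ 0 (escape u) ≠ 0 ∧ annM μ 0 (escape (-u)) ≠ 0 := by
    intro u hu
    refine ⟨fun h0 => h1 ?_, fun h0 => h2 ?_⟩
    · refine le_antisymm ((measure_mono_ae ?_).trans h0.le) zero_le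
      exact (hpos u hu).mono fun X hX => hX.1
    · refine le_antisymm ((measure_mono_ae ?_).trans h0.le) zero_le
      exact (hpos u hu).mono fun X hX => hX.2
  refine ⟨ν, ?_, ?_, ?_, ?_⟩
  · simp only [ν, div_pow]
    rw [← Finset.sum_div, ← hNsq, div_self (by positivity)]
  · have hwν : 0 < ∑ j, w j * ν j := by
      have : ∑ j, w j * ν j = N := by
        simp only [ν]
        have h3 : ∀ j, w j * (w j / N) = w j ^ 2 / N := fun j => by ring
        simp_rw [h3]
        rw [← Finset.sum_div, ← hNsq]
        field_simp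
      rw [this]; exact hN
    filter_upwards [hw, hpos ν hwν] with X hX hXν
    rcases hX.1 with h | h
    · left
      have h' : Tendsto (fun n => level v (X n)) atTop atTop := h
      exact ⟨hXν.1 h, fun j => dir_tendsto hw0 h' hX.2 j⟩
    · right
      have h' : Tendsto (fun n => level (-v) (X n)) atTop atTop := h
      refine ⟨hXν.2 h, fun j => ?_⟩
      have hw' : (fun j => -w j) ≠ (0 : Fin d → ℝ) := by
        intro h0
        apply hw0
        funext i
        have := congrFun h0 i
        simpa using this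
      have h3 := dir_tendsto (w := fun j => -w j) hw' h' (fun j => by
        refine (hX.2 j).neg.congr fun n => ?_
        rw [level_neg, div_neg]) j
      simp only [neg_sq] at h3
      rw [neg_div] at h3
      exact h3
  · intro u hu
    rw [hscale] at hu
    have hu' : ∑ j, w j * u j ≠ 0 := fun h => hu (by rw [h, zero_div])
    rcases lt_or_gt_of_ne hu' with h | h
    · have h3 : 0 < ∑ j, w j * (-u) j := by
        simp only [Pi.neg_apply, mul_neg, Finset.sum_neg_distrib]
        linarith
      have h4 := hboth (-u) h3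
      rw [neg_neg] at h4
      exact h4.symm
    · exact hboth u h
  · intro u hu
    have hu' : ∑ j, w j * u j = 0 := by
      rw [hscale] at hu
      rcases div_eq_zero_iff.1 hu with h | h
      · exact h
      · exact absurd h hN.ne'
    by_contra hP
    have hu0 : u ≠ 0 := by
      rintro rfl
      rw [escape_zero] at hP
      exact hP measure_empty
    by_cases hP' : annM μ 0 (escape (-u)) = 0
    · -- then `escape u` has probability one
      have h3 : ∀ᵐ X ∂annM μ 0, X ∈ escape u := by
        filter_upwards [sign_union μ hμ hu0 hP, measure_eq_zero_iff_ae_notMem.1 hP'] with X a b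
        exact a.resolve_right b
      have h4 := escape_one_of μ h1 h3
      refine h2 (measure_eq_zero_iff_ae_notMem.2 ?_)
      filter_upwards [h4] with X hX hX'
      exact Set.disjoint_left.1 (escape_disjoint v) hX hX'
    · -- both signs: use the ball
      obtain ⟨δ, hδ, H⟩ := exists_ball μ hP hP'
      obtain ⟨η, hη, hηδ⟩ : ∃ η : ℝ, 0 < η ∧ ∀ j, |η * v j| ≤ δ := by
        refine ⟨δ / (stepBd v + 1), ?_, fun j => ?_⟩
        · have : 0 ≤ stepBd v := Finset.sum_nonneg fun i _ => abs_nonneg _
          positivity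
        · have h0 : 0 ≤ stepBd v := Finset.sum_nonneg fun i _ => abs_nonneg _
          have h3 : |v j| ≤ stepBd v :=
            Finset.single_le_sum (f := fun i => |v i|) (fun _ _ => abs_nonneg _)
              (Finset.mem_univ j)
          rw [abs_mul, abs_of_pos (by positivity), div_mul_eq_mul_div, div_le_iff₀ (by positivity)]
          nlinarith
      have Hm := (H (u - η • v) fun j => by
        simp only [Pi.sub_apply, Pi.smul_apply, smul_eq_mul, sub_sub_cancel_left, abs_neg]
        exact hηδ j).1
      have Hp := (H (u + η • v) fun j => by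
        simp only [Pi.add_apply, Pi.smul_apply, smul_eq_mul, add_sub_cancel_left]
        exact hηδ j).2
      have e1 : ∑ j, w j * (-(u - η • v)) j = η := by
        simp only [Pi.neg_apply, Pi.sub_apply, Pi.smul_apply, smul_eq_mul]
        have : ∀ j, w j * -(u j - η * v j) = η * (w j * v j) - w j * u j := fun j => by ring
        simp_rw [this]
        rw [Finset.sum_sub_distrib, ← Finset.mul_sum, hwv, hu']
        ring
      have e2 : ∑ j, w j * (u + η • v) j = η := by
        simp only [Pi.add_apply, Pi.smul_apply, smul_eq_mul]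
        have : ∀ j, w j * (u j + η * v j) = w j * u j + η * (w j * v j) := fun j => by ring
        simp_rw [this]
        rw [Finset.sum_add_distrib, ← Finset.mul_sum, hwv, hu']
        ring
      refine h1 (measure_eq_zero_iff_ae_notMem.2 ?_)
      filter_upwards [hpos (-(u - η • v)) (by rw [e1]; exact hη), hpos (u + η • v)
        (by rw [e2]; exact hη), Hm, Hp, sign_union μ hμ hu0 hP] with X a1 a2 a3 a4 a5 hXv
      rcases a5 with h | h
      · have h3 := a3 h
        have h4 := a1.1 hXv
        exact Set.disjoint_left.1 (escape_disjoint (u - η • v)) h3 h4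
      · have h3 := a4 h
        have h4 := a2.1 hXv
        exact Set.disjoint_left.1 (escape_disjoint (u + η • v)) h4 h3

end Vale.P147
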