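import Vale.Agent.P147.Cone2

/-!
# The sign-union law for elliptic environments
-/

open MeasureTheory ProbabilityTheory Filter Finset
open scoped ENNReal Topology

namespace Vale.P147

variable {d : ℕ}

/-- The path of one step `e`. -/
def oneStep (e : Dir d) : ℕ → Site d := fun i => if i = 0 then 0 else unit e

/-- At some time `n ≥ N` the walk is above level `lam` and makes the step `e`. -/
def StepEv (ℓ : Fin d → ℝ) (lam : ℝ) (e : Dir d) (N : ℕ) : Set (ℕ → Site d) :=
  ⋃ n ∈ Set.Ici N, {X | lam < level ℓ (X n)} ∩ fut n ⁻¹' (cyl 1 (oneStep e))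

lemma measurableSet_StepEv (ℓ : Fin d → ℝ) (lam : ℝ) (e : Dir d) (N : ℕ) :
    MeasurableSet (StepEv ℓ lam e N) := by
  refine MeasurableSet.biUnion (Set.to_countable _) fun n _ => ?_
  exact (measurableSet_lt measurable_const (measurable_level ℓ n)).inter
    (measurable_fut n (measurableSet_cyl _ _))

lemma dep_level (ℓ : Fin d → ℝ) (lam : ℝ) (n : ℕ) :
    Dep n {X : ℕ → Site d | lam < level ℓ (X n)} := by
  intro X Y h
  simp only [Set.mem_ofPred_eq, h n le_rfl]

/-- A quenched walk which visits `x` infinitely often makes the step `e` from there. -/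
lemma quenched_step (ω : Env d) (ℓ : Fin d → ℝ) (lam : ℝ) (e : Dir d) (N : ℕ) (x : Site d)
    (hx : lam < level ℓ x) (he : 0 < (ω x).1 e) :
    ∀ᵐ X ∂quenched ω 0, (∃ᶠ n in atTop, X n = x) → X ∈ StepEv ℓ lam e N := by
  have hp : rowProb (ω x) (unit e) ≠ 0 := by
    unfold rowProb
    intro h
    rw [Finset.sum_eq_zero_iff] at h
    have := h e (Finset.mem_univ e)
    simp only [if_true, mul_one, ENNReal.ofReal_eq_zero] at this
    linarith
  have key := levy' (quenched ω 0) (measurableSet_StepEv ℓ lam e N)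
    (E := fun n => {X | X n = x ∧ N ≤ n}) hp (by
      intro n γ hγ
      obtain ⟨h1, h2⟩ := hγ
      have h3 : quenched ω 0 (cyl n γ ∩ fut n ⁻¹' (cyl 1 (oneStep e))) =
          rowProb (ω x) (unit e) * quenched ω 0 (cyl n γ) := by
        rw [cyl_inter_fut_cyl (by simp [oneStep]), quenched_cyl_succ, glue_le le_rfl,
          glue_add (by simp [oneStep]), mul_comm, h1]
        congr 2
        · simp [oneStep]
        · exact cyl_congr fun i hi => glue_le hi
      rw [← h3]
      refine measure_mono ?_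
      rintro X ⟨hX1, hX2⟩
      refine ⟨hX1, Set.mem_biUnion (Set.mem_Ici.2 h2) ⟨?_, hX2⟩⟩
      simp only [Set.mem_ofPred_eq]
      rw [hX1 n le_rfl, h1]; exact hx)
  filter_upwards [key] with X hX hfreq
  exact hX (hfreq.and_eventually (eventually_ge_atTop N))

variable (μ : Measure (Row d)) [IsProbabilityMeasure μ]

lemma ae_elliptic (hμ : Elliptic μ) : ∀ᵐ ω ∂envLaw μ, ∀ x : Site d, ∀ e, 0 < (ω x).1 e := by
  rw [ae_all_iff]
  intro x
  have h := measurePreserving_eval_infinitePi (fun _ : Site d => μ) x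
  exact h.quasiMeasurePreserving.ae hμ

/-- From the quenched law to the annealed law. -/
lemma annM_ae_of_quenched {p : (ℕ → Site d) → Prop} (hp : MeasurableSet {X | p X})
    (h : ∀ᵐ ω ∂envLaw μ, ∀ᵐ X ∂quenched ω 0, p X) : ∀ᵐ X ∂annM μ 0, p X := by
  have h1 : annM μ 0 {X | p X}ᶜ = 0 := by
    rw [annM_apply μ 0 hp.compl]
    have h2 : ∀ᵐ ω ∂envLaw μ, quenched ω 0 {X | p X}ᶜ = 0 := h
    rw [lintegral_congr_ae h2]
    simp
  exact h1

omit [IsProbabilityMeasure μ] in
/-- From the annealed law to the quenched law. -/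
lemma quenched_ae_of_annM {p : (ℕ → Site d) → Prop} (hp : MeasurableSet {X | p X})
    (h : ∀ᵐ X ∂annM μ 0, p X) : ∀ᵐ ω ∂envLaw μ, ∀ᵐ X ∂quenched ω 0, p X := by
  have h1 : annM μ 0 {X | p X}ᶜ = 0 := h
  rw [annM_apply μ 0 hp.compl, lintegral_eq_zero_iff] at h1
  · exact h1
  · exact (Measure.measurable_coe hp.compl).comp (measurable_quenched 0)

lemma measurableSet_freq (x : Site d) : MeasurableSet {X : ℕ → Site d | ∃ᶠ n in atTop, X n = x} := by
  have : {X : ℕ → Site d | ∃ᶠ n in atTop, X n = x} =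
      ⋂ N : ℕ, ⋃ n ∈ Set.Ici N, {X : ℕ → Site d | X n = x} := by
    ext X
    simp only [Set.mem_ofPred_eq, Set.mem_iInter, Set.mem_iUnion, Set.mem_Ici, exists_prop]
    exact Filter.frequently_atTop
  rw [this]
  refine MeasurableSet.iInter fun N => MeasurableSet.biUnion (Set.to_countable _) fun n _ => ?_
  exact measurableSet_eq_fun (measurable_pi_apply n) measurable_const

lemma annM_step_old (hμ : Elliptic μ) (ℓ : Fin d → ℝ) (lam : ℝ) (e : Dir d) (N : ℕ) :
    ∀ᵐ X ∂annM μ 0, ∀ x, lam < level ℓ x → (∃ᶠ n in atTop, X n = x) → X ∈ StepEv ℓ lam e N := by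
  rw [ae_all_iff]
  intro x
  by_cases hx : lam < level ℓ x
  · simp only [hx, true_imp_iff]
    refine annM_ae_of_quenched μ ?_ ?_
    · have : {X : ℕ → Site d | (∃ᶠ n in atTop, X n = x) → X ∈ StepEv ℓ lam e N} =
          {X : ℕ → Site d | ∃ᶠ n in atTop, X n = x}ᶜ ∪ StepEv ℓ lam e N := by
        ext X
        simp only [Set.mem_ofPred_eq, Set.mem_union, Set.mem_compl_iff]
        exact imp_iff_not_or
      rw [this]
      exact (measurableSet_freq x).compl.union (measurableSet_StepEv _ _ _ _)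
    · filter_upwards [ae_elliptic μ hμ] with ω hω
      exact quenched_step ω ℓ lam e N x hx (hω x e)
  · filter_upwards with X h; exact absurd h hx

lemma annM_oneStep_pos (hμ : Elliptic μ) (e : Dir d) : annM μ 0 (cyl 1 (oneStep e)) ≠ 0 := by
  rw [annM_apply μ 0 (measurableSet_cyl _ _)]
  intro h
  rw [lintegral_eq_zero_iff (measurable_quenched_cyl 0 1 _)] at h
  obtain ⟨ω, h1, h2⟩ := (h.and (ae_elliptic μ hμ)).exists
  simp only [Pi.zero_apply] at h1
  rw [quenched_cyl_succ, quenched_cyl_zero] at h1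
  simp only [oneStep, if_true, one_mul, one_ne_zero, if_false, Nat.zero_add, sub_zero] at h1
  unfold rowProb at h1
  rw [Finset.sum_eq_zero_iff] at h1
  have := h1 e (Finset.mem_univ e)
  simp only [if_true, mul_one, ENNReal.ofReal_eq_zero] at this
  linarith [h2 0 e]

/-- New sites above level `lam` visited infinitely often give a step `e`. -/
lemma annM_step_new (hμ : Elliptic μ) (ℓ : Fin d → ℝ) (lam : ℝ) (e : Dir d) (N : ℕ) :
    ∀ᵐ X ∂annM μ 0, (∃ᶠ n in atTop, lam < level ℓ (X n) ∧ ∀ i < n, X i ≠ X n) →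
      X ∈ StepEv ℓ lam e N := by
  have key := levy' (annM μ 0) (measurableSet_StepEv ℓ lam e N)
    (E := fun n => {X | (lam < level ℓ (X n) ∧ ∀ i < n, X i ≠ X n) ∧ N ≤ n})
    (annM_oneStep_pos μ hμ e) (by
      rintro n γ ⟨⟨h1, h2⟩, h3⟩
      have h4 := fresh_cyl μ (n := n) (γ := γ) (R := {0}) (M := 1) (δ := oneStep e)
        (fun i hi h => h2 i hi (sub_eq_zero.1 h)) (fun j hj => by
          obtain rfl : j = 0 := by omega
          simp [oneStep])
      rw [mul_comm, ← h4]
      refine measure_mono ?_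
      rintro X ⟨hX1, hX2⟩
      refine ⟨hX1, Set.mem_biUnion (Set.mem_Ici.2 h3) ⟨?_, hX2⟩⟩
      simp only [Set.mem_ofPred_eq]
      rw [hX1 n le_rfl]; exact h1)
  filter_upwards [key] with X hX hfreq
  exact hX (hfreq.and_eventually (eventually_ge_atTop N))

/-- Deterministic: if `{lam < level}` is visited infinitely often then either infinitely many new
sites are visited there, or one site is visited infinitely often. -/
lemma new_or_old {ℓ : Fin d → ℝ} {lam : ℝ} {X : ℕ → Site d}
    (h : ∃ᶠ n in atTop, lam < level ℓ (X n)) :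
    (∃ᶠ n in atTop, lam < level ℓ (X n) ∧ ∀ i < n, X i ≠ X n) ∨
      ∃ x, lam < level ℓ x ∧ ∃ᶠ n in atTop, X n = x := by
  classical
  by_contra hcon
  rw [not_or] at hcon
  obtain ⟨h1, h2⟩ := hcon
  rw [Filter.not_frequently] at h1
  obtain ⟨M, hM⟩ := h1.exists_forall_of_atTop
  -- every visit above `lam` is at a site visited before time `M`
  have hold : ∀ n, lam < level ℓ (X n) → ∃ i < M, X i = X n := by
    intro n hn
    have hex : ∃ i, X i = X n := ⟨n, rfl⟩
    refine ⟨Nat.find hex, ?_, Nat.find_spec hex⟩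
    by_contra hge
    have := hM (Nat.find hex) (not_lt.1 hge)
    refine this ⟨by rw [Nat.find_spec hex]; exact hn, fun i hi heq => ?_⟩
    exact Nat.find_min hex hi (heq.trans (Nat.find_spec hex))
  have hev : ∀ᶠ n in atTop, ∀ i ∈ range M, lam < level ℓ (X i) → X n ≠ X i := by
    rw [Filter.eventually_all_finset]
    intro i _
    by_cases hi : lam < level ℓ (X i)
    · have : ¬ ∃ᶠ n in atTop, X n = X i := fun hf => h2 ⟨X i, hi, hf⟩
      rw [Filter.not_frequently] at this
      filter_upwards [this] with n hn _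
      exact hn
    · filter_upwards with n h; exact absurd h hi
  obtain ⟨n, hn1, hn2⟩ := (h.and_eventually hev).exists
  obtain ⟨i, hi, hX⟩ := hold n hn1
  exact hn2 i (Finset.mem_range.2 hi) (by rw [hX]; exact hn1) hX.symm

lemma exists_dir_pos {ℓ : Fin d → ℝ} (hℓ : ℓ ≠ 0) : ∃ e : Dir d, 0 < level ℓ (unit e) := by
  obtain ⟨i, hi⟩ := Function.ne_iff.1 hℓ
  have hlev : ∀ b : Bool, level ℓ (unit (i, b)) = (if b then 1 else -1) * ℓ i := by
    intro b
    unfold level unit
    rw [Finset.sum_eq_single i]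
    · simp only [Pi.single_eq_same]
      split_ifs <;> simp
    · intro k _ hk
      rw [Pi.single_eq_of_ne hk]; simp
    · intro h; exact absurd (Finset.mem_univ i) h
  simp only [Pi.zero_apply] at hi
  rcases lt_or_gt_of_ne hi with h | h
  · exact ⟨(i, false), by rw [hlev]; simpa using h⟩
  · exact ⟨(i, true), by rw [hlev]; simpa using h⟩

/-- A trajectory which is bounded above in direction `ℓ` escapes in direction `-ℓ`. -/
lemma bounded_escape (hμ : Elliptic μ) {ℓ : Fin d → ℝ} (hℓ : ℓ ≠ 0) :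
    ∀ᵐ X ∂annM μ 0, ¬ Unb ℓ X → X ∈ escape (-ℓ) := by
  obtain ⟨e, he⟩ := exists_dir_pos hℓ
  set c := level ℓ (unit e)
  have h1 : ∀ᵐ X ∂annM μ 0, ∀ m k N : ℕ, ((∃ᶠ n in atTop,
      -(m : ℝ) + k * c < level ℓ (X n) ∧ ∀ i < n, X i ≠ X n) →
      X ∈ StepEv ℓ (-(m : ℝ) + k * c) e N) ∧
      ∀ x, -(m : ℝ) + k * c < level ℓ x → (∃ᶠ n in atTop, X n = x) →
        X ∈ StepEv ℓ (-(m : ℝ) + k * c) e N := by
    simp only [ae_all_iff]
    intro m k N
    filter_upwards [annM_step_new μ hμ ℓ (-(m : ℝ) + k * c) e N,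
      annM_step_old μ hμ ℓ (-(m : ℝ) + k * c) e N] with X h1 h2
    exact ⟨h1, h2⟩
  filter_upwards [h1] with X hX hU
  have hstep : ∀ m k : ℕ, (∃ᶠ n in atTop, -(m : ℝ) + k * c < level ℓ (X n)) →
      ∃ᶠ n in atTop, -(m : ℝ) + (k + 1 : ℕ) * c < level ℓ (X n) := by
    intro m k hfr
    rw [Filter.frequently_atTop]
    intro N
    have hmem : X ∈ StepEv ℓ (-(m : ℝ) + k * c) e N := by
      rcases new_or_old hfr with h | ⟨x, hx, h⟩
      · exact (hX m k N).1 h
      · exact (hX m k N).2 x hx h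
    obtain ⟨n, hn, h2, h3⟩ := Set.mem_iUnion₂.1 hmem
    refine ⟨n + 1, (Set.mem_Ici.1 hn).trans (Nat.le_succ n), ?_⟩
    have h4 := h3 1 le_rfl
    simp only [fut, oneStep, one_ne_zero, if_false] at h4
    have h5 : level ℓ (X (n + 1)) = level ℓ (X n) + c := by
      have : X (n + 1) = X n + unit e := by rw [← h4]; abel
      rw [this, level_add]
    rw [h5]
    simp only [Set.mem_ofPred_eq] at h2
    push_cast
    linarith
  -- by contradiction
  have hall : ∀ m : ℕ, ¬ ∃ᶠ n in atTop, -(m : ℝ) < level ℓ (X n) := by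
    intro m hfr
    refine hU fun K => ?_
    have hk : ∀ k : ℕ, ∃ᶠ n in atTop, -(m : ℝ) + k * c < level ℓ (X n) := by
      intro k
      induction k with
      | zero => simpa using hfr
      | succ k ih => exact hstep m k ih
    obtain ⟨k, hk'⟩ := exists_nat_gt ((K + m) / c)
    rw [div_lt_iff₀ he] at hk'
    obtain ⟨n, hn⟩ := (hk k).exists
    exact ⟨n, by linarith⟩
  simp only [escape, Set.mem_ofPred_eq, level_neg]
  rw [tendsto_atTop]
  intro b
  obtain ⟨m, hm⟩ := exists_nat_ge b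
  have := hall m
  rw [Filter.not_frequently] at this
  filter_upwards [this] with n hn
  push Not at hn
  linarith

/-- **Sign-union law.** -/
theorem sign_union (hμ : Elliptic μ) {ℓ : Fin d → ℝ} (hℓ : ℓ ≠ 0)
    (h : annM μ 0 (escape ℓ) ≠ 0) : ∀ᵐ X ∂annM μ 0, X ∈ escape ℓ ∨ X ∈ escape (-ℓ) := by
  filter_upwards [bounded_escape μ hμ hℓ, unb_escape μ h] with X h1 h2
  by_cases hU : Unb ℓ X
  · exact Or.inl (h2 hU)
  · exact Or.inr (h1 hU)

end Vale.P147
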